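import Mathlib

/-!
Pointwise algebra for the three-state Potts recursion.

Throughout `a₁ a₂ a₃` and `b₁ b₂ b₃` are the normalised likelihood vectors
(`a₁ + a₂ + a₃ = 3`), `S = a₁² + a₂² + a₃² - 3`, `T = Σ (aᵢ - 1)³`.
-/

namespace Vale.Agent.Lib.P154

/-- The quantity `S` of a normalised vector. -/
noncomputable def sS (a₁ a₂ a₃ : ℝ) : ℝ := a₁ ^ 2 + a₂ ^ 2 + a₃ ^ 2 - 3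

/-- The quantity `T` of a normalised vector. -/
noncomputable def sT (a₁ a₂ a₃ : ℝ) : ℝ := (a₁ - 1) ^ 3 + (a₂ - 1) ^ 3 + (a₃ - 1) ^ 3

/-- Second elementary symmetric function. -/
def e2 (x y z : ℝ) : ℝ := x * y + x * z + y * z

/-- `E` in terms of the invariants. -/
noncomputable def bigE (S₁ T₁ S₂ T₂ : ℝ) : ℝ := 27 - 9 / 4 * (S₁ * S₂) + 3 / 2 * (T₁ * T₂)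

/-- The polynomial `𝐏` in terms of the invariants. -/
noncomputable def bigP (S₁ T₁ S₂ T₂ : ℝ) : ℝ :=
  9 / 2 * (S₁ * S₂) + 9 * (T₁ * S₂ + T₂ * S₁) - 9 * (T₁ * T₂)
    - 3 / 2 * S₁ * (S₁ * S₂ + S₁ * T₂ - T₁ * T₂)
    - 3 / 2 * S₂ * (S₁ * S₂ + T₁ * S₂ - T₁ * T₂)
    + 1 / 8 * (S₁ * S₁ * S₂ * S₂)

section identities
variable (a₁ a₂ b₁ b₂ : ℝ)

/-- numerator over the three rotations -/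
noncomputable def nRot (a₁ a₂ a₃ b₁ b₂ b₃ : ℝ) : ℝ :=
  e2 (a₁ * b₁) (a₂ * b₂) (a₃ * b₃) * (a₁ * b₂ + a₂ * b₃ + a₃ * b₁) * (a₁ * b₃ + a₂ * b₁ + a₃ * b₂)
  + e2 (a₁ * b₂) (a₂ * b₃) (a₃ * b₁) * (a₁ * b₁ + a₂ * b₂ + a₃ * b₃) * (a₁ * b₃ + a₂ * b₁ + a₃ * b₂)
  + e2 (a₁ * b₃) (a₂ * b₁) (a₃ * b₂) * (a₁ * b₁ + a₂ * b₂ + a₃ * b₃) * (a₁ * b₂ + a₂ * b₃ + a₃ * b₁)

theorem nRot_swap (a₁ a₂ a₃ b₁ b₂ b₃ : ℝ) (ha : a₁ + a₂ + a₃ = 3) (hb : b₁ + b₂ + b₃ = 3) :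
    nRot a₁ a₂ a₃ b₁ b₂ b₃ = nRot a₁ a₂ a₃ b₁ b₃ b₂ := by
  have h3 : a₃ = 3 - a₁ - a₂ := by linarith
  have h4 : b₃ = 3 - b₁ - b₂ := by linarith
  subst h3 h4
  unfold nRot e2
  ring

theorem prod_sum (a₁ a₂ a₃ b₁ b₂ b₃ : ℝ) (ha : a₁ + a₂ + a₃ = 3) (hb : b₁ + b₂ + b₃ = 3) :
    (a₁ * b₁ + a₂ * b₂ + a₃ * b₃) * (a₁ * b₂ + a₂ * b₃ + a₃ * b₁) * (a₁ * b₃ + a₂ * b₁ + a₃ * b₂)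
    + (a₁ * b₁ + a₂ * b₃ + a₃ * b₂) * (a₁ * b₃ + a₂ * b₂ + a₃ * b₁) * (a₁ * b₂ + a₂ * b₁ + a₃ * b₃)
    = 2 * bigE (sS a₁ a₂ a₃) (sT a₁ a₂ a₃) (sS b₁ b₂ b₃) (sT b₁ b₂ b₃) := by
  have h3 : a₃ = 3 - a₁ - a₂ := by linarith
  have h4 : b₃ = 3 - b₁ - b₂ := by linarith
  subst h3 h4
  unfold bigE sS sT
  ring

theorem bigP_eq (a₁ a₂ a₃ b₁ b₂ b₃ : ℝ) (ha : a₁ + a₂ + a₃ = 3) (hb : b₁ + b₂ + b₃ = 3) :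
    bigP (sS a₁ a₂ a₃) (sT a₁ a₂ a₃) (sS b₁ b₂ b₃) (sT b₁ b₂ b₃)
      = (sS a₁ a₂ a₃ + sS b₁ b₂ b₃ - 6)
          * bigE (sS a₁ a₂ a₃) (sT a₁ a₂ a₃) (sS b₁ b₂ b₃) (sT b₁ b₂ b₃)
        + 2 * nRot a₁ a₂ a₃ b₁ b₂ b₃ := by
  have h3 : a₃ = 3 - a₁ - a₂ := by linarith
  have h4 : b₃ = 3 - b₁ - b₂ := by linarith
  subst h3 h4
  unfold bigE bigP sS sT nRot e2
  ring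

/-- The polynomial lower bound for one arrangement `u` of the second vector. -/
noncomputable def lbTerm (w₁ w₂ w₃ u₁ u₂ u₃ α₁ α₂ γ : ℝ) : ℝ :=
  let p := w₁ * u₁ + w₂ * u₂ + w₃ * u₃
  let m₁ := w₁ * u₁ - p / 3
  let m₂ := w₂ * u₂ - p / 3
  let m₃ := w₃ * u₃ - p / 3
  let v₁ := α₁ * w₁ + α₂ * u₁ + γ * m₁
  let v₂ := α₁ * w₂ + α₂ * u₂ + γ * m₂
  let v₃ := α₁ * w₃ + α₂ * u₃ + γ * m₃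
  (2 * v₁ * (w₁ + u₁ + m₁) - v₁ ^ 2 * (3 + p) / 3)
  + (2 * v₂ * (w₂ + u₂ + m₂) - v₂ ^ 2 * (3 + p) / 3)
  + (2 * v₃ * (w₃ + u₃ + m₃) - v₃ ^ 2 * (3 + p) / 3)

theorem lbTerm_avg (w₁ w₂ w₃ u₁ u₂ u₃ α₁ α₂ γ : ℝ) (hw : w₁ + w₂ + w₃ = 0) (hu : u₁ + u₂ + u₃ = 0) :
    (lbTerm w₁ w₂ w₃ u₁ u₂ u₃ α₁ α₂ γ + lbTerm w₁ w₂ w₃ u₂ u₃ u₁ α₁ α₂ γ
      + lbTerm w₁ w₂ w₃ u₃ u₁ u₂ α₁ α₂ γ + lbTerm w₁ w₂ w₃ u₁ u₃ u₂ α₁ α₂ γ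
      + lbTerm w₁ w₂ w₃ u₂ u₁ u₃ α₁ α₂ γ + lbTerm w₁ w₂ w₃ u₃ u₂ u₁ α₁ α₂ γ) / 6
    = (2 * α₁ - α₁ ^ 2) * (w₁ ^ 2 + w₂ ^ 2 + w₃ ^ 2) + (2 * α₂ - α₂ ^ 2) * (u₁ ^ 2 + u₂ ^ 2 + u₃ ^ 2)
      + (w₁ ^ 2 + w₂ ^ 2 + w₃ ^ 2) * (u₁ ^ 2 + u₂ ^ 2 + u₃ ^ 2)
          * ((2 * γ - γ ^ 2) / 6 - α₁ * α₂ / 3)
      - γ / 3 * (α₁ * (u₁ ^ 2 + u₂ ^ 2 + u₃ ^ 2) * (w₁ ^ 3 + w₂ ^ 3 + w₃ ^ 3)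
          + α₂ * (w₁ ^ 2 + w₂ ^ 2 + w₃ ^ 2) * (u₁ ^ 3 + u₂ ^ 3 + u₃ ^ 3)) := by
  have h3 : w₃ = - w₁ - w₂ := by linarith
  have h4 : u₃ = - u₁ - u₂ := by linarith
  subst h3 h4
  unfold lbTerm
  ring

end identities

end Vale.Agent.Lib.P154
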