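import Vale.Agent.Lib.P154.BBDefs

namespace Vale.Agent.Lib.P154.BB

theorem ck_0_1 : check 60 (mkCell 0 393216 0 16384) (mkCell 0 393216 16384 32768) = true := by
  decide +kernel

theorem ck_0_5 : check 60 (mkCell 0 393216 0 16384) (mkCell 0 393216 81920 98304) = true := by
  decide +kernel

theorem ck_1_4 : check 60 (mkCell 0 393216 16384 32768) (mkCell 0 393216 65536 81920) = true := by
  decide +kernel

theorem ck_2_4 : check 60 (mkCell 0 393216 32768 49152) (mkCell 0 393216 65536 81920) = true := by
  decide +kernel

theorem ck_3_5 : check 60 (mkCell 0 393216 49152 65536) (mkCell 0 393216 81920 98304) = true := by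
  decide +kernel

end Vale.Agent.Lib.P154.BB
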