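import Mathlib

/-!
A small verified branch and bound for the inequality (A).  All arithmetic is on natural numbers
with the kernel's fast operations: a signed number is a pair `p - n`.
-/

namespace Vale.Agent.Lib.P154.BB

/-- A signed number, as a formal difference of natural numbers. -/
structure SI where
  p : Nat
  n : Nat

/-- addition -/
def sadd (x y : SI) : SI := ⟨Nat.add x.p y.p, Nat.add x.n y.n⟩
/-- multiplication -/
def smul (x y : SI) : SI :=
  ⟨Nat.add (Nat.mul x.p y.p) (Nat.mul x.n y.n), Nat.add (Nat.mul x.p y.n) (Nat.mul x.n y.p)⟩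
/-- negation -/
def sneg (x : SI) : SI := ⟨x.n, x.p⟩
/-- subtraction -/
def ssub (x y : SI) : SI := ⟨Nat.add x.p y.n, Nat.add x.n y.p⟩
/-- comparison -/
def sle (x y : SI) : Bool := Nat.ble (Nat.add x.p y.n) (Nat.add y.p x.n)
/-- embedding -/
def scst (k : Nat) : SI := ⟨k, 0⟩
/-- minimum -/
def smin (a b : SI) : SI := cond (sle a b) a b
/-- maximum -/
def smax (a b : SI) : SI := cond (sle a b) b a
/-- minimum of four -/
def smin4 (a b c d : SI) : SI := smin (smin a b) (smin c d)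
/-- maximum of four -/
def smax4 (a b c d : SI) : SI := smax (smax a b) (smax c d)
/-- lower bound for `c * x`, `x ∈ [l, h]` -/
def slow (c l h : SI) : SI := cond (Nat.ble c.n c.p) (smul c l) (smul c h)
/-- multiplication by a natural number -/
def skm (k : Nat) (x : SI) : SI := ⟨Nat.mul k x.p, Nat.mul k x.n⟩

/-- scale -/
def NN : Nat := 65536
/-- scale squared -/
def N2 : Nat := 4294967296
/-- scale cubed -/
def N3 : Nat := 281474976710656
/-- half the scale -/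
def HN : Nat := 32768

/-- Ranges of the monomials in `τ₁, τ₂` -/
structure Rng where
  m12l : SI
  m12h : SI
  m112l : SI
  m112h : SI
  m122l : SI
  m122h : SI

/-- lower bound for the square, `x ∈ [l,h]` -/
def sqLow (l h : SI) : SI :=
  cond (Nat.ble l.p l.n && Nat.ble h.n h.p) (scst 0) (smin (smul l l) (smul h h))

/-- upper bound for the square -/
def sqHigh (l h : SI) : SI := smax (smul l l) (smul h h)

/-- compute the ranges -/
def mkRng (l1 h1 l2 h2 : SI) : Rng :=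
  let p1 := smul l1 l2
  let p2 := smul l1 h2
  let p3 := smul h1 l2
  let p4 := smul h1 h2
  let q1l := sqLow l1 h1
  let q1h := sqHigh l1 h1
  let q2l := sqLow l2 h2
  let q2h := sqHigh l2 h2
  let r1 := smul q1l l2
  let r2 := smul q1l h2
  let r3 := smul q1h l2
  let r4 := smul q1h h2
  let r5 := smul l1 q2l
  let r6 := smul l1 q2h
  let r7 := smul h1 q2l
  let r8 := smul h1 q2h
  ⟨smin4 p1 p2 p3 p4, smax4 p1 p2 p3 p4, smin4 r1 r2 r3 r4, smax4 r1 r2 r3 r4,
    smin4 r5 r6 r7 r8, smax4 r5 r6 r7 r8⟩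

/-- The main test at a corner in `S₁, S₂`. -/
def cornerMain (s1 s2 : Nat) (f1 f2 l1 h1 l2 h2 : SI) (R : Rng) : Bool :=
  let B0 := sadd (skm 130 (sadd f1 f2)) (scst NN)
  let B1 := sneg (skm 80 f2)
  let B2 := sneg (skm 80 f1)
  let s12 := Nat.mul s1 s2
  let E0 : SI := ⟨Nat.mul 108 N2, Nat.mul 9 s12⟩
  let E1 : SI := ⟨Nat.mul 6 s12, 0⟩
  let A0 := ssub ⟨Nat.add (Nat.mul 36000 N3) (Nat.mul (Nat.mul 1000 s12) NN), 0⟩
    (sadd ⟨Nat.mul (Nat.mul 12000 (Nat.add s1 s2)) N2, 0⟩ (skm 2 (smul E0 B0)))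
  let A1 := ssub ⟨Nat.mul 72000 N3, Nat.mul (Nat.mul 12000 s2) N2⟩ (skm 2 (smul E0 B1))
  let A2 := ssub ⟨Nat.mul 72000 N3, Nat.mul (Nat.mul 12000 s1) N2⟩ (skm 2 (smul E0 B2))
  let A3 := ssub ⟨Nat.mul (Nat.mul 12000 (Nat.add s1 s2)) N2, Nat.mul 72000 N3⟩ (skm 2 (smul E1 B0))
  let A4 := sneg (skm 2 (smul E1 B1))
  let A5 := sneg (skm 2 (smul E1 B2))
  sle (scst 0) (sadd (sadd (sadd (sadd (sadd (skm N3 A0) (slow (skm N2 A1) l1 h1))
    (slow (skm N2 A2) l2 h2)) (slow (skm NN A3) R.m12l R.m12h)) (slow A4 R.m112l R.m112h))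
    (slow A5 R.m122l R.m122h))

/-- The alternative test at a corner in `S₁, S₂`. -/
def cornerAlt (s1 s2 : Nat) (f1 f2 l1 h1 l2 h2 : SI) : Bool :=
  let B0 := sadd (skm 130 (sadd f1 f2)) (scst NN)
  let B1 := sneg (skm 80 f2)
  let B2 := sneg (skm 80 f1)
  let s12 := Nat.mul s1 s2
  let c : SI := ssub ⟨Nat.mul (Nat.mul 1000 (Nat.add s1 s2)) N2, Nat.mul 6000 N3⟩ (skm s12 B0)
  sle (scst 0) (sadd (sadd (skm NN c) (slow (sneg (skm s12 B1)) l1 h1))
    (slow (sneg (skm s12 B2)) l2 h2))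

/-- A cell of the domain. -/
structure Cell where
  sl : Nat
  sh : Nat
  tl : Nat
  th : Nat
  lo : SI
  hi : SI
  f  : SI

/-- the shifted coordinate as a signed number -/
def toS (t : Nat) : SI := ⟨Nat.sub t HN, Nat.sub HN t⟩

/-- pick a tangent point from the table -/
def kPick (q : Nat → Bool) : Nat :=
  cond (q 8)
    (cond (q 4)
      (cond (q 2) (cond (q 1) 1 2) (cond (q 3) 3 4))
      (cond (q 6) (cond (q 5) 5 6) (cond (q 7) 7 8)))
    (cond (q 12)
      (cond (q 10) (cond (q 9) 9 10) (cond (q 11) 11 12))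
      (cond (q 14) (cond (q 13) 13 14) (cond (q 15) 15 16)))

/-- first bound for `f`, scale `NN` -/
def fA (t : SI) : SI := ⟨Nat.add (Nat.div (Nat.mul t.p 7) 5) 1, Nat.div (Nat.mul t.n 7) 5⟩

/-- second bound for `f`, scale `NN` -/
def fB (t : SI) : SI := ⟨Nat.add t.p 8258, t.n⟩

/-- tangent bound for `f`, scale `NN` -/
def fD (sl : Nat) (t : SI) (k : Nat) : SI :=
  let kk := Nat.mul k k
  let d5 := Nat.mul 5 kk
  let c := Nat.add d5 512
  ⟨Nat.add (Nat.add (Nat.div (Nat.mul t.p c) d5) 1)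
      (Nat.add (Nat.div (Nat.mul (Nat.mul 3 N2) (Nat.mul (Nat.mul (Nat.sub 16 k) (Nat.sub 16 k)) (Nat.add k 8)))
        (Nat.mul (Nat.mul 20 kk) sl)) 1),
   Nat.add (Nat.div (Nat.mul t.n c) d5) (Nat.div (Nat.mul (Nat.mul 3 NN) (Nat.sub 256 kk)) d5)⟩

/-- The bound for `f` on a cell. -/
def fBar (sl sh tl : Nat) (hi : SI) : SI :=
  let m := toS (Nat.div (Nat.add tl (Nat.add hi.p (Nat.sub HN hi.n))) 2)
  let sm := Nat.div (Nat.add sl sh) 2
  let ep := Nat.mul 4096 (Nat.add (Nat.mul 6 N2) (Nat.mul (Nat.mul 2 sm) m.p))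
  let en := Nat.mul 4096 (Nat.add (Nat.mul (Nat.mul 3 sm) NN) (Nat.mul (Nat.mul 2 sm) m.n))
  let k := kPick (fun z => Nat.ble ep (Nat.add (Nat.mul (Nat.mul z (Nat.mul z z)) (Nat.mul 6 N2)) en))
  smin (smin (fA hi) (fB hi)) (cond (Nat.ble 1 sl) (fD sl hi k) (fA hi))

/-- Make a cell, shrinking the range of `S` using the constraints of the domain. -/
def mkCell (sl sh tl th : Nat) : Cell :=
  let lo := toS tl
  let hi := toS th
  let a := Nat.div (Nat.mul 6 (sqLow lo hi).p) NN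
  let sl' := cond (Nat.ble sl a) a sl
  let b := cond (Nat.ble hi.p NN)
    (Nat.add (Nat.div (Nat.mul 6 N2) (Nat.sub (Nat.add (Nat.mul 3 NN) (Nat.mul 2 hi.n)) (Nat.mul 2 hi.p))) 1)
    sh
  let sh' := cond (Nat.ble sh b) sh b
  ⟨sl', sh', tl, th, lo, hi, fBar sl' sh' tl hi⟩

/-- test on a pair of cells -/
def leafOK (X Y : Cell) : Bool :=
  let R := mkRng X.lo X.hi Y.lo Y.hi
  (cornerMain X.sl Y.sl X.f Y.f X.lo X.hi Y.lo Y.hi R && cornerMain X.sl Y.sh X.f Y.f X.lo X.hi Y.lo Y.hi R &&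
   cornerMain X.sh Y.sl X.f Y.f X.lo X.hi Y.lo Y.hi R && cornerMain X.sh Y.sh X.f Y.f X.lo X.hi Y.lo Y.hi R) ||
  (cornerAlt X.sl Y.sl X.f Y.f X.lo X.hi Y.lo Y.hi && cornerAlt X.sl Y.sh X.f Y.f X.lo X.hi Y.lo Y.hi &&
   cornerAlt X.sh Y.sl X.f Y.f X.lo X.hi Y.lo Y.hi && cornerAlt X.sh Y.sh X.f Y.f X.lo X.hi Y.lo Y.hi)

/-- The branch and bound. -/
def check : Nat → Cell → Cell → Bool
  | 0, _, _ => false
  | Nat.succ n, X, Y =>
    (Nat.blt X.sh X.sl || Nat.blt Y.sh Y.sl) || leafOK X Y ||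
      (let wxs := Nat.sub X.sh X.sl
       let wxt := Nat.mul 4 (Nat.sub X.th X.tl)
       let wys := Nat.sub Y.sh Y.sl
       let wyt := Nat.mul 4 (Nat.sub Y.th Y.tl)
       let wx := cond (Nat.ble wxs wxt) wxt wxs
       let wy := cond (Nat.ble wys wyt) wyt wys
       cond (Nat.ble wy wx)
        (cond (Nat.ble wxt wxs)
          (let m := Nat.div (Nat.add X.sl X.sh) 2
           check n (mkCell X.sl m X.tl X.th) Y && check n (mkCell m X.sh X.tl X.th) Y)
          (let m := Nat.div (Nat.add X.tl X.th) 2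
           check n (mkCell X.sl X.sh X.tl m) Y && check n (mkCell X.sl X.sh m X.th) Y))
        (cond (Nat.ble wyt wys)
          (let m := Nat.div (Nat.add Y.sl Y.sh) 2
           check n X (mkCell Y.sl m Y.tl Y.th) && check n X (mkCell m Y.sh Y.tl Y.th))
          (let m := Nat.div (Nat.add Y.tl Y.th) 2
           check n X (mkCell Y.sl Y.sh Y.tl m) && check n X (mkCell Y.sl Y.sh m Y.th))))

end Vale.Agent.Lib.P154.BB
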