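import Vale.Agent.Lib.P154.BBSound2
import Vale.Agent.Lib.P154.BBCk0
import Vale.Agent.Lib.P154.BBCk1
import Vale.Agent.Lib.P154.BBCk2
import Vale.Agent.Lib.P154.BBCk3

namespace Vale.Agent.Lib.P154.BB

theorem top_mem {S τ g : ℝ} (d : Dom S τ g) (tl th : ℕ) (h1 : (tl : ℝ) - 32768 ≤ τ * 65536)
    (h2 : τ * 65536 ≤ (th : ℝ) - 32768) : Mem (mkCell 0 393216 tl th) S τ g := by
  apply mkCell_mem d _ _ _ _ _ _ h1 h2
  · have := d.Spos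
    push_cast
    positivity
  · have := d.Sle
    push_cast
    linarith

theorem piece_cases {S τ g : ℝ} (d : Dom S τ g) :
    ((((0 : ℕ) : ℝ) - 32768 ≤ τ * 65536) ∧ (τ * 65536 ≤ ((16384 : ℕ) : ℝ) - 32768)) ∨
    ((((16384 : ℕ) : ℝ) - 32768 ≤ τ * 65536) ∧ (τ * 65536 ≤ ((32768 : ℕ) : ℝ) - 32768)) ∨
    ((((32768 : ℕ) : ℝ) - 32768 ≤ τ * 65536) ∧ (τ * 65536 ≤ ((49152 : ℕ) : ℝ) - 32768)) ∨
    ((((49152 : ℕ) : ℝ) - 32768 ≤ τ * 65536) ∧ (τ * 65536 ≤ ((65536 : ℕ) : ℝ) - 32768)) ∨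
    ((((65536 : ℕ) : ℝ) - 32768 ≤ τ * 65536) ∧ (τ * 65536 ≤ ((81920 : ℕ) : ℝ) - 32768)) ∨
    ((((81920 : ℕ) : ℝ) - 32768 ≤ τ * 65536) ∧ (τ * 65536 ≤ ((98304 : ℕ) : ℝ) - 32768)) := by
  have h1 := d.tlo
  have h2 := d.thi
  push_cast
  rcases le_total τ (-(1 / 4)) with a | a
  · left; constructor <;> linarith
  right
  rcases le_total τ 0 with b | b
  · left; constructor <;> linarith
  right
  rcases le_total τ (1 / 4) with c | c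
  · left; constructor <;> linarith
  right
  rcases le_total τ (1 / 2) with e | e
  · left; constructor <;> linarith
  right
  rcases le_total τ (3 / 4) with f | f
  · left; constructor <;> linarith
  right
  constructor <;> linarith

/-- The inequality `(A)` in the form needed. -/
theorem bbMain {S₁ τ₁ g₁ S₂ τ₂ g₂ : ℝ} (d1 : Dom S₁ τ₁ g₁) (d2 : Dom S₂ τ₂ g₂) :
    Goal S₁ τ₁ g₁ S₂ τ₂ g₂ := by
  obtain h1 | h1 | h1 | h1 | h1 | h1 := piece_cases d1 <;>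
  obtain h2 | h2 | h2 | h2 | h2 | h2 := piece_cases d2
  · exact check_sound d1 d2 60 _ _ ck_0_0 (top_mem d1 _ _ h1.1 h1.2) (top_mem d2 _ _ h2.1 h2.2)
  · exact check_sound d1 d2 60 _ _ ck_0_1 (top_mem d1 _ _ h1.1 h1.2) (top_mem d2 _ _ h2.1 h2.2)
  · exact check_sound d1 d2 60 _ _ ck_0_2 (top_mem d1 _ _ h1.1 h1.2) (top_mem d2 _ _ h2.1 h2.2)
  · exact check_sound d1 d2 60 _ _ ck_0_3 (top_mem d1 _ _ h1.1 h1.2) (top_mem d2 _ _ h2.1 h2.2)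
  · exact check_sound d1 d2 60 _ _ ck_0_4 (top_mem d1 _ _ h1.1 h1.2) (top_mem d2 _ _ h2.1 h2.2)
  · exact check_sound d1 d2 60 _ _ ck_0_5 (top_mem d1 _ _ h1.1 h1.2) (top_mem d2 _ _ h2.1 h2.2)
  · exact Goal.symm (check_sound d2 d1 60 _ _ ck_0_1 (top_mem d2 _ _ h2.1 h2.2) (top_mem d1 _ _ h1.1 h1.2))
  · exact check_sound d1 d2 60 _ _ ck_1_1 (top_mem d1 _ _ h1.1 h1.2) (top_mem d2 _ _ h2.1 h2.2)
  · exact check_sound d1 d2 60 _ _ ck_1_2 (top_mem d1 _ _ h1.1 h1.2) (top_mem d2 _ _ h2.1 h2.2)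
  · exact check_sound d1 d2 60 _ _ ck_1_3 (top_mem d1 _ _ h1.1 h1.2) (top_mem d2 _ _ h2.1 h2.2)
  · exact check_sound d1 d2 60 _ _ ck_1_4 (top_mem d1 _ _ h1.1 h1.2) (top_mem d2 _ _ h2.1 h2.2)
  · exact check_sound d1 d2 60 _ _ ck_1_5 (top_mem d1 _ _ h1.1 h1.2) (top_mem d2 _ _ h2.1 h2.2)
  · exact Goal.symm (check_sound d2 d1 60 _ _ ck_0_2 (top_mem d2 _ _ h2.1 h2.2) (top_mem d1 _ _ h1.1 h1.2))
  · exact Goal.symm (check_sound d2 d1 60 _ _ ck_1_2 (top_mem d2 _ _ h2.1 h2.2) (top_mem d1 _ _ h1.1 h1.2))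
  · exact check_sound d1 d2 60 _ _ ck_2_2 (top_mem d1 _ _ h1.1 h1.2) (top_mem d2 _ _ h2.1 h2.2)
  · exact check_sound d1 d2 60 _ _ ck_2_3 (top_mem d1 _ _ h1.1 h1.2) (top_mem d2 _ _ h2.1 h2.2)
  · exact check_sound d1 d2 60 _ _ ck_2_4 (top_mem d1 _ _ h1.1 h1.2) (top_mem d2 _ _ h2.1 h2.2)
  · exact check_sound d1 d2 60 _ _ ck_2_5 (top_mem d1 _ _ h1.1 h1.2) (top_mem d2 _ _ h2.1 h2.2)
  · exact Goal.symm (check_sound d2 d1 60 _ _ ck_0_3 (top_mem d2 _ _ h2.1 h2.2) (top_mem d1 _ _ h1.1 h1.2))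
  · exact Goal.symm (check_sound d2 d1 60 _ _ ck_1_3 (top_mem d2 _ _ h2.1 h2.2) (top_mem d1 _ _ h1.1 h1.2))
  · exact Goal.symm (check_sound d2 d1 60 _ _ ck_2_3 (top_mem d2 _ _ h2.1 h2.2) (top_mem d1 _ _ h1.1 h1.2))
  · exact check_sound d1 d2 60 _ _ ck_3_3 (top_mem d1 _ _ h1.1 h1.2) (top_mem d2 _ _ h2.1 h2.2)
  · exact check_sound d1 d2 60 _ _ ck_3_4 (top_mem d1 _ _ h1.1 h1.2) (top_mem d2 _ _ h2.1 h2.2)
  · exact check_sound d1 d2 60 _ _ ck_3_5 (top_mem d1 _ _ h1.1 h1.2) (top_mem d2 _ _ h2.1 h2.2)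
  · exact Goal.symm (check_sound d2 d1 60 _ _ ck_0_4 (top_mem d2 _ _ h2.1 h2.2) (top_mem d1 _ _ h1.1 h1.2))
  · exact Goal.symm (check_sound d2 d1 60 _ _ ck_1_4 (top_mem d2 _ _ h2.1 h2.2) (top_mem d1 _ _ h1.1 h1.2))
  · exact Goal.symm (check_sound d2 d1 60 _ _ ck_2_4 (top_mem d2 _ _ h2.1 h2.2) (top_mem d1 _ _ h1.1 h1.2))
  · exact Goal.symm (check_sound d2 d1 60 _ _ ck_3_4 (top_mem d2 _ _ h2.1 h2.2) (top_mem d1 _ _ h1.1 h1.2))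
  · exact check_sound d1 d2 60 _ _ ck_4_4 (top_mem d1 _ _ h1.1 h1.2) (top_mem d2 _ _ h2.1 h2.2)
  · exact check_sound d1 d2 60 _ _ ck_4_5 (top_mem d1 _ _ h1.1 h1.2) (top_mem d2 _ _ h2.1 h2.2)
  · exact Goal.symm (check_sound d2 d1 60 _ _ ck_0_5 (top_mem d2 _ _ h2.1 h2.2) (top_mem d1 _ _ h1.1 h1.2))
  · exact Goal.symm (check_sound d2 d1 60 _ _ ck_1_5 (top_mem d2 _ _ h2.1 h2.2) (top_mem d1 _ _ h1.1 h1.2))
  · exact Goal.symm (check_sound d2 d1 60 _ _ ck_2_5 (top_mem d2 _ _ h2.1 h2.2) (top_mem d1 _ _ h1.1 h1.2))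
  · exact Goal.symm (check_sound d2 d1 60 _ _ ck_3_5 (top_mem d2 _ _ h2.1 h2.2) (top_mem d1 _ _ h1.1 h1.2))
  · exact Goal.symm (check_sound d2 d1 60 _ _ ck_4_5 (top_mem d2 _ _ h2.1 h2.2) (top_mem d1 _ _ h1.1 h1.2))
  · exact check_sound d1 d2 60 _ _ ck_5_5 (top_mem d1 _ _ h1.1 h1.2) (top_mem d2 _ _ h2.1 h2.2)

end Vale.Agent.Lib.P154.BB
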