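import Vale.Agent.Lib.P154.BBDefs

namespace Vale.Agent.Lib.P154.BB

/-- real value of a signed number -/
noncomputable def val (x : SI) : ℝ := (x.p : ℝ) - (x.n : ℝ)

@[simp] theorem cast_nadd (a b : ℕ) : ((Nat.add a b : ℕ) : ℝ) = a + b := by
  simp [Nat.add_eq]
@[simp] theorem cast_nmul (a b : ℕ) : ((Nat.mul a b : ℕ) : ℝ) = a * b := by
  simp [Nat.mul_eq]

theorem val_sadd (x y : SI) : val (sadd x y) = val x + val y := by
  simp [val, sadd]; ring
theorem val_smul (x y : SI) : val (smul x y) = val x * val y := by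
  simp [val, smul]; ring
theorem val_sneg (x : SI) : val (sneg x) = - val x := by
  simp [val, sneg]
theorem val_ssub (x y : SI) : val (ssub x y) = val x - val y := by
  simp [val, ssub]; ring
theorem val_scst (k : ℕ) : val (scst k) = k := by
  simp [val, scst]
theorem val_skm (k : ℕ) (x : SI) : val (skm k x) = k * val x := by
  simp [val, skm]; ring
theorem val_mk (a b : ℕ) : val ⟨a, b⟩ = (a : ℝ) - b := rfl

theorem sle_iff (x y : SI) : sle x y = true ↔ val x ≤ val y := by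
  unfold sle val
  rw [Nat.ble_eq, Nat.add_eq, Nat.add_eq]
  constructor
  · intro h
    have : ((x.p + y.n : ℕ) : ℝ) ≤ ((y.p + x.n : ℕ) : ℝ) := by exact_mod_cast h
    push_cast at this
    linarith
  · intro h
    have : ((x.p + y.n : ℕ) : ℝ) ≤ ((y.p + x.n : ℕ) : ℝ) := by
      push_cast
      linarith
    exact_mod_cast this

theorem sle_false (x y : SI) (h : sle x y = false) : val y < val x := by
  by_contra h'
  have := (sle_iff x y).2 (not_lt.1 h')
  rw [h] at this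
  exact absurd this (by simp)

theorem val_smin_le_left (a b : SI) : val (smin a b) ≤ val a := by
  unfold smin
  cases h : sle a b
  · simp only [cond_false]; exact (sle_false a b h).le
  · simp only [cond_true]; exact le_refl _

theorem val_smin_le_right (a b : SI) : val (smin a b) ≤ val b := by
  unfold smin
  cases h : sle a b
  · simp only [cond_false]; exact le_refl _
  · simp only [cond_true]; exact (sle_iff a b).1 h

theorem le_val_smin (a b : SI) (x : ℝ) (h1 : x ≤ val a) (h2 : x ≤ val b) : x ≤ val (smin a b) := by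
  unfold smin
  cases sle a b <;> simp only [cond_false, cond_true] <;> assumption

theorem left_le_val_smax (a b : SI) : val a ≤ val (smax a b) := by
  unfold smax
  cases h : sle a b
  · simp only [cond_false]; exact le_refl _
  · simp only [cond_true]; exact (sle_iff a b).1 h

theorem right_le_val_smax (a b : SI) : val b ≤ val (smax a b) := by
  unfold smax
  cases h : sle a b
  · simp only [cond_false]; exact (sle_false a b h).le
  · simp only [cond_true]; exact le_refl _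

theorem val_smin4 (a b c d : SI) (x : ℝ)
    (h : val a ≤ x ∨ val b ≤ x ∨ val c ≤ x ∨ val d ≤ x) : val (smin4 a b c d) ≤ x := by
  unfold smin4
  have h1 := val_smin_le_left (smin a b) (smin c d)
  have h2 := val_smin_le_right (smin a b) (smin c d)
  have h3 := val_smin_le_left a b
  have h4 := val_smin_le_right a b
  have h5 := val_smin_le_left c d
  have h6 := val_smin_le_right c d
  rcases h with h | h | h | h <;> linarith

theorem val_smax4 (a b c d : SI) (x : ℝ)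
    (h : x ≤ val a ∨ x ≤ val b ∨ x ≤ val c ∨ x ≤ val d) : x ≤ val (smax4 a b c d) := by
  unfold smax4
  have h1 := left_le_val_smax (smax a b) (smax c d)
  have h2 := right_le_val_smax (smax a b) (smax c d)
  have h3 := left_le_val_smax a b
  have h4 := right_le_val_smax a b
  have h5 := left_le_val_smax c d
  have h6 := right_le_val_smax c d
  rcases h with h | h | h | h <;> linarith

/-- A product `x y` over a box lies between the corner products. -/
theorem mul_between (l h l' h' x y : ℝ) (hx : l ≤ x) (hx' : x ≤ h) (hy : l' ≤ y) (hy' : y ≤ h') :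
    (l * l' ≤ x * y ∨ l * h' ≤ x * y ∨ h * l' ≤ x * y ∨ h * h' ≤ x * y) ∧
    (x * y ≤ l * l' ∨ x * y ≤ l * h' ∨ x * y ≤ h * l' ∨ x * y ≤ h * h') := by
  constructor
  · by_cases hy0 : 0 ≤ y
    · by_cases hl : 0 ≤ l
      · left
        nlinarith [mul_nonneg hy0 (sub_nonneg.2 hx), mul_nonneg hl (sub_nonneg.2 hy)]
      · right; left
        push Not at hl
        nlinarith [mul_nonneg hy0 (sub_nonneg.2 hx), mul_nonneg (neg_nonneg.2 hl.le) (sub_nonneg.2 hy')]
    · push Not at hy0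
      by_cases hh : 0 ≤ h
      · right; right; left
        nlinarith [mul_nonneg (neg_nonneg.2 hy0.le) (sub_nonneg.2 hx'), mul_nonneg hh (sub_nonneg.2 hy)]
      · right; right; right
        push Not at hh
        nlinarith [mul_nonneg (neg_nonneg.2 hy0.le) (sub_nonneg.2 hx'), mul_nonneg (neg_nonneg.2 hh.le) (sub_nonneg.2 hy')]
  · by_cases hy0 : 0 ≤ y
    · by_cases hh : 0 ≤ h
      · right; right; right
        nlinarith [mul_nonneg hy0 (sub_nonneg.2 hx'), mul_nonneg hh (sub_nonneg.2 hy')]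
      · right; right; left
        push Not at hh
        nlinarith [mul_nonneg hy0 (sub_nonneg.2 hx'), mul_nonneg (neg_nonneg.2 hh.le) (sub_nonneg.2 hy)]
    · push Not at hy0
      by_cases hl : 0 ≤ l
      · right; left
        nlinarith [mul_nonneg (neg_nonneg.2 hy0.le) (sub_nonneg.2 hx), mul_nonneg hl (sub_nonneg.2 hy')]
      · left
        push Not at hl
        nlinarith [mul_nonneg (neg_nonneg.2 hy0.le) (sub_nonneg.2 hx), mul_nonneg (neg_nonneg.2 hl.le) (sub_nonneg.2 hy)]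

theorem ble_false {a b : ℕ} (h : Nat.ble a b = false) : b < a := by
  by_contra h'
  have : Nat.ble a b = true := (Nat.ble_eq ▸ (not_lt.1 h'))
  rw [h] at this
  exact absurd this (by simp)

theorem slow_le (c l h : SI) (x : ℝ) (h1 : val l ≤ x) (h2 : x ≤ val h) :
    val (slow c l h) ≤ val c * x := by
  unfold slow
  cases hc : Nat.ble c.n c.p
  · simp only [cond_false, val_smul]
    have : val c ≤ 0 := by
      have := ble_false hc
      unfold val
      have : (c.p : ℝ) ≤ c.n := by exact_mod_cast this.le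
      linarith
    nlinarith
  · simp only [cond_true, val_smul]
    have : 0 ≤ val c := by
      have := Nat.le_of_ble_eq_true hc
      unfold val
      have : (c.n : ℝ) ≤ c.p := by exact_mod_cast this
      linarith
    nlinarith

theorem sqLow_le (l h : SI) (x : ℝ) (h1 : val l ≤ x) (h2 : x ≤ val h) (hl : l.p * l.n = 0) (hh : h.p * h.n = 0) :
    val (sqLow l h) ≤ x ^ 2 := by
  unfold sqLow
  cases hc : (Nat.ble l.p l.n && Nat.ble h.n h.p)
  · simp only [cond_false]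
    -- either l > 0 or h < 0
    rw [Bool.and_eq_false_iff] at hc
    rcases hc with hc | hc
    · have hlt := ble_false hc
      have : 0 ≤ val l := by
        unfold val
        have : (l.n : ℝ) ≤ l.p := by exact_mod_cast hlt.le
        linarith
      have h3 := val_smin_le_left (smul l l) (smul h h)
      rw [val_smul] at h3
      nlinarith
    · have hlt := ble_false hc
      have : val h ≤ 0 := by
        unfold val
        have : (h.p : ℝ) ≤ h.n := by exact_mod_cast hlt.le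
        linarith
      have h3 := val_smin_le_right (smul l l) (smul h h)
      rw [val_smul] at h3
      nlinarith
  · simp only [cond_true, val_scst]
    push_cast
    positivity

theorem le_sqHigh (l h : SI) (x : ℝ) (h1 : val l ≤ x) (h2 : x ≤ val h) :
    x ^ 2 ≤ val (sqHigh l h) := by
  unfold sqHigh
  have h3 := left_le_val_smax (smul l l) (smul h h)
  have h4 := right_le_val_smax (smul l l) (smul h h)
  rw [val_smul] at h3 h4
  by_cases hx : 0 ≤ x
  · have : x ≤ val h := h2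
    nlinarith
  · push Not at hx
    nlinarith

/-- The polynomial checked at a corner (scaled by `8000 N^6`). -/
noncomputable def wMain (s1 s2 f1 f2 x y : ℝ) : ℝ :=
  let N : ℝ := 65536
  let B0 := 130 * (f1 + f2) + N
  let B1 := - (80 * f2)
  let B2 := - (80 * f1)
  let s12 := s1 * s2
  let E0 := 108 * N ^ 2 - 9 * s12
  let E1 := 6 * s12
  let A0 := (36000 * N ^ 3 + 1000 * s12 * N) - (12000 * (s1 + s2) * N ^ 2 + 2 * (E0 * B0))
  let A1 := (72000 * N ^ 3 - 12000 * s2 * N ^ 2) - 2 * (E0 * B1)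
  let A2 := (72000 * N ^ 3 - 12000 * s1 * N ^ 2) - 2 * (E0 * B2)
  let A3 := (12000 * (s1 + s2) * N ^ 2 - 72000 * N ^ 3) - 2 * (E1 * B0)
  let A4 := - (2 * (E1 * B1))
  let A5 := - (2 * (E1 * B2))
  N ^ 3 * A0 + N ^ 2 * A1 * x + N ^ 2 * A2 * y + N * A3 * (x * y) + A4 * (x ^ 2 * y) + A5 * (x * y ^ 2)

theorem rng_sound (l1 h1 l2 h2 : SI) (x y : ℝ) (hx : val l1 ≤ x) (hx' : x ≤ val h1)
    (hy : val l2 ≤ y) (hy' : y ≤ val h2)
    (p1 : l1.p * l1.n = 0) (p2 : h1.p * h1.n = 0) (p3 : l2.p * l2.n = 0) (p4 : h2.p * h2.n = 0) :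
    val (mkRng l1 h1 l2 h2).m12l ≤ x * y ∧ x * y ≤ val (mkRng l1 h1 l2 h2).m12h ∧
    val (mkRng l1 h1 l2 h2).m112l ≤ x ^ 2 * y ∧ x ^ 2 * y ≤ val (mkRng l1 h1 l2 h2).m112h ∧
    val (mkRng l1 h1 l2 h2).m122l ≤ x * y ^ 2 ∧ x * y ^ 2 ≤ val (mkRng l1 h1 l2 h2).m122h := by
  have a1 := mul_between _ _ _ _ x y hx hx' hy hy'
  have a2 := mul_between _ _ _ _ (x ^ 2) y (sqLow_le l1 h1 x hx hx' p1 p2) (le_sqHigh l1 h1 x hx hx') hy hy'
  have a3 := mul_between _ _ _ _ x (y ^ 2) hx hx' (sqLow_le l2 h2 y hy hy' p3 p4) (le_sqHigh l2 h2 y hy hy')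
  refine ⟨?_, ?_, ?_, ?_, ?_, ?_⟩
  · apply val_smin4; simp only [val_smul]; exact a1.1
  · apply val_smax4; simp only [val_smul]; exact a1.2
  · apply val_smin4; simp only [val_smul]; exact a2.1
  · apply val_smax4; simp only [val_smul]; exact a2.2
  · apply val_smin4; simp only [val_smul]; exact a3.1
  · apply val_smax4; simp only [val_smul]; exact a3.2

theorem zero_le_of_sle (x : SI) (h : sle (scst 0) x = true) : 0 ≤ val x := by
  have := (sle_iff _ _).1 h
  simpa [val_scst] using this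

theorem corner_main_aux (A0 A1 A2 A3 A4 A5 l1 h1 l2 h2 m12l m12h m112l m112h m122l m122h : SI) (x y : ℝ)
    (hx : val l1 ≤ x) (hx' : x ≤ val h1) (hy : val l2 ≤ y) (hy' : y ≤ val h2)
    (r1 : val m12l ≤ x * y) (r2 : x * y ≤ val m12h) (r3 : val m112l ≤ x ^ 2 * y) (r4 : x ^ 2 * y ≤ val m112h)
    (r5 : val m122l ≤ x * y ^ 2) (r6 : x * y ^ 2 ≤ val m122h)
    (h : 0 ≤ val (sadd (sadd (sadd (sadd (sadd (skm N3 A0) (slow (skm N2 A1) l1 h1))
      (slow (skm N2 A2) l2 h2)) (slow (skm NN A3) m12l m12h)) (slow A4 m112l m112h))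
      (slow A5 m122l m122h))) :
    0 ≤ (N3 : ℝ) * val A0 + (N2 : ℝ) * val A1 * x + (N2 : ℝ) * val A2 * y + (NN : ℝ) * val A3 * (x * y)
      + val A4 * (x ^ 2 * y) + val A5 * (x * y ^ 2) := by
  have l1' := slow_le (skm N2 A1) l1 h1 x hx hx'
  have l2' := slow_le (skm N2 A2) l2 h2 y hy hy'
  have l3' := slow_le (skm NN A3) m12l m12h (x * y) r1 r2
  have l4' := slow_le A4 m112l m112h (x ^ 2 * y) r3 r4
  have l5' := slow_le A5 m122l m122h (x * y ^ 2) r5 r6
  simp only [val_sadd, val_skm] at h l1' l2' l3'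
  linarith

theorem cornerMain_sound (s1 s2 : ℕ) (f1 f2 l1 h1 l2 h2 : SI) (x y : ℝ)
    (hx : val l1 ≤ x) (hx' : x ≤ val h1) (hy : val l2 ≤ y) (hy' : y ≤ val h2)
    (p1 : l1.p * l1.n = 0) (p2 : h1.p * h1.n = 0) (p3 : l2.p * l2.n = 0) (p4 : h2.p * h2.n = 0)
    (h : cornerMain s1 s2 f1 f2 l1 h1 l2 h2 (mkRng l1 h1 l2 h2) = true) :
    0 ≤ wMain s1 s2 (val f1) (val f2) x y := by
  obtain ⟨r1, r2, r3, r4, r5, r6⟩ := rng_sound l1 h1 l2 h2 x y hx hx' hy hy' p1 p2 p3 p4
  dsimp only [cornerMain] at h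
  have h0 := zero_le_of_sle _ h
  have h1' := corner_main_aux _ _ _ _ _ _ l1 h1 l2 h2 _ _ _ _ _ _ x y hx hx' hy hy' r1 r2 r3 r4 r5 r6 h0
  simp only [val_sadd, val_skm, val_ssub, val_smul, val_sneg, val_mk, val_scst, cast_nmul, cast_nadd] at h1'
  unfold wMain
  norm_num [NN, N2, N3] at h1' ⊢
  linarith

/-- The alternative polynomial at a corner. -/
noncomputable def wAlt (s1 s2 f1 f2 x y : ℝ) : ℝ :=
  let N : ℝ := 65536
  let B0 := 130 * (f1 + f2) + N
  let B1 := - (80 * f2)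
  let B2 := - (80 * f1)
  let s12 := s1 * s2
  N * ((1000 * (s1 + s2) * N ^ 2 - 6000 * N ^ 3) - s12 * B0) - s12 * B1 * x - s12 * B2 * y

theorem cornerAlt_sound (s1 s2 : ℕ) (f1 f2 l1 h1 l2 h2 : SI) (x y : ℝ)
    (hx : val l1 ≤ x) (hx' : x ≤ val h1) (hy : val l2 ≤ y) (hy' : y ≤ val h2)
    (h : cornerAlt s1 s2 f1 f2 l1 h1 l2 h2 = true) :
    0 ≤ wAlt s1 s2 (val f1) (val f2) x y := by
  dsimp only [cornerAlt] at h
  have h0 := zero_le_of_sle _ h
  have l1' := slow_le (sneg (skm (Nat.mul s1 s2) (sneg (skm 80 f2)))) l1 h1 x hx hx'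
  have l2' := slow_le (sneg (skm (Nat.mul s1 s2) (sneg (skm 80 f1)))) l2 h2 y hy hy'
  simp only [val_sadd, val_skm, val_ssub, val_smul, val_sneg, val_mk, val_scst, cast_nmul, cast_nadd] at h0 l1' l2'
  unfold wAlt
  norm_num [NN, N2, N3] at h0 l1' l2' ⊢
  linarith

/-- An affine function nonnegative at the ends of an interval is nonnegative on it. -/
theorem affine_nonneg (A B l h s : ℝ) (h1 : 0 ≤ A + B * l) (h2 : 0 ≤ A + B * h) (hs : l ≤ s) (hs' : s ≤ h) :
    0 ≤ A + B * s := by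
  by_cases hB : 0 ≤ B
  · nlinarith
  · push Not at hB
    nlinarith

theorem bilin_nonneg (w : ℝ → ℝ → ℝ)
    (h1 : ∀ s1 s2, w s1 s2 = w 0 s2 + (w 1 s2 - w 0 s2) * s1)
    (h2 : ∀ s1 s2, w s1 s2 = w s1 0 + (w s1 1 - w s1 0) * s2)
    (l1 h1' l2 h2' s1 s2 : ℝ) (a1 : l1 ≤ s1) (a2 : s1 ≤ h1') (b1 : l2 ≤ s2) (b2 : s2 ≤ h2')
    (c1 : 0 ≤ w l1 l2) (c2 : 0 ≤ w l1 h2') (c3 : 0 ≤ w h1' l2) (c4 : 0 ≤ w h1' h2') :
    0 ≤ w s1 s2 := by
  have e1 : 0 ≤ w s1 l2 := by
    rw [h1 s1 l2]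
    apply affine_nonneg _ _ l1 h1' s1 _ _ a1 a2
    · rw [← h1 l1 l2]; exact c1
    · rw [← h1 h1' l2]; exact c3
  have e2 : 0 ≤ w s1 h2' := by
    rw [h1 s1 h2']
    apply affine_nonneg _ _ l1 h1' s1 _ _ a1 a2
    · rw [← h1 l1 h2']; exact c2
    · rw [← h1 h1' h2']; exact c4
  rw [h2 s1 s2]
  apply affine_nonneg _ _ l2 h2' s2 _ _ b1 b2
  · rw [← h2 s1 l2]; exact e1
  · rw [← h2 s1 h2']; exact e2

/-- The domain of `(S, τ, g)`. -/
structure Dom (S τ g : ℝ) : Prop where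
  Spos : 0 < S
  Sle : S ≤ 6
  tlo : -(1 / 2) ≤ τ
  thi : τ ≤ 1
  disc : 6 * τ ^ 2 ≤ S
  g0 : 0 ≤ g
  g1 : g ≤ 1
  cube : g ^ 3 = 1 - S * (1 / 2 - τ / 3)

/-- the function `f = φ / S` -/
noncomputable def fval (S τ g : ℝ) : ℝ := τ + 18 / 5 * ((g - 1) / S + 1 / 6)

theorem Dom.fA {S τ g : ℝ} (h : Dom S τ g) : fval S τ g ≤ 7 / 5 * τ := by
  have hS := h.Spos
  have h1 : 3 * g ≤ g ^ 3 + 2 := by
    nlinarith [mul_nonneg (sq_nonneg (g - 1)) (by linarith [h.g0] : 0 ≤ g + 2)]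
  have h2 : (g - 1) / S ≤ - (1 / 2 - τ / 3) / 3 := by
    rw [div_le_iff₀ hS]
    have := h.cube
    nlinarith
  unfold fval
  linarith

theorem poly_alpha (r : ℝ) (h0 : 0 ≤ r) (h1 : r ≤ 1) :
    0 ≤ 63 / 100 - 2 * r + 18723 / 10000 * r ^ 2 - 493039 / 1000000 * r ^ 4 := by
  nlinarith [sq_nonneg (r - 6 / 10), sq_nonneg (r ^ 2 - 1 / 2), mul_nonneg h0 (sub_nonneg.2 h1),
    mul_nonneg (mul_nonneg h0 h0) (mul_nonneg h0 (sub_nonneg.2 h1)), sq_nonneg (r - 7 / 10),
    mul_nonneg (mul_nonneg h0 h0) (sub_nonneg.2 h1)]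

theorem Dom.alpha {S τ g : ℝ} (h : Dom S τ g) : g ≤ 1 - 79 / 600 * S := by
  have hS := h.Spos
  set r := Real.sqrt (S / 6) with hr
  have hr2 : r ^ 2 = S / 6 := Real.sq_sqrt (by linarith)
  have hr0 : 0 ≤ r := Real.sqrt_nonneg _
  have hr1 : r ≤ 1 := by
    have : r ^ 2 ≤ 1 := by rw [hr2]; linarith [h.Sle]
    nlinarith
  have hS' : S = 6 * r ^ 2 := by linarith
  have ht : τ ≤ r := by
    by_contra hc
    push Not at hc
    have h3 := h.disc
    rw [hS'] at h3
    nlinarith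
  have hc0 : 0 ≤ 1 - 79 / 100 * r ^ 2 := by nlinarith
  have hcube : g ^ 3 ≤ (1 - 79 / 100 * r ^ 2) ^ 3 := by
    rw [h.cube, hS']
    have hp := poly_alpha r hr0 hr1
    have h4 : r ^ 2 * τ ≤ r ^ 2 * r := mul_le_mul_of_nonneg_left ht (by positivity)
    have h5 := mul_nonneg (sq_nonneg r) hp
    nlinarith
  have hg : g ≤ 1 - 79 / 100 * r ^ 2 := by
    by_contra hc
    push Not at hc
    have := pow_lt_pow_left₀ hc hc0 (by norm_num : (3 : ℕ) ≠ 0)
    linarith
  rw [hS']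
  linarith

theorem Dom.fB {S τ g : ℝ} (h : Dom S τ g) : fval S τ g ≤ τ + 126 / 1000 := by
  have hS := h.Spos
  have h2 : (g - 1) / S ≤ - (79 / 600) := by
    rw [div_le_iff₀ hS]
    have := h.alpha
    linarith
  unfold fval
  linarith

/-- the tangent bound -/
theorem Dom.fD {S τ g : ℝ} (h : Dom S τ g) (z : ℝ) (hz : 0 < z) :
    fval S τ g ≤ τ * (1 + (2 / 5) / z ^ 2) - 3 / 5 * (1 / z ^ 2 - 1)
      + 18 / 5 * (((1 - z) ^ 2 * (1 + 2 * z) / (3 * z ^ 2)) / S) := by
  have hS := h.Spos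
  have hg0 := h.g0
  have h1 : 3 * z ^ 2 * g ≤ g ^ 3 + 2 * z ^ 3 := by
    nlinarith [mul_nonneg (sq_nonneg (g - z)) (by linarith : 0 ≤ g + 2 * z)]
  have hzz : 0 < 3 * z ^ 2 := by positivity
  have h2 : (g - 1) / S ≤ (1 - z) ^ 2 * (1 + 2 * z) / (3 * z ^ 2) / S - (1 / 2 - τ / 3) / (3 * z ^ 2) := by
    have e : (1 - z) ^ 2 * (1 + 2 * z) / (3 * z ^ 2) / S - (1 / 2 - τ / 3) / (3 * z ^ 2)
        = ((1 - z) ^ 2 * (1 + 2 * z) - S * (1 / 2 - τ / 3)) / (3 * z ^ 2 * S) := by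
      field_simp
    rw [e, div_le_div_iff₀ hS (by positivity)]
    have h3 := h.cube
    have : (g - 1) * (3 * z ^ 2) ≤ (1 - z) ^ 2 * (1 + 2 * z) - S * (1 / 2 - τ / 3) := by
      nlinarith
    nlinarith
  unfold fval
  have e2 : τ * (1 + (2 / 5) / z ^ 2) - 3 / 5 * (1 / z ^ 2 - 1)
      + 18 / 5 * (((1 - z) ^ 2 * (1 + 2 * z) / (3 * z ^ 2)) / S)
      = τ + 18 / 5 * ((1 - z) ^ 2 * (1 + 2 * z) / (3 * z ^ 2) / S - (1 / 2 - τ / 3) / (3 * z ^ 2) + 1 / 6) := by
    field_simp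
    ring
  rw [e2]
  linarith

end Vale.Agent.Lib.P154.BB
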