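import Vale.Agent.Lib.P154.BBSound

namespace Vale.Agent.Lib.P154.BB

attribute [local irreducible] NN N2 N3 HN

theorem val_toS (t : ℕ) : val (toS t) = (t : ℝ) - 32768 := by
  unfold toS val
  rcases le_total t HN with h | h
  · have e1 : Nat.sub t HN = 0 := Nat.sub_eq_zero_of_le h
    have e2 : ((Nat.sub HN t : ℕ) : ℝ) = (HN : ℝ) - t := by
      rw [show Nat.sub HN t = HN - t from rfl]; push_cast [Nat.cast_sub h]; ring
    simp only [e1, e2]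
    norm_num [HN]
  · have e1 : Nat.sub HN t = 0 := Nat.sub_eq_zero_of_le h
    have e2 : ((Nat.sub t HN : ℕ) : ℝ) = (t : ℝ) - HN := by
      rw [show Nat.sub t HN = t - HN from rfl]; push_cast [Nat.cast_sub h]; ring
    simp only [e1, e2]
    norm_num [HN]

theorem toS_pn (t : ℕ) : (toS t).p * (toS t).n = 0 := by
  unfold toS
  rcases le_total t HN with h | h
  · have e1 : Nat.sub t HN = 0 := Nat.sub_eq_zero_of_le h
    simp only [e1]; simp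
  · have e1 : Nat.sub HN t = 0 := Nat.sub_eq_zero_of_le h
    simp only [e1]; simp

theorem smul_self_n (l : SI) (hl : l.p * l.n = 0) : (smul l l).n = 0 := by
  unfold smul
  have e : Nat.add (Nat.mul l.p l.n) (Nat.mul l.n l.p) = 2 * (l.p * l.n) := by
    show l.p * l.n + l.n * l.p = _
    rw [Nat.mul_comm l.n l.p]; ring
  simp only [e, hl]

theorem sqLow_n (l h : SI) (hl : l.p * l.n = 0) (hh : h.p * h.n = 0) : (sqLow l h).n = 0 := by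
  unfold sqLow
  cases (Nat.ble l.p l.n && Nat.ble h.n h.p)
  · simp only [cond_false]
    unfold smin
    cases sle (smul l l) (smul h h)
    · simpa using smul_self_n h hh
    · simpa using smul_self_n l hl
  · simp [scst]

theorem sqLow_p_le (l h : SI) (x : ℝ) (h1 : val l ≤ x) (h2 : x ≤ val h) (hl : l.p * l.n = 0) (hh : h.p * h.n = 0) :
    ((sqLow l h).p : ℝ) ≤ x ^ 2 := by
  have := sqLow_le l h x h1 h2 hl hh
  unfold val at this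
  rw [sqLow_n l h hl hh] at this
  simpa using this

/-- floors from below -/
theorem cast_ndiv_le (a b : ℕ) : ((Nat.div a b : ℕ) : ℝ) ≤ (a : ℝ) / b := by
  exact Nat.cast_div_le

/-- floors plus one from above -/
theorem le_cast_ndiv_add_one (a b : ℕ) (hb : 0 < b) : (a : ℝ) / b ≤ ((Nat.div a b : ℕ) : ℝ) + 1 := by
  have hb' : (0 : ℝ) < b := by exact_mod_cast hb
  rw [div_le_iff₀ hb']
  have h : a < (Nat.div a b + 1) * b := by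
    have := Nat.lt_mul_div_succ a hb
    show a < (a / b + 1) * b
    rw [Nat.mul_comm]; exact this
  exact_mod_cast h.le

/-- membership of a point in a cell -/
structure Mem (X : Cell) (S τ g : ℝ) : Prop where
  sl : (X.sl : ℝ) ≤ S * 65536
  sh : S * 65536 ≤ X.sh
  tl : (X.tl : ℝ) - 32768 ≤ τ * 65536
  th : τ * 65536 ≤ (X.th : ℝ) - 32768
  lo : X.lo = toS X.tl
  hi : X.hi = toS X.th
  f : fval S τ g * 65536 ≤ val X.f

theorem val_fA (t : SI) : 7 / 5 * val t ≤ val (fA t) := by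
  unfold fA val
  have h1 := le_cast_ndiv_add_one (Nat.mul t.p 7) 5 (by norm_num)
  have h2 := cast_ndiv_le (Nat.mul t.n 7) 5
  simp only [cast_nadd, cast_nmul] at h1 h2 ⊢
  norm_num at h1 h2 ⊢
  linarith

theorem val_fB (t : SI) : val t + 8258 ≤ val (fB t) := by
  unfold fB val
  simp only [cast_nadd]
  norm_num
  linarith

theorem cond_mem {b : Bool} {x y a c : ℕ} (hx : a ≤ x ∧ x ≤ c) (hy : a ≤ y ∧ y ≤ c) :
    a ≤ cond b x y ∧ cond b x y ≤ c := by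
  cases b <;> assumption

theorem kPick_range (q : ℕ → Bool) : 1 ≤ kPick q ∧ kPick q ≤ 16 := by
  unfold kPick
  repeat' apply cond_mem
  all_goals norm_num

theorem val_fD (sl : ℕ) (t : SI) (k : ℕ) (h1 : 1 ≤ k) (h2 : k ≤ 16) (hs : 1 ≤ sl) :
    val t * ((5 * (k : ℝ) ^ 2 + 512) / (5 * (k : ℝ) ^ 2))
      - 3 * 65536 * (256 - (k : ℝ) ^ 2) / (5 * (k : ℝ) ^ 2)
      + 3 * 65536 ^ 2 * (16 - (k : ℝ)) ^ 2 * ((k : ℝ) + 8) / (20 * (k : ℝ) ^ 2 * sl) ≤ val (fD sl t k) := by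
  have hk0 : 0 < k := h1
  have hkk : 0 < Nat.mul k k := Nat.mul_pos hk0 hk0
  have hd5 : 0 < Nat.mul 5 (Nat.mul k k) := Nat.mul_pos (by norm_num) hkk
  have hd20 : 0 < Nat.mul (Nat.mul 20 (Nat.mul k k)) sl := Nat.mul_pos (Nat.mul_pos (by norm_num) hkk) hs
  have e1 : ((Nat.sub 16 k : ℕ) : ℝ) = 16 - (k : ℝ) := by
    rw [show Nat.sub 16 k = 16 - k from rfl, Nat.cast_sub h2]; norm_num
  have hkk16 : Nat.mul k k ≤ 256 := by
    show k * k ≤ 256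
    nlinarith
  have e2 : ((Nat.sub 256 (Nat.mul k k) : ℕ) : ℝ) = 256 - (k : ℝ) ^ 2 := by
    rw [show Nat.sub 256 (Nat.mul k k) = 256 - (Nat.mul k k) from rfl, Nat.cast_sub hkk16]
    simp only [cast_nmul]; norm_num; ring
  unfold fD val
  dsimp only
  have a1 := le_cast_ndiv_add_one (Nat.mul t.p (Nat.add (Nat.mul 5 (Nat.mul k k)) 512)) _ hd5
  have a2 := le_cast_ndiv_add_one (Nat.mul (Nat.mul 3 N2) (Nat.mul (Nat.mul (Nat.sub 16 k) (Nat.sub 16 k)) (Nat.add k 8))) _ hd20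
  have a3 := cast_ndiv_le (Nat.mul t.n (Nat.add (Nat.mul 5 (Nat.mul k k)) 512)) (Nat.mul 5 (Nat.mul k k))
  have a4 := cast_ndiv_le (Nat.mul (Nat.mul 3 NN) (Nat.sub 256 (Nat.mul k k))) (Nat.mul 5 (Nat.mul k k))
  simp only [cast_nadd, cast_nmul, e1, e2] at a1 a2 a3 a4 ⊢
  norm_num [N2, NN] at a1 a2 a3 a4 ⊢
  have hK : (0 : ℝ) < k := by exact_mod_cast hk0
  have e3 : (((t.p : ℝ) - t.n) * ((5 * (k : ℝ) ^ 2 + 512) / (5 * (k : ℝ) ^ 2)))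
      = (t.p : ℝ) * (5 * ((k : ℝ) * k) + 512) / (5 * ((k : ℝ) * k)) - (t.n : ℝ) * (5 * ((k : ℝ) * k) + 512) / (5 * ((k : ℝ) * k)) := by
    field_simp
  have e4 : 12884901888 * (16 - (k : ℝ)) ^ 2 * ((k : ℝ) + 8) / (20 * (k : ℝ) ^ 2 * sl)
      = 12884901888 * ((16 - (k : ℝ)) * (16 - (k : ℝ)) * ((k : ℝ) + 8)) / (20 * ((k : ℝ) * k) * sl) := by
    ring
  have e5 : 196608 * (256 - (k : ℝ) ^ 2) / (5 * (k : ℝ) ^ 2) = 196608 * (256 - (k : ℝ) ^ 2) / (5 * ((k : ℝ) * k)) := by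
    ring
  rw [e3, e4, e5]
  linarith

theorem fD_bound {S τ g : ℝ} (h : Dom S τ g) (sl k : ℕ) (t : SI) (h1 : 1 ≤ k) (h2 : k ≤ 16) (hs : 1 ≤ sl)
    (hsl : (sl : ℝ) ≤ S * 65536) (ht : τ * 65536 ≤ val t) :
    fval S τ g * 65536 ≤ val (fD sl t k) := by
  have hv := val_fD sl t k h1 h2 hs
  have hK : (0 : ℝ) < k := by exact_mod_cast h1
  have hK16 : (k : ℝ) ≤ 16 := by exact_mod_cast h2
  have hsl0 : (0 : ℝ) < sl := by exact_mod_cast hs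
  have hS := h.Spos
  have hz : (0 : ℝ) < (k : ℝ) / 16 := by positivity
  have hf := h.fD _ hz
  have e1 : τ * (1 + (2 / 5) / ((k : ℝ) / 16) ^ 2) - 3 / 5 * (1 / ((k : ℝ) / 16) ^ 2 - 1)
      + 18 / 5 * (((1 - (k : ℝ) / 16) ^ 2 * (1 + 2 * ((k : ℝ) / 16)) / (3 * ((k : ℝ) / 16) ^ 2)) / S)
      = τ * ((5 * (k : ℝ) ^ 2 + 512) / (5 * (k : ℝ) ^ 2)) - 3 * (256 - (k : ℝ) ^ 2) / (5 * (k : ℝ) ^ 2)
        + (3 * (16 - (k : ℝ)) ^ 2 * ((k : ℝ) + 8) / (20 * (k : ℝ) ^ 2)) / S := by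
    field_simp
    ring
  rw [e1] at hf
  set C := 3 * (16 - (k : ℝ)) ^ 2 * ((k : ℝ) + 8) / (20 * (k : ℝ) ^ 2) with hC
  have hC0 : 0 ≤ C := by
    rw [hC]
    have : 0 ≤ 16 - (k : ℝ) := by linarith
    positivity
  have h3 : C / S * 65536 ≤ C * 65536 ^ 2 / sl := by
    rw [div_mul_eq_mul_div, div_le_div_iff₀ hS hsl0]
    nlinarith [mul_le_mul_of_nonneg_left hsl (by positivity : 0 ≤ C * 65536)]
  have h4 : 3 * 65536 ^ 2 * (16 - (k : ℝ)) ^ 2 * ((k : ℝ) + 8) / (20 * (k : ℝ) ^ 2 * sl) = C * 65536 ^ 2 / sl := by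
    rw [hC]
    field_simp
  rw [h4] at hv
  set A := (5 * (k : ℝ) ^ 2 + 512) / (5 * (k : ℝ) ^ 2) with hA
  have hA0 : 0 ≤ A := by rw [hA]; positivity
  have h5 : τ * 65536 * A ≤ val t * A := mul_le_mul_of_nonneg_right ht hA0
  have h6 : 3 * 65536 * (256 - (k : ℝ) ^ 2) / (5 * (k : ℝ) ^ 2)
      = 3 * (256 - (k : ℝ) ^ 2) / (5 * (k : ℝ) ^ 2) * 65536 := by ring
  rw [h6] at hv
  nlinarith

theorem fBar_sound {S τ g : ℝ} (h : Dom S τ g) (sl sh tl : ℕ) (hi : SI) (h1 : (sl : ℝ) ≤ S * 65536)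
    (h2 : τ * 65536 ≤ val hi) : fval S τ g * 65536 ≤ val (fBar sl sh tl hi) := by
  have hA : fval S τ g * 65536 ≤ val (fA hi) := by
    have := val_fA hi
    have := h.fA
    linarith
  unfold fBar
  dsimp only
  apply le_val_smin
  · apply le_val_smin
    · exact hA
    · have := val_fB hi
      have := h.fB
      linarith
  · cases hc : Nat.ble 1 sl
    · simp only [cond_false]
      exact hA
    · simp only [cond_true]
      have hk := kPick_range (fun z => Nat.ble (Nat.mul 4096 (Nat.add (Nat.mul 6 N2) (Nat.mul (Nat.mul 2 (Nat.div (Nat.add sl sh) 2)) (toS (Nat.div (Nat.add tl (Nat.add hi.p (Nat.sub HN hi.n))) 2)).p)))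
        (Nat.add (Nat.mul (Nat.mul z (Nat.mul z z)) (Nat.mul 6 N2)) (Nat.mul 4096 (Nat.add (Nat.mul (Nat.mul 3 (Nat.div (Nat.add sl sh) 2)) NN) (Nat.mul (Nat.mul 2 (Nat.div (Nat.add sl sh) 2)) (toS (Nat.div (Nat.add tl (Nat.add hi.p (Nat.sub HN hi.n))) 2)).n)))))
      exact fD_bound h sl _ hi hk.1 hk.2 (Nat.le_of_ble_eq_true hc) h1 h2

theorem sl_bound {S τ : ℝ} (hS : 0 < S) (hd : 6 * τ ^ 2 ≤ S) (lo hi : SI) (h1 : val lo ≤ τ * 65536) (h2 : τ * 65536 ≤ val hi)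
    (p1 : lo.p * lo.n = 0) (p2 : hi.p * hi.n = 0) :
    ((Nat.div (Nat.mul 6 (sqLow lo hi).p) NN : ℕ) : ℝ) ≤ S * 65536 := by
  have a1 := cast_ndiv_le (Nat.mul 6 (sqLow lo hi).p) NN
  have a2 := sqLow_p_le lo hi (τ * 65536) h1 h2 p1 p2
  have eN : ((NN : ℕ) : ℝ) = 65536 := by norm_num [NN]
  simp only [cast_nmul, eN] at a1
  norm_num at a1
  have a3 : 6 * ((sqLow lo hi).p : ℝ) / 65536 ≤ S * 65536 := by
    rw [div_le_iff₀ (by norm_num)]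
    nlinarith
  exact le_trans a1 a3

theorem sh_bound {S τ g : ℝ} (h : Dom S τ g) (hi : SI) (h2 : τ * 65536 ≤ val hi) (hp : Nat.ble hi.p NN = true) :
    S * 65536 ≤ ((Nat.add (Nat.div (Nat.mul 6 N2) (Nat.sub (Nat.add (Nat.mul 3 NN) (Nat.mul 2 hi.n)) (Nat.mul 2 hi.p))) 1 : ℕ) : ℝ) := by
  have hpN := Nat.le_of_ble_eq_true hp
  have hpN' : (hi.p : ℝ) ≤ 65536 := by
    have : (hi.p : ℝ) ≤ (NN : ℝ) := by exact_mod_cast hpN
    simpa [NN] using this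
  have hD : (Nat.mul 2 hi.p) ≤ (Nat.add (Nat.mul 3 NN) (Nat.mul 2 hi.n)) := by
    show 2 * hi.p ≤ 3 * NN + 2 * hi.n
    have : hi.p ≤ NN := hpN
    omega
  have hD' : ((Nat.sub (Nat.add (Nat.mul 3 NN) (Nat.mul 2 hi.n)) (Nat.mul 2 hi.p) : ℕ) : ℝ)
      = 3 * 65536 + 2 * hi.n - 2 * hi.p := by
    rw [show Nat.sub (Nat.add (Nat.mul 3 NN) (Nat.mul 2 hi.n)) (Nat.mul 2 hi.p) = (Nat.add (Nat.mul 3 NN) (Nat.mul 2 hi.n)) - (Nat.mul 2 hi.p) from rfl,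
      Nat.cast_sub hD]
    simp only [cast_nadd, cast_nmul]
    norm_num [NN]
  have hDpos : 0 < Nat.sub (Nat.add (Nat.mul 3 NN) (Nat.mul 2 hi.n)) (Nat.mul 2 hi.p) := by
    have : (0 : ℝ) < ((Nat.sub (Nat.add (Nat.mul 3 NN) (Nat.mul 2 hi.n)) (Nat.mul 2 hi.p) : ℕ) : ℝ) := by
      rw [hD']
      have : (0 : ℝ) ≤ hi.n := by positivity
      linarith
    exact_mod_cast this
  have a1 := le_cast_ndiv_add_one (Nat.mul 6 N2) _ hDpos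
  rw [cast_nadd]
  have eone : (((1 : ℕ)) : ℝ) = 1 := by norm_num
  rw [eone]
  refine le_trans ?_ a1
  have hDpos' : (0 : ℝ) < 3 * 65536 + 2 * (hi.n : ℝ) - 2 * (hi.p : ℝ) := by
    rw [← hD']; exact_mod_cast hDpos
  rw [hD', le_div_iff₀ hDpos']
  have eN : ((N2 : ℕ) : ℝ) = 65536 ^ 2 := by norm_num [N2]
  rw [cast_nmul, eN]
  norm_num
  have hcube := h.cube
  have hg3 : 0 ≤ g ^ 3 := pow_nonneg h.g0 3
  rw [hcube] at hg3
  have hS := h.Spos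
  have hv : τ * 65536 ≤ (hi.p : ℝ) - hi.n := h2
  have h5 : S * 65536 * (3 * 65536 - 2 * (τ * 65536)) ≤ 6 * 65536 ^ 2 := by nlinarith
  have h6 : S * 65536 * (3 * 65536 + 2 * (hi.n : ℝ) - 2 * (hi.p : ℝ)) ≤ S * 65536 * (3 * 65536 - 2 * (τ * 65536)) := by
    apply mul_le_mul_of_nonneg_left _ (by positivity)
    linarith
  norm_num at h5 h6 ⊢
  linarith

theorem cond_cast_le (b : Bool) {x y : ℕ} {r : ℝ} (h1 : (x : ℝ) ≤ r) (h2 : (y : ℝ) ≤ r) :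
    ((cond b x y : ℕ) : ℝ) ≤ r := by
  cases b <;> assumption

theorem le_cond_cast (b : Bool) {x y : ℕ} {r : ℝ} (h1 : r ≤ (x : ℝ)) (h2 : r ≤ (y : ℝ)) :
    r ≤ ((cond b x y : ℕ) : ℝ) := by
  cases b <;> assumption

theorem mkCell_fields (sl sh tl th : ℕ) :
    mkCell sl sh tl th = (
      let lo := toS tl
      let hi := toS th
      let a := Nat.div (Nat.mul 6 (sqLow lo hi).p) NN
      let sl' := cond (Nat.ble sl a) a sl
      let b := cond (Nat.ble hi.p NN)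
        (Nat.add (Nat.div (Nat.mul 6 N2) (Nat.sub (Nat.add (Nat.mul 3 NN) (Nat.mul 2 hi.n)) (Nat.mul 2 hi.p))) 1)
        sh
      let sh' := cond (Nat.ble sh b) sh b
      ⟨sl', sh', tl, th, lo, hi, fBar sl' sh' tl hi⟩ : Cell) := by
  rw [mkCell]

theorem mkCell_mem {S τ g : ℝ} (h : Dom S τ g) (sl sh tl th : ℕ) (h1 : (sl : ℝ) ≤ S * 65536)
    (h2 : S * 65536 ≤ sh) (h3 : (tl : ℝ) - 32768 ≤ τ * 65536) (h4 : τ * 65536 ≤ (th : ℝ) - 32768) :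
    Mem (mkCell sl sh tl th) S τ g := by
  have vlo : val (toS tl) ≤ τ * 65536 := by rw [val_toS]; exact h3
  have vhi : τ * 65536 ≤ val (toS th) := by rw [val_toS]; exact h4
  have ha := sl_bound h.Spos h.disc (toS tl) (toS th) vlo vhi (toS_pn _) (toS_pn _)
  have hsl := cond_cast_le (Nat.ble sl (Nat.div (Nat.mul 6 (sqLow (toS tl) (toS th)).p) NN)) ha h1
  have hb : S * 65536 ≤ ((cond (Nat.ble (toS th).p NN)
      (Nat.add (Nat.div (Nat.mul 6 N2) (Nat.sub (Nat.add (Nat.mul 3 NN) (Nat.mul 2 (toS th).n)) (Nat.mul 2 (toS th).p))) 1) sh : ℕ) : ℝ) := by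
    cases hc : Nat.ble (toS th).p NN
    · simp only [cond_false]; exact h2
    · simp only [cond_true]; exact sh_bound h (toS th) vhi hc
  have hsh := le_cond_cast (Nat.ble sh (cond (Nat.ble (toS th).p NN)
      (Nat.add (Nat.div (Nat.mul 6 N2) (Nat.sub (Nat.add (Nat.mul 3 NN) (Nat.mul 2 (toS th).n)) (Nat.mul 2 (toS th).p))) 1) sh)) h2 hb
  rw [mkCell_fields]
  exact ⟨hsl, hsh, h3, h4, rfl, rfl, fBar_sound h _ _ _ _ hsl vhi⟩

/-- `R₀` of the notes -/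
noncomputable def R0 (S₁ τ₁ S₂ τ₂ : ℝ) : ℝ :=
  9 / 2 + 9 * (τ₁ + τ₂) - 9 * (τ₁ * τ₂) - 3 / 2 * S₁ * (1 + τ₂ - τ₁ * τ₂)
    - 3 / 2 * S₂ * (1 + τ₁ - τ₁ * τ₂) + S₁ * S₂ / 8

/-- `E` divided by nothing: `27 - S₁ S₂ (9/4 - 3/2 τ₁ τ₂)` -/
noncomputable def E00 (S₁ τ₁ S₂ τ₂ : ℝ) : ℝ := 27 - S₁ * S₂ * (9 / 4 - 3 / 2 * (τ₁ * τ₂))

/-- the target coefficient `B` -/
noncomputable def Bv (τ₁ τ₂ f₁ f₂ : ℝ) : ℝ :=
  (2 / 25 * (1 - τ₂) + 1 / 20) * f₁ + (2 / 25 * (1 - τ₁) + 1 / 20) * f₂ + 1 / 1000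

/-- The inequality established by the branch and bound -/
def Goal (S₁ τ₁ g₁ S₂ τ₂ g₂ : ℝ) : Prop :=
  (0 ≤ E00 S₁ τ₁ S₂ τ₂ →
      0 ≤ R0 S₁ τ₁ S₂ τ₂ - E00 S₁ τ₁ S₂ τ₂ * Bv τ₁ τ₂ (fval S₁ τ₁ g₁) (fval S₂ τ₂ g₂)) ∨
    0 ≤ (S₁ + S₂ - 6) - S₁ * S₂ * Bv τ₁ τ₂ (fval S₁ τ₁ g₁) (fval S₂ τ₂ g₂)

theorem Goal.symm {S₁ τ₁ g₁ S₂ τ₂ g₂ : ℝ} (h : Goal S₂ τ₂ g₂ S₁ τ₁ g₁) : Goal S₁ τ₁ g₁ S₂ τ₂ g₂ := by
  have e1 : E00 S₂ τ₂ S₁ τ₁ = E00 S₁ τ₁ S₂ τ₂ := by unfold E00; ring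
  have e2 : R0 S₂ τ₂ S₁ τ₁ = R0 S₁ τ₁ S₂ τ₂ := by unfold R0; ring
  have e3 : Bv τ₂ τ₁ (fval S₂ τ₂ g₂) (fval S₁ τ₁ g₁) = Bv τ₁ τ₂ (fval S₁ τ₁ g₁) (fval S₂ τ₂ g₂) := by
    unfold Bv; ring
  unfold Goal at h ⊢
  rw [e1, e2, e3] at h
  rcases h with h | h
  · exact Or.inl h
  · right
    have : S₁ + S₂ - 6 - S₁ * S₂ * Bv τ₁ τ₂ (fval S₁ τ₁ g₁) (fval S₂ τ₂ g₂)
        = S₂ + S₁ - 6 - S₂ * S₁ * Bv τ₁ τ₂ (fval S₁ τ₁ g₁) (fval S₂ τ₂ g₂) := by ring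
    rw [this]; exact h

theorem wMain_scale (S₁ τ₁ S₂ τ₂ F₁ F₂ : ℝ) :
    wMain (S₁ * 65536) (S₂ * 65536) F₁ F₂ (τ₁ * 65536) (τ₂ * 65536)
      = 8000 * 65536 ^ 6 * (R0 S₁ τ₁ S₂ τ₂ - E00 S₁ τ₁ S₂ τ₂ * Bv τ₁ τ₂ (F₁ / 65536) (F₂ / 65536)) := by
  dsimp only [wMain, R0, E00, Bv]
  ring

theorem wAlt_scale (S₁ τ₁ S₂ τ₂ F₁ F₂ : ℝ) :
    wAlt (S₁ * 65536) (S₂ * 65536) F₁ F₂ (τ₁ * 65536) (τ₂ * 65536)
      = 1000 * 65536 ^ 4 * ((S₁ + S₂ - 6) - S₁ * S₂ * Bv τ₁ τ₂ (F₁ / 65536) (F₂ / 65536)) := by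
  dsimp only [wAlt, Bv]
  ring

theorem leaf_sound {X Y : Cell} {S₁ τ₁ g₁ S₂ τ₂ g₂ : ℝ} (d1 : Dom S₁ τ₁ g₁) (d2 : Dom S₂ τ₂ g₂)
    (hX : Mem X S₁ τ₁ g₁) (hY : Mem Y S₂ τ₂ g₂) (h : leafOK X Y = true) : Goal S₁ τ₁ g₁ S₂ τ₂ g₂ := by
  have hl1 : val X.lo ≤ τ₁ * 65536 := by rw [hX.lo, val_toS]; exact hX.tl
  have hh1 : τ₁ * 65536 ≤ val X.hi := by rw [hX.hi, val_toS]; exact hX.th
  have hl2 : val Y.lo ≤ τ₂ * 65536 := by rw [hY.lo, val_toS]; exact hY.tl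
  have hh2 : τ₂ * 65536 ≤ val Y.hi := by rw [hY.hi, val_toS]; exact hY.th
  have p1 : X.lo.p * X.lo.n = 0 := by rw [hX.lo]; exact toS_pn _
  have p2 : X.hi.p * X.hi.n = 0 := by rw [hX.hi]; exact toS_pn _
  have p3 : Y.lo.p * Y.lo.n = 0 := by rw [hY.lo]; exact toS_pn _
  have p4 : Y.hi.p * Y.hi.n = 0 := by rw [hY.hi]; exact toS_pn _
  have hf1 : fval S₁ τ₁ g₁ ≤ val X.f / 65536 := by
    rw [le_div_iff₀ (by norm_num)]; exact hX.f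
  have hf2 : fval S₂ τ₂ g₂ ≤ val Y.f / 65536 := by
    rw [le_div_iff₀ (by norm_num)]; exact hY.f
  have c1 : 0 ≤ 2 / 25 * (1 - τ₂) + 1 / 20 := by linarith [d2.thi]
  have c2 : 0 ≤ 2 / 25 * (1 - τ₁) + 1 / 20 := by linarith [d1.thi]
  have hB : Bv τ₁ τ₂ (fval S₁ τ₁ g₁) (fval S₂ τ₂ g₂) ≤ Bv τ₁ τ₂ (val X.f / 65536) (val Y.f / 65536) := by
    unfold Bv
    have := mul_le_mul_of_nonneg_left hf1 c1
    have := mul_le_mul_of_nonneg_left hf2 c2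
    linarith
  unfold leafOK at h
  dsimp only at h
  rw [Bool.or_eq_true] at h
  rcases h with h | h
  · left
    intro hE
    simp only [Bool.and_eq_true] at h
    obtain ⟨⟨⟨a1, a2⟩, a3⟩, a4⟩ := h
    have w1 := cornerMain_sound _ _ _ _ _ _ _ _ _ _ hl1 hh1 hl2 hh2 p1 p2 p3 p4 a1
    have w2 := cornerMain_sound _ _ _ _ _ _ _ _ _ _ hl1 hh1 hl2 hh2 p1 p2 p3 p4 a2
    have w3 := cornerMain_sound _ _ _ _ _ _ _ _ _ _ hl1 hh1 hl2 hh2 p1 p2 p3 p4 a3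
    have w4 := cornerMain_sound _ _ _ _ _ _ _ _ _ _ hl1 hh1 hl2 hh2 p1 p2 p3 p4 a4
    have key : 0 ≤ wMain (S₁ * 65536) (S₂ * 65536) (val X.f) (val Y.f) (τ₁ * 65536) (τ₂ * 65536) :=
      bilin_nonneg (fun s1 s2 => wMain s1 s2 (val X.f) (val Y.f) (τ₁ * 65536) (τ₂ * 65536))
      (by intro s1 s2; dsimp only [wMain]; ring) (by intro s1 s2; dsimp only [wMain]; ring)
      _ _ _ _ (S₁ * 65536) (S₂ * 65536) hX.sl hX.sh hY.sl hY.sh w1 w2 w3 w4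
    rw [wMain_scale] at key
    have hE2 := mul_le_mul_of_nonneg_left hB hE
    have : 0 ≤ R0 S₁ τ₁ S₂ τ₂ - E00 S₁ τ₁ S₂ τ₂ * Bv τ₁ τ₂ (val X.f / 65536) (val Y.f / 65536) := by
      by_contra hc
      push Not at hc
      have : (8000 : ℝ) * 65536 ^ 6 * (R0 S₁ τ₁ S₂ τ₂ - E00 S₁ τ₁ S₂ τ₂ * Bv τ₁ τ₂ (val X.f / 65536) (val Y.f / 65536)) < 0 :=
        mul_neg_of_pos_of_neg (by norm_num) hc
      linarith
    linarith
  · right
    simp only [Bool.and_eq_true] at h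
    obtain ⟨⟨⟨a1, a2⟩, a3⟩, a4⟩ := h
    have w1 := cornerAlt_sound _ _ _ _ _ _ _ _ _ _ hl1 hh1 hl2 hh2 a1
    have w2 := cornerAlt_sound _ _ _ _ _ _ _ _ _ _ hl1 hh1 hl2 hh2 a2
    have w3 := cornerAlt_sound _ _ _ _ _ _ _ _ _ _ hl1 hh1 hl2 hh2 a3
    have w4 := cornerAlt_sound _ _ _ _ _ _ _ _ _ _ hl1 hh1 hl2 hh2 a4
    have key : 0 ≤ wAlt (S₁ * 65536) (S₂ * 65536) (val X.f) (val Y.f) (τ₁ * 65536) (τ₂ * 65536) :=
      bilin_nonneg (fun s1 s2 => wAlt s1 s2 (val X.f) (val Y.f) (τ₁ * 65536) (τ₂ * 65536))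
      (by intro s1 s2; dsimp only [wAlt]; ring) (by intro s1 s2; dsimp only [wAlt]; ring)
      _ _ _ _ (S₁ * 65536) (S₂ * 65536) hX.sl hX.sh hY.sl hY.sh w1 w2 w3 w4
    rw [wAlt_scale] at key
    have hS12 : 0 ≤ S₁ * S₂ := mul_nonneg d1.Spos.le d2.Spos.le
    have hE2 := mul_le_mul_of_nonneg_left hB hS12
    have : 0 ≤ (S₁ + S₂ - 6) - S₁ * S₂ * Bv τ₁ τ₂ (val X.f / 65536) (val Y.f / 65536) := by
      by_contra hc
      push Not at hc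
      have : (1000 : ℝ) * 65536 ^ 4 * ((S₁ + S₂ - 6) - S₁ * S₂ * Bv τ₁ τ₂ (val X.f / 65536) (val Y.f / 65536)) < 0 :=
        mul_neg_of_pos_of_neg (by norm_num) hc
      linarith
    linarith

theorem blt_false {a b : ℕ} (h : b ≤ a) : Nat.blt a b = false := by
  cases hc : Nat.blt a b
  · rfl
  · have h1 : Nat.ble (a + 1) b = true := hc
    have := Nat.le_of_ble_eq_true h1
    omega

theorem check_sound {S₁ τ₁ g₁ S₂ τ₂ g₂ : ℝ} (d1 : Dom S₁ τ₁ g₁) (d2 : Dom S₂ τ₂ g₂) :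
    ∀ (n : ℕ) (X Y : Cell), check n X Y = true → Mem X S₁ τ₁ g₁ → Mem Y S₂ τ₂ g₂ →
      Goal S₁ τ₁ g₁ S₂ τ₂ g₂ := by
  intro n
  induction n with
  | zero =>
    intro X Y h
    simp [check] at h
  | succ n ih =>
    intro X Y h hX hY
    have hne : (Nat.blt X.sh X.sl || Nat.blt Y.sh Y.sl) = false := by
      have a1 : (X.sl : ℝ) ≤ X.sh := le_trans hX.sl hX.sh
      have a2 : (Y.sl : ℝ) ≤ Y.sh := le_trans hY.sl hY.sh
      have a1' : X.sl ≤ X.sh := by exact_mod_cast a1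
      have a2' : Y.sl ≤ Y.sh := by exact_mod_cast a2
      rw [blt_false a1', blt_false a2']
      rfl
    have splitSX : ∀ m : ℕ, (check n (mkCell X.sl m X.tl X.th) Y && check n (mkCell m X.sh X.tl X.th) Y) = true →
        Goal S₁ τ₁ g₁ S₂ τ₂ g₂ := by
      intro m hm
      rw [Bool.and_eq_true] at hm
      rcases le_total (S₁ * 65536) (m : ℝ) with hc | hc
      · exact ih _ _ hm.1 (mkCell_mem d1 _ _ _ _ hX.sl hc hX.tl hX.th) hY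
      · exact ih _ _ hm.2 (mkCell_mem d1 _ _ _ _ hc hX.sh hX.tl hX.th) hY
    have splitTX : ∀ m : ℕ, (check n (mkCell X.sl X.sh X.tl m) Y && check n (mkCell X.sl X.sh m X.th) Y) = true →
        Goal S₁ τ₁ g₁ S₂ τ₂ g₂ := by
      intro m hm
      rw [Bool.and_eq_true] at hm
      rcases le_total (τ₁ * 65536) ((m : ℝ) - 32768) with hc | hc
      · exact ih _ _ hm.1 (mkCell_mem d1 _ _ _ _ hX.sl hX.sh hX.tl hc) hY
      · exact ih _ _ hm.2 (mkCell_mem d1 _ _ _ _ hX.sl hX.sh hc hX.th) hY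
    have splitSY : ∀ m : ℕ, (check n X (mkCell Y.sl m Y.tl Y.th) && check n X (mkCell m Y.sh Y.tl Y.th)) = true →
        Goal S₁ τ₁ g₁ S₂ τ₂ g₂ := by
      intro m hm
      rw [Bool.and_eq_true] at hm
      rcases le_total (S₂ * 65536) (m : ℝ) with hc | hc
      · exact ih _ _ hm.1 hX (mkCell_mem d2 _ _ _ _ hY.sl hc hY.tl hY.th)
      · exact ih _ _ hm.2 hX (mkCell_mem d2 _ _ _ _ hc hY.sh hY.tl hY.th)
    have splitTY : ∀ m : ℕ, (check n X (mkCell Y.sl Y.sh Y.tl m) && check n X (mkCell Y.sl Y.sh m Y.th)) = true →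
        Goal S₁ τ₁ g₁ S₂ τ₂ g₂ := by
      intro m hm
      rw [Bool.and_eq_true] at hm
      rcases le_total (τ₂ * 65536) ((m : ℝ) - 32768) with hc | hc
      · exact ih _ _ hm.1 hX (mkCell_mem d2 _ _ _ _ hY.sl hY.sh hY.tl hc)
      · exact ih _ _ hm.2 hX (mkCell_mem d2 _ _ _ _ hY.sl hY.sh hc hY.th)
    have h' := h
    rw [check] at h'
    rw [hne] at h'
    dsimp only at h'
    rw [Bool.false_or, Bool.or_eq_true] at h'
    rcases h' with h' | h'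
    · exact leaf_sound d1 d2 hX hY h'
    · revert h'
      cases Nat.ble (cond (Nat.ble (Nat.sub Y.sh Y.sl) (Nat.mul 4 (Nat.sub Y.th Y.tl))) (Nat.mul 4 (Nat.sub Y.th Y.tl)) (Nat.sub Y.sh Y.sl))
          (cond (Nat.ble (Nat.sub X.sh X.sl) (Nat.mul 4 (Nat.sub X.th X.tl))) (Nat.mul 4 (Nat.sub X.th X.tl)) (Nat.sub X.sh X.sl))
      · simp only [cond_false]
        cases Nat.ble (Nat.mul 4 (Nat.sub Y.th Y.tl)) (Nat.sub Y.sh Y.sl)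
        · simp only [cond_false]
          exact splitTY _
        · simp only [cond_true]
          exact splitSY _
      · simp only [cond_true]
        cases Nat.ble (Nat.mul 4 (Nat.sub X.th X.tl)) (Nat.sub X.sh X.sl)
        · simp only [cond_false]
          exact splitTX _
        · simp only [cond_true]
          exact splitSX _

end Vale.Agent.Lib.P154.BB
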