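import Vale.Agent.Lib.P154.RawPair

namespace Vale.Agent.Lib.P154

open Finset

section channel

variable {Ω Ω' : Type*} [Fintype Ω] [Fintype Ω']

/-- The sum of a functional over a channel. -/
noncomputable def Ex (ℓ : Ω → Fin 3 → ℝ) (G : ℝ → ℝ → ℝ → ℝ) : ℝ :=
  ∑ ω, G (ℓ ω 0) (ℓ ω 1) (ℓ ω 2)

/-- Symmetry of a channel under permutations of the states. -/
def IsSym (ℓ : Ω → Fin 3 → ℝ) : Prop :=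
  ∀ σ : Equiv.Perm (Fin 3), ∃ e : Ω ≃ Ω, ∀ ω i, ℓ (e ω) i = ℓ ω (σ i)

theorem IsSym.sum_perm {ℓ : Ω → Fin 3 → ℝ} (h : IsSym ℓ) (σ : Equiv.Perm (Fin 3)) (i j k : Fin 3)
    (h0 : σ 0 = i) (h1 : σ 1 = j) (h2 : σ 2 = k) (F : ℝ → ℝ → ℝ → ℝ) :
    ∑ ω, F (ℓ ω i) (ℓ ω j) (ℓ ω k) = ∑ ω, F (ℓ ω 0) (ℓ ω 1) (ℓ ω 2) := by
  obtain ⟨e, he⟩ := h σ
  rw [← Equiv.sum_comp e (fun ω => F (ℓ ω 0) (ℓ ω 1) (ℓ ω 2))]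
  simp only [he, h0, h1, h2]

theorem sum_avg6 {ℓ : Ω → Fin 3 → ℝ} (h : IsSym ℓ) (G : ℝ → ℝ → ℝ → ℝ) (x₁ x₂ x₃ : ℝ) :
    ∑ ω, avg6 G x₁ x₂ x₃ (ℓ ω 0) (ℓ ω 1) (ℓ ω 2) = ∑ ω, G (x₁ * ℓ ω 0) (x₂ * ℓ ω 1) (x₃ * ℓ ω 2) := by
  have key := fun (σ : Equiv.Perm (Fin 3)) (i j k : Fin 3) (h0 : σ 0 = i) (h1 : σ 1 = j) (h2 : σ 2 = k) =>
    h.sum_perm σ i j k h0 h1 h2 (fun u v w => G (x₁ * u) (x₂ * v) (x₃ * w))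
  have t2 := key ((Equiv.swap 1 2).trans (Equiv.swap 0 1)) 1 2 0 (by decide) (by decide) (by decide)
  have t3 := key ((Equiv.swap 0 1).trans (Equiv.swap 1 2)) 2 0 1 (by decide) (by decide) (by decide)
  have t4 := key (Equiv.swap 1 2) 0 2 1 (by decide) (by decide) (by decide)
  have t5 := key (Equiv.swap 0 1) 1 0 2 (by decide) (by decide) (by decide)
  have t6 := key (Equiv.swap 0 2) 2 1 0 (by decide) (by decide) (by decide)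
  unfold avg6
  simp only [← Finset.sum_div, Finset.sum_add_distrib]
  rw [t2, t3, t4, t5, t6]
  ring

theorem Ex_mul_sum (F H : Ω → ℝ) (F' H' : Ω' → ℝ) :
    ∑ ω', ∑ ω, (F ω * F' ω' + H ω * H' ω') = (∑ ω, F ω) * (∑ ω', F' ω') + (∑ ω, H ω) * (∑ ω', H' ω') := by
  simp only [Finset.sum_add_distrib, Finset.sum_mul_sum]
  rw [Finset.sum_comm (f := fun ω' ω => F ω * F' ω'), Finset.sum_comm (f := fun ω' ω => H ω * H' ω')]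

/-- A channel with positive likelihoods and the invariant. -/
structure Good (ℓ : Ω → Fin 3 → ℝ) : Prop where
  pos : ∀ ω i, 0 < ℓ ω i
  mass : Ex ℓ GM = 1
  phi : 0 ≤ Ex ℓ GPhi

theorem Good.xi_nonneg {ℓ : Ω → Fin 3 → ℝ} (h : Good ℓ) : 0 ≤ Ex ℓ Gxi := by
  apply Finset.sum_nonneg
  intro ω _
  exact Gxi_nonneg (h.pos ω 0) (h.pos ω 1) (h.pos ω 2)

theorem Good.S_nonneg {ℓ : Ω → Fin 3 → ℝ} (h : Good ℓ) : 0 ≤ Ex ℓ GS := by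
  apply Finset.sum_nonneg
  intro ω _
  exact GS_nonneg (h.pos ω 0) (h.pos ω 1) (h.pos ω 2)

theorem Good.S_le {ℓ : Ω → Fin 3 → ℝ} (h : Good ℓ) : Ex ℓ GS ≤ 6 := by
  have : Ex ℓ GS ≤ 6 * Ex ℓ GM := by
    unfold Ex
    rw [Finset.mul_sum]
    apply Finset.sum_le_sum
    intro ω _
    exact GS_le_six (h.pos ω 0) (h.pos ω 1) (h.pos ω 2)
  rw [h.mass] at this
  linarith

/-- The three facts about a product of good channels. -/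
theorem product_step {ℓ' : Ω' → Fin 3 → ℝ} {ℓ : Ω → Fin 3 → ℝ} (h' : Good ℓ') (h : Good ℓ) (sym : IsSym ℓ) :
    (∑ ω', ∑ ω, GS (ℓ' ω' 0 * ℓ ω 0) (ℓ' ω' 1 * ℓ ω 1) (ℓ' ω' 2 * ℓ ω 2)
        ≤ Ex ℓ' GS + Ex ℓ GS - 1 / 1000 * (Ex ℓ' GS * Ex ℓ GS)) ∧
    (0 ≤ ∑ ω', ∑ ω, GPhi (ℓ' ω' 0 * ℓ ω 0) (ℓ' ω' 1 * ℓ ω 1) (ℓ' ω' 2 * ℓ ω 2)) ∧
    (∑ ω', ∑ ω, GM (ℓ' ω' 0 * ℓ ω 0) (ℓ' ω' 1 * ℓ ω 1) (ℓ' ω' 2 * ℓ ω 2) = 1) := by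
  have hA : ∑ ω', ∑ ω, GS (ℓ' ω' 0 * ℓ ω 0) (ℓ' ω' 1 * ℓ ω 1) (ℓ' ω' 2 * ℓ ω 2)
      ≤ ∑ ω', ∑ ω, (GM (ℓ ω 0) (ℓ ω 1) (ℓ ω 2) * GS (ℓ' ω' 0) (ℓ' ω' 1) (ℓ' ω' 2)
        + GM (ℓ' ω' 0) (ℓ' ω' 1) (ℓ' ω' 2) * GS (ℓ ω 0) (ℓ ω 1) (ℓ ω 2)
        - Gxi (ℓ ω 0) (ℓ ω 1) (ℓ ω 2) * GPhi (ℓ' ω' 0) (ℓ' ω' 1) (ℓ' ω' 2)
        - Gxi (ℓ' ω' 0) (ℓ' ω' 1) (ℓ' ω' 2) * GPhi (ℓ ω 0) (ℓ ω 1) (ℓ ω 2)
        - 1 / 1000 * (GS (ℓ' ω' 0) (ℓ' ω' 1) (ℓ' ω' 2) * GS (ℓ ω 0) (ℓ ω 1) (ℓ ω 2))) := by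
    apply Finset.sum_le_sum
    intro ω' _
    rw [← sum_avg6 sym]
    apply Finset.sum_le_sum
    intro ω _
    exact rawA (h'.pos ω' 0) (h'.pos ω' 1) (h'.pos ω' 2) (h.pos ω 0) (h.pos ω 1) (h.pos ω 2)
  have hB : ∑ ω', ∑ ω, ((GM (ℓ ω 0) (ℓ ω 1) (ℓ ω 2) - GS (ℓ ω 0) (ℓ ω 1) (ℓ ω 2) / 6) * GPhi (ℓ' ω' 0) (ℓ' ω' 1) (ℓ' ω' 2)
        + (GM (ℓ' ω' 0) (ℓ' ω' 1) (ℓ' ω' 2) - GS (ℓ' ω' 0) (ℓ' ω' 1) (ℓ' ω' 2) / 6) * GPhi (ℓ ω 0) (ℓ ω 1) (ℓ ω 2))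
      ≤ ∑ ω', ∑ ω, GPhi (ℓ' ω' 0 * ℓ ω 0) (ℓ' ω' 1 * ℓ ω 1) (ℓ' ω' 2 * ℓ ω 2) := by
    apply Finset.sum_le_sum
    intro ω' _
    rw [← sum_avg6 sym]
    apply Finset.sum_le_sum
    intro ω _
    exact rawB (h'.pos ω' 0) (h'.pos ω' 1) (h'.pos ω' 2) (h.pos ω 0) (h.pos ω 1) (h.pos ω 2)
  have hM : ∑ ω', ∑ ω, GM (ℓ' ω' 0 * ℓ ω 0) (ℓ' ω' 1 * ℓ ω 1) (ℓ' ω' 2 * ℓ ω 2)
      = ∑ ω', ∑ ω, (GM (ℓ ω 0) (ℓ ω 1) (ℓ ω 2) * GM (ℓ' ω' 0) (ℓ' ω' 1) (ℓ' ω' 2) + 0 * GM (ℓ' ω' 0) (ℓ' ω' 1) (ℓ' ω' 2)) := by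
    apply Finset.sum_congr rfl
    intro ω' _
    rw [← sum_avg6 sym]
    apply Finset.sum_congr rfl
    intro ω _
    rw [rawM]
    ring
  have e1 : ∑ ω', ∑ ω, (GM (ℓ ω 0) (ℓ ω 1) (ℓ ω 2) * GS (ℓ' ω' 0) (ℓ' ω' 1) (ℓ' ω' 2)
        + GM (ℓ' ω' 0) (ℓ' ω' 1) (ℓ' ω' 2) * GS (ℓ ω 0) (ℓ ω 1) (ℓ ω 2)
        - Gxi (ℓ ω 0) (ℓ ω 1) (ℓ ω 2) * GPhi (ℓ' ω' 0) (ℓ' ω' 1) (ℓ' ω' 2)
        - Gxi (ℓ' ω' 0) (ℓ' ω' 1) (ℓ' ω' 2) * GPhi (ℓ ω 0) (ℓ ω 1) (ℓ ω 2)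
        - 1 / 1000 * (GS (ℓ' ω' 0) (ℓ' ω' 1) (ℓ' ω' 2) * GS (ℓ ω 0) (ℓ ω 1) (ℓ ω 2)))
      = Ex ℓ GM * Ex ℓ' GS + Ex ℓ GS * Ex ℓ' GM - Ex ℓ Gxi * Ex ℓ' GPhi - Ex ℓ GPhi * Ex ℓ' Gxi
        - 1 / 1000 * (Ex ℓ GS * Ex ℓ' GS) := by
    unfold Ex
    have a1 := Ex_mul_sum (fun ω => GM (ℓ ω 0) (ℓ ω 1) (ℓ ω 2)) (fun ω => GS (ℓ ω 0) (ℓ ω 1) (ℓ ω 2))
      (fun ω' => GS (ℓ' ω' 0) (ℓ' ω' 1) (ℓ' ω' 2)) (fun ω' => GM (ℓ' ω' 0) (ℓ' ω' 1) (ℓ' ω' 2))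
    have a2 := Ex_mul_sum (fun ω => Gxi (ℓ ω 0) (ℓ ω 1) (ℓ ω 2)) (fun ω => GPhi (ℓ ω 0) (ℓ ω 1) (ℓ ω 2))
      (fun ω' => GPhi (ℓ' ω' 0) (ℓ' ω' 1) (ℓ' ω' 2)) (fun ω' => Gxi (ℓ' ω' 0) (ℓ' ω' 1) (ℓ' ω' 2))
    have a3 := Ex_mul_sum (fun ω => GS (ℓ ω 0) (ℓ ω 1) (ℓ ω 2)) (fun _ => (0 : ℝ))
      (fun ω' => GS (ℓ' ω' 0) (ℓ' ω' 1) (ℓ' ω' 2)) (fun _ => (0 : ℝ))
    simp only [Finset.sum_const_zero, zero_mul, add_zero, mul_zero] at a3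
    rw [← sub_eq_zero]
    have : (∑ ω', ∑ ω, (GM (ℓ ω 0) (ℓ ω 1) (ℓ ω 2) * GS (ℓ' ω' 0) (ℓ' ω' 1) (ℓ' ω' 2)
        + GM (ℓ' ω' 0) (ℓ' ω' 1) (ℓ' ω' 2) * GS (ℓ ω 0) (ℓ ω 1) (ℓ ω 2)
        - Gxi (ℓ ω 0) (ℓ ω 1) (ℓ ω 2) * GPhi (ℓ' ω' 0) (ℓ' ω' 1) (ℓ' ω' 2)
        - Gxi (ℓ' ω' 0) (ℓ' ω' 1) (ℓ' ω' 2) * GPhi (ℓ ω 0) (ℓ ω 1) (ℓ ω 2)
        - 1 / 1000 * (GS (ℓ' ω' 0) (ℓ' ω' 1) (ℓ' ω' 2) * GS (ℓ ω 0) (ℓ ω 1) (ℓ ω 2))))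
        = ∑ ω', ∑ ω, (GM (ℓ ω 0) (ℓ ω 1) (ℓ ω 2) * GS (ℓ' ω' 0) (ℓ' ω' 1) (ℓ' ω' 2)
          + GS (ℓ ω 0) (ℓ ω 1) (ℓ ω 2) * GM (ℓ' ω' 0) (ℓ' ω' 1) (ℓ' ω' 2))
          - ∑ ω', ∑ ω, (Gxi (ℓ ω 0) (ℓ ω 1) (ℓ ω 2) * GPhi (ℓ' ω' 0) (ℓ' ω' 1) (ℓ' ω' 2)
          + GPhi (ℓ ω 0) (ℓ ω 1) (ℓ ω 2) * Gxi (ℓ' ω' 0) (ℓ' ω' 1) (ℓ' ω' 2))
          - 1 / 1000 * ∑ ω', ∑ ω, (GS (ℓ ω 0) (ℓ ω 1) (ℓ ω 2) * GS (ℓ' ω' 0) (ℓ' ω' 1) (ℓ' ω' 2) + 0 * 0) := by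
      simp only [Finset.mul_sum, ← Finset.sum_sub_distrib]
      apply Finset.sum_congr rfl
      intro ω' _
      apply Finset.sum_congr rfl
      intro ω _
      ring
    rw [this, a1, a2]
    have a3' : ∑ ω', ∑ ω, (GS (ℓ ω 0) (ℓ ω 1) (ℓ ω 2) * GS (ℓ' ω' 0) (ℓ' ω' 1) (ℓ' ω' 2) + 0 * 0)
        = (∑ ω, GS (ℓ ω 0) (ℓ ω 1) (ℓ ω 2)) * ∑ ω', GS (ℓ' ω' 0) (ℓ' ω' 1) (ℓ' ω' 2) := by
      simpa using a3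
    rw [a3']
    ring
  have e2 : ∑ ω', ∑ ω, ((GM (ℓ ω 0) (ℓ ω 1) (ℓ ω 2) - GS (ℓ ω 0) (ℓ ω 1) (ℓ ω 2) / 6) * GPhi (ℓ' ω' 0) (ℓ' ω' 1) (ℓ' ω' 2)
        + (GM (ℓ' ω' 0) (ℓ' ω' 1) (ℓ' ω' 2) - GS (ℓ' ω' 0) (ℓ' ω' 1) (ℓ' ω' 2) / 6) * GPhi (ℓ ω 0) (ℓ ω 1) (ℓ ω 2))
      = (Ex ℓ GM - Ex ℓ GS / 6) * Ex ℓ' GPhi + Ex ℓ GPhi * (Ex ℓ' GM - Ex ℓ' GS / 6) := by
    have a1 := Ex_mul_sum (fun ω => GM (ℓ ω 0) (ℓ ω 1) (ℓ ω 2) - GS (ℓ ω 0) (ℓ ω 1) (ℓ ω 2) / 6)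
      (fun ω => GPhi (ℓ ω 0) (ℓ ω 1) (ℓ ω 2))
      (fun ω' => GPhi (ℓ' ω' 0) (ℓ' ω' 1) (ℓ' ω' 2))
      (fun ω' => GM (ℓ' ω' 0) (ℓ' ω' 1) (ℓ' ω' 2) - GS (ℓ' ω' 0) (ℓ' ω' 1) (ℓ' ω' 2) / 6)
    have e3 : ∑ ω, (GM (ℓ ω 0) (ℓ ω 1) (ℓ ω 2) - GS (ℓ ω 0) (ℓ ω 1) (ℓ ω 2) / 6) = Ex ℓ GM - Ex ℓ GS / 6 := by
      unfold Ex
      rw [Finset.sum_sub_distrib, Finset.sum_div]
    have e4 : ∑ ω', (GM (ℓ' ω' 0) (ℓ' ω' 1) (ℓ' ω' 2) - GS (ℓ' ω' 0) (ℓ' ω' 1) (ℓ' ω' 2) / 6) = Ex ℓ' GM - Ex ℓ' GS / 6 := by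
      unfold Ex
      rw [Finset.sum_sub_distrib, Finset.sum_div]
    calc _ = ∑ ω', ∑ ω, ((GM (ℓ ω 0) (ℓ ω 1) (ℓ ω 2) - GS (ℓ ω 0) (ℓ ω 1) (ℓ ω 2) / 6) * GPhi (ℓ' ω' 0) (ℓ' ω' 1) (ℓ' ω' 2)
            + GPhi (ℓ ω 0) (ℓ ω 1) (ℓ ω 2) * (GM (ℓ' ω' 0) (ℓ' ω' 1) (ℓ' ω' 2) - GS (ℓ' ω' 0) (ℓ' ω' 1) (ℓ' ω' 2) / 6)) := by
          apply Finset.sum_congr rfl
          intro ω' _
          apply Finset.sum_congr rfl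
          intro ω _
          ring
      _ = _ := by
          rw [a1, e3, e4]
          rfl
  rw [e1, h.mass, h'.mass] at hA
  rw [e2, h.mass, h'.mass] at hB
  have p1 := mul_nonneg h.xi_nonneg h'.phi
  have p2 := mul_nonneg h.phi h'.xi_nonneg
  have q1 := h.S_le
  have q2 := h'.S_le
  refine ⟨?_, ?_, ?_⟩
  · linarith
  · have p3 : 0 ≤ (1 - Ex ℓ GS / 6) * Ex ℓ' GPhi := mul_nonneg (by linarith) h'.phi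
    have p4 : 0 ≤ Ex ℓ GPhi * (1 - Ex ℓ' GS / 6) := mul_nonneg h.phi (by linarith)
    linarith
  · rw [hM]
    have a1 := Ex_mul_sum (fun ω => GM (ℓ ω 0) (ℓ ω 1) (ℓ ω 2)) (fun _ => (0 : ℝ))
      (fun ω' => GM (ℓ' ω' 0) (ℓ' ω' 1) (ℓ' ω' 2)) (fun ω' => GM (ℓ' ω' 0) (ℓ' ω' 1) (ℓ' ω' 2))
    rw [a1]
    have e5 : ∑ ω, GM (ℓ ω 0) (ℓ ω 1) (ℓ ω 2) = 1 := h.mass
    have e6 : ∑ ω', GM (ℓ' ω' 0) (ℓ' ω' 1) (ℓ' ω' 2) = 1 := h'.mass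
    rw [e5, e6]
    simp

/-- The `k`-fold product of a channel. -/
noncomputable def powCh (ℓ : Ω → Fin 3 → ℝ) (k : ℕ) : (Fin k → Ω) → Fin 3 → ℝ :=
  fun η i => ∏ c, ℓ (η c) i

theorem powCh_cons (ℓ : Ω → Fin 3 → ℝ) (k : ℕ) (ω : Ω) (η : Fin k → Ω) (i : Fin 3) :
    powCh ℓ (k + 1) (Fin.cons ω η) i = powCh ℓ k η i * ℓ ω i := by
  unfold powCh
  rw [Fin.prod_univ_succ]
  simp only [Fin.cons_zero, Fin.cons_succ]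
  ring

theorem sum_pow_succ (k : ℕ) (F : (Fin (k + 1) → Ω) → ℝ) :
    ∑ η, F η = ∑ η' : Fin k → Ω, ∑ ω : Ω, F (Fin.cons ω η') := by
  rw [← (Fin.consEquiv (fun _ => Ω)).sum_comp F, Fintype.sum_prod_type, Finset.sum_comm]
  rfl

theorem Ex_powCh_succ (ℓ : Ω → Fin 3 → ℝ) (k : ℕ) (G : ℝ → ℝ → ℝ → ℝ) :
    Ex (powCh ℓ (k + 1)) G = ∑ η' : Fin k → Ω, ∑ ω : Ω,
      G (powCh ℓ k η' 0 * ℓ ω 0) (powCh ℓ k η' 1 * ℓ ω 1) (powCh ℓ k η' 2 * ℓ ω 2) := by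
  unfold Ex
  rw [sum_pow_succ]
  simp only [powCh_cons]

theorem IsSym.powCh {ℓ : Ω → Fin 3 → ℝ} (h : IsSym ℓ) (k : ℕ) : IsSym (powCh ℓ k) := by
  intro σ
  obtain ⟨e, he⟩ := h σ
  refine ⟨Equiv.arrowCongr (Equiv.refl _) e, ?_⟩
  intro η i
  unfold Vale.Agent.Lib.P154.powCh
  apply Finset.prod_congr rfl
  intro c _
  exact he (η c) i

theorem Ex_powCh_zero (ℓ : Ω → Fin 3 → ℝ) (G : ℝ → ℝ → ℝ → ℝ) :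
    Ex (powCh ℓ 0) G = G 1 1 1 := by
  unfold Ex powCh
  simp

/-- The `k`-fold product of a good symmetric channel is good, and the quantity `1 - S/1000` is supermultiplicative. -/
theorem powCh_good {ℓ : Ω → Fin 3 → ℝ} (h : Good ℓ) (sym : IsSym ℓ) (k : ℕ) :
    Good (powCh ℓ k) ∧ (1 - 1 / 1000 * Ex ℓ GS) ^ k ≤ 1 - 1 / 1000 * Ex (powCh ℓ k) GS := by
  induction k with
  | zero =>
    refine ⟨⟨?_, ?_, ?_⟩, ?_⟩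
    · intro ω i
      unfold powCh
      simp
    · rw [Ex_powCh_zero]
      unfold GM
      norm_num
    · rw [Ex_powCh_zero, GPhi_norm (by norm_num), sphi_one]
    · rw [Ex_powCh_zero, GS_norm (by norm_num)]
      unfold sS
      norm_num
  | succ k ih =>
    obtain ⟨ih1, ih2⟩ := ih
    obtain ⟨a1, a2, a3⟩ := product_step ih1 h sym
    refine ⟨⟨?_, ?_, ?_⟩, ?_⟩
    · intro η i
      unfold powCh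
      apply Finset.prod_pos
      intro c _
      exact h.pos _ _
    · rw [Ex_powCh_succ]; exact a3
    · rw [Ex_powCh_succ]; exact a2
    · rw [Ex_powCh_succ]
      have b1 : 0 ≤ 1 - 1 / 1000 * Ex ℓ GS := by
        have := h.S_le
        linarith
      have b2 : (1 - 1 / 1000 * Ex ℓ GS) ^ (k + 1)
          ≤ (1 - 1 / 1000 * Ex (Vale.Agent.Lib.P154.powCh ℓ k) GS) * (1 - 1 / 1000 * Ex ℓ GS) := by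
        rw [pow_succ]
        exact mul_le_mul_of_nonneg_right ih2 b1
      nlinarith

/-- The channel after one edge. -/
noncomputable def edgeCh (lam : ℝ) (ℓ : Ω → Fin 3 → ℝ) : Ω → Fin 3 → ℝ :=
  fun ω i => eStep lam (ℓ ω 0) (ℓ ω 1) (ℓ ω 2) (ℓ ω i)

theorem GM_fin (v : Fin 3 → ℝ) : GM (v 0) (v 1) (v 2) = (∑ i, v i) / 3 := by
  unfold GM
  rw [Fin.sum_univ_three]

theorem IsSym.edgeCh {ℓ : Ω → Fin 3 → ℝ} (h : IsSym ℓ) (lam : ℝ) : IsSym (edgeCh lam ℓ) := by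
  intro σ
  obtain ⟨e, he⟩ := h σ
  refine ⟨e, ?_⟩
  intro ω i
  unfold Vale.Agent.Lib.P154.edgeCh eStep
  rw [GM_fin (fun j => ℓ (e ω) j), GM_fin (fun j => ℓ ω j)]
  simp only [he]
  rw [Equiv.sum_comp σ (fun j => ℓ ω j)]

/-- The weaker condition needed before the edge step. -/
structure Pre (ℓ : Ω → Fin 3 → ℝ) : Prop where
  nn : ∀ ω i, 0 ≤ ℓ ω i
  mpos : ∀ ω, 0 < GM (ℓ ω 0) (ℓ ω 1) (ℓ ω 2)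
  mass : Ex ℓ GM = 1
  phi : 0 ≤ Ex ℓ GPhi

theorem Good.pre {ℓ : Ω → Fin 3 → ℝ} (h : Good ℓ) : Pre ℓ := by
  refine ⟨fun ω i => (h.pos ω i).le, fun ω => ?_, h.mass, h.phi⟩
  have h0 := h.pos ω 0
  have h1 := h.pos ω 1
  have h2 := h.pos ω 2
  unfold GM
  positivity

theorem Pre.edge {ℓ : Ω → Fin 3 → ℝ} (h : Pre ℓ) {lam : ℝ} (h0 : 0 ≤ lam) (h1 : lam < 1) :
    Good (edgeCh lam ℓ) ∧ Ex (edgeCh lam ℓ) GS = lam ^ 2 * Ex ℓ GS := by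
  refine ⟨⟨?_, ?_, ?_⟩, ?_⟩
  · intro ω i
    exact eStep_pos h0 h1 (h.nn ω i) (h.mpos ω)
  · rw [← h.mass]
    unfold Ex edgeCh
    apply Finset.sum_congr rfl
    intro ω _
    exact GM_eStep _ _ _ _
  · have : lam ^ 3 * Ex ℓ GPhi ≤ Ex (edgeCh lam ℓ) GPhi := by
      unfold Ex edgeCh
      rw [Finset.mul_sum]
      apply Finset.sum_le_sum
      intro ω _
      exact GPhi_eStep h0 h1.le (h.nn ω 0) (h.nn ω 1) (h.nn ω 2) (h.mpos ω)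
    have h2 : 0 ≤ lam ^ 3 * Ex ℓ GPhi := mul_nonneg (by positivity) h.phi
    linarith
  · unfold Ex edgeCh
    rw [Finset.mul_sum]
    apply Finset.sum_congr rfl
    intro ω _
    exact GS_eStep h0 h1.le (h.nn ω 0) (h.nn ω 1) (h.nn ω 2) (h.mpos ω)

end channel

/-- An elementary inequality. -/
theorem pow_lower (t : ℝ) (h0 : 0 ≤ t) (h1 : t ≤ 1) (d : ℕ) (hd : 2 ≤ d) :
    1 - d * t + t ^ 2 ≤ (1 - t) ^ d := by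
  induction d, hd using Nat.le_induction with
  | base =>
    push_cast
    nlinarith
  | succ d hd ih =>
    rw [pow_succ]
    have h2 : 0 ≤ 1 - t := by linarith
    have h3 := mul_le_mul_of_nonneg_right ih h2
    refine le_trans ?_ h3
    push_cast
    have hd' : (2 : ℝ) ≤ d := by exact_mod_cast hd
    nlinarith [mul_nonneg (mul_nonneg h0 h0) (by linarith : 0 ≤ (d : ℝ) - t)]

/-- A decreasing sequence with a quadratic gain tends to zero. -/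
theorem tendsto_zero_of_quad (x : ℕ → ℝ) (c : ℝ) (hc : 0 < c) (h0 : ∀ n, 0 ≤ x n)
    (h : ∀ n, x (n + 1) ≤ x n - c * x n ^ 2) : Filter.Tendsto x Filter.atTop (nhds 0) := by
  have hanti : Antitone x := by
    apply antitone_nat_of_succ_le
    intro n
    have := h n
    have h2 : 0 ≤ c * x n ^ 2 := by positivity
    linarith
  have hbdd : BddBelow (Set.range x) := ⟨0, by rintro _ ⟨n, rfl⟩; exact h0 n⟩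
  have hlim := tendsto_atTop_ciInf hanti hbdd
  set L := ⨅ n, x n with hL
  have hL0 : 0 ≤ L := le_ciInf h0
  have hlim2 : Filter.Tendsto (fun n => x (n + 1)) Filter.atTop (nhds L) :=
    (Filter.tendsto_add_atTop_iff_nat 1).2 hlim
  have hlim3 : Filter.Tendsto (fun n => x n - c * x n ^ 2) Filter.atTop (nhds (L - c * L ^ 2)) :=
    hlim.sub ((hlim.pow 2).const_mul c)
  have hle : L ≤ L - c * L ^ 2 := le_of_tendsto_of_tendsto' hlim2 hlim3 h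
  have hL2 : L ^ 2 ≤ 0 := by
    by_contra hc'
    push Not at hc'
    have : 0 < c * L ^ 2 := by positivity
    linarith
  have hLz : L = 0 := by nlinarith [sq_nonneg L]
  rw [← hLz]
  exact hlim

end Vale.Agent.Lib.P154
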