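import Vale.Agent.Lib.P154.Closure

namespace Vale.Agent.Lib.P154

open Filter Topology

/-- A functional bounded by a multiple of the mass on the closed orthant. -/
def SG (G : ℝ → ℝ → ℝ → ℝ) : Prop :=
  ∃ C : ℝ, ∀ x y z, 0 ≤ x → 0 ≤ y → 0 ≤ z → |G x y z| ≤ C * GM x y z

theorem GM_nonneg' {x y z : ℝ} (hx : 0 ≤ x) (hy : 0 ≤ y) (hz : 0 ≤ z) : 0 ≤ GM x y z := by
  unfold GM; positivity

theorem GS_le_six' {x y z : ℝ} (hx : 0 ≤ x) (hy : 0 ≤ y) (hz : 0 ≤ z) : GS x y z ≤ 6 * GM x y z := by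
  have := (GS_bound hx hy hz).2
  unfold GM
  linarith

theorem GE_le_GM {x y z : ℝ} (hx : 0 ≤ x) (hy : 0 ≤ y) (hz : 0 ≤ z) : GE x y z ≤ GM x y z := by
  have := (GE_bound hx hy hz).2
  unfold GM
  linarith

theorem gv_le_GM {x y z : ℝ} (hx : 0 ≤ x) (hy : 0 ≤ y) (hz : 0 ≤ z) : gv x y z ≤ GM x y z := by
  have h0 := gv_nonneg' hx hy hz
  have hm := GM_nonneg' hx hy hz
  by_contra hc
  push Not at hc
  have h3 := pow_lt_pow_left₀ hc hm (by norm_num : (3 : ℕ) ≠ 0)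
  rw [gv_cube hx hy hz] at h3
  unfold GM at h3
  have h27 : 27 * (x * y * z) ≤ (x + y + z) ^ 3 := by
    nlinarith [mul_nonneg hx (sq_nonneg (y - z)), mul_nonneg hy (sq_nonneg (x - z)),
      mul_nonneg hz (sq_nonneg (x - y)), mul_nonneg (add_nonneg (add_nonneg hx hy) hz) (sq_nonneg (x - y)),
      mul_nonneg (add_nonneg (add_nonneg hx hy) hz) (sq_nonneg (y - z)),
      mul_nonneg (add_nonneg (add_nonneg hx hy) hz) (sq_nonneg (x - z)), schur_three x y z hx hy hz]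
  nlinarith

theorem SG_GM : SG GM := by
  refine ⟨1, fun x y z hx hy hz => ?_⟩
  rw [abs_of_nonneg (GM_nonneg' hx hy hz)]
  linarith

theorem SG_GS : SG GS := by
  refine ⟨6, fun x y z hx hy hz => ?_⟩
  rw [abs_of_nonneg (GS_bound hx hy hz).1]
  exact GS_le_six' hx hy hz

theorem SG_GPhi : SG GPhi := by
  refine ⟨26, fun x y z hx hy hz => ?_⟩
  have a1 := (GS_bound hx hy hz).1
  have a2 := GS_le_six' hx hy hz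
  have a3 := (GE_bound hx hy hz).1
  have a4 := GE_le_GM hx hy hz
  have a5 := gv_nonneg' hx hy hz
  have a6 := gv_le_GM hx hy hz
  have a7 := GM_nonneg' hx hy hz
  unfold GPhi
  rw [abs_le]
  constructor <;> linarith

theorem SG_Gxi : SG Gxi := by
  refine ⟨3, fun x y z hx hy hz => ?_⟩
  have a1 := (GS_bound hx hy hz).1
  have a2 := GS_le_six' hx hy hz
  have a3 := (GE_bound hx hy hz).1
  have a4 := GE_le_GM hx hy hz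
  have a7 := GM_nonneg' hx hy hz
  unfold Gxi
  rw [abs_le]
  constructor <;> linarith

theorem Gxi_nonneg' {x y z : ℝ} (hx : 0 ≤ x) (hy : 0 ≤ y) (hz : 0 ≤ z) : 0 ≤ Gxi x y z := by
  rcases (GM_nonneg' hx hy hz).eq_or_lt with h | h
  · have hs : x + y + z = 0 := by
      unfold GM at h; linarith
    have e1 : x = 0 := by linarith
    have e2 : y = 0 := by linarith
    have e3 : z = 0 := by linarith
    subst e1 e2 e3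
    simp [Gxi, GS, GM, GE]
  · obtain ⟨m, a₁, a₂, a₃, hm, hs, p₁, p₂, p₃, rfl, rfl, rfl⟩ := exists_norm' hx hy hz h
    rw [Hom_Gxi m _ _ _ hm p₁ p₂ p₃, Gxi_norm hs]
    have h1 := sT_le_sS hs p₁ p₂ p₃
    have h2 := sS_nonneg hs
    have : 0 ≤ sxi a₁ a₂ a₃ := by unfold sxi; linarith
    positivity

section chan

variable {Ω Ω' : Type*}

/-- The sum of a functional over a channel with a possibly infinite set of outputs. -/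
noncomputable def ExT (ℓ : Ω → Fin 3 → ℝ) (G : ℝ → ℝ → ℝ → ℝ) : ℝ :=
  ∑' ω, G (ℓ ω 0) (ℓ ω 1) (ℓ ω 2)

/-- A channel of finite mass with nonnegative likelihoods and the invariant. -/
structure GoodT (ℓ : Ω → Fin 3 → ℝ) : Prop where
  nn : ∀ ω i, 0 ≤ ℓ ω i
  summ : Summable (fun ω => GM (ℓ ω 0) (ℓ ω 1) (ℓ ω 2))
  mass : ExT ℓ GM = 1
  phi : 0 ≤ ExT ℓ GPhi

theorem GoodT.summable {ℓ : Ω → Fin 3 → ℝ} (h : GoodT ℓ) {G : ℝ → ℝ → ℝ → ℝ} (hG : SG G) :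
    Summable (fun ω => G (ℓ ω 0) (ℓ ω 1) (ℓ ω 2)) := by
  obtain ⟨C, hC⟩ := hG
  exact Summable.of_norm_bounded (h.summ.mul_left C) (fun ω => hC _ _ _ (h.nn ω 0) (h.nn ω 1) (h.nn ω 2))

theorem GoodT.hasSum {ℓ : Ω → Fin 3 → ℝ} (h : GoodT ℓ) {G : ℝ → ℝ → ℝ → ℝ} (hG : SG G) :
    HasSum (fun ω => G (ℓ ω 0) (ℓ ω 1) (ℓ ω 2)) (ExT ℓ G) :=
  (h.summable hG).hasSum

theorem GoodT.S_nonneg {ℓ : Ω → Fin 3 → ℝ} (h : GoodT ℓ) : 0 ≤ ExT ℓ GS :=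
  tsum_nonneg fun ω => (GS_bound (h.nn ω 0) (h.nn ω 1) (h.nn ω 2)).1

theorem GoodT.S_le {ℓ : Ω → Fin 3 → ℝ} (h : GoodT ℓ) : ExT ℓ GS ≤ 6 := by
  have h1 : ExT ℓ GS ≤ ∑' ω, 6 * GM (ℓ ω 0) (ℓ ω 1) (ℓ ω 2) :=
    Summable.tsum_le_tsum (fun ω => GS_le_six' (h.nn ω 0) (h.nn ω 1) (h.nn ω 2)) (h.summable SG_GS)
      (h.summ.mul_left 6)
  rw [tsum_mul_left] at h1
  have h2 : ∑' ω, GM (ℓ ω 0) (ℓ ω 1) (ℓ ω 2) = 1 := h.mass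
  rw [h2] at h1
  linarith

theorem GoodT.xi_nonneg {ℓ : Ω → Fin 3 → ℝ} (h : GoodT ℓ) : 0 ≤ ExT ℓ Gxi :=
  tsum_nonneg fun ω => Gxi_nonneg' (h.nn ω 0) (h.nn ω 1) (h.nn ω 2)

/-- the product channel -/
def pch (ℓ' : Ω' → Fin 3 → ℝ) (ℓ : Ω → Fin 3 → ℝ) : Ω' × Ω → Fin 3 → ℝ :=
  fun p i => ℓ' p.1 i * ℓ p.2 i

theorem GM_mul_le {x₁ x₂ x₃ y₁ y₂ y₃ : ℝ} (h₁ : 0 ≤ x₁) (h₂ : 0 ≤ x₂) (h₃ : 0 ≤ x₃) (k₁ : 0 ≤ y₁) (k₂ : 0 ≤ y₂)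
    (k₃ : 0 ≤ y₃) : GM (x₁ * y₁) (x₂ * y₂) (x₃ * y₃) ≤ 3 * (GM x₁ x₂ x₃ * GM y₁ y₂ y₃) := by
  unfold GM
  have a1 := mul_nonneg h₁ k₂
  have a2 := mul_nonneg h₁ k₃
  have a3 := mul_nonneg h₂ k₁
  have a4 := mul_nonneg h₂ k₃
  have a5 := mul_nonneg h₃ k₁
  have a6 := mul_nonneg h₃ k₂
  nlinarith

theorem mulsum {f : Ω' → ℝ} {g : Ω → ℝ} (hf : Summable f) (hg : Summable g) :
    HasSum (fun p : Ω' × Ω => f p.1 * g p.2) ((∑' a, f a) * (∑' b, g b)) := by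
  have h1 := summable_mul_of_summable_norm hf.norm hg.norm
  rw [tsum_mul_tsum_of_summable_norm hf.norm hg.norm]
  exact h1.hasSum

theorem pch_nn {ℓ' : Ω' → Fin 3 → ℝ} {ℓ : Ω → Fin 3 → ℝ} (h' : GoodT ℓ') (h : GoodT ℓ) :
    ∀ p i, 0 ≤ pch ℓ' ℓ p i := fun p i => mul_nonneg (h'.nn _ _) (h.nn _ _)

theorem pch_summ {ℓ' : Ω' → Fin 3 → ℝ} {ℓ : Ω → Fin 3 → ℝ} (h' : GoodT ℓ') (h : GoodT ℓ) :
    Summable (fun p => GM (pch ℓ' ℓ p 0) (pch ℓ' ℓ p 1) (pch ℓ' ℓ p 2)) := by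
  have h1 := (mulsum h'.summ h.summ).summable.mul_left 3
  refine Summable.of_nonneg_of_le (fun p => GM_nonneg' (pch_nn h' h p 0) (pch_nn h' h p 1) (pch_nn h' h p 2)) ?_ h1
  intro p
  exact GM_mul_le (h'.nn _ _) (h'.nn _ _) (h'.nn _ _) (h.nn _ _) (h.nn _ _) (h.nn _ _)

theorem pch_summable {ℓ' : Ω' → Fin 3 → ℝ} {ℓ : Ω → Fin 3 → ℝ} (h' : GoodT ℓ') (h : GoodT ℓ)
    {G : ℝ → ℝ → ℝ → ℝ} (hG : SG G) :
    Summable (fun p => G (pch ℓ' ℓ p 0) (pch ℓ' ℓ p 1) (pch ℓ' ℓ p 2)) := by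
  obtain ⟨C, hC⟩ := hG
  exact Summable.of_norm_bounded ((pch_summ h' h).mul_left C)
    (fun p => hC _ _ _ (pch_nn h' h p 0) (pch_nn h' h p 1) (pch_nn h' h p 2))

/-- Averaging over the arrangements does not change the sum, when the second factor is symmetric. -/
theorem hasSum_avg6 {ℓ' : Ω' → Fin 3 → ℝ} {ℓ : Ω → Fin 3 → ℝ} (h' : GoodT ℓ') (h : GoodT ℓ) (sym : IsSym ℓ)
    {G : ℝ → ℝ → ℝ → ℝ} (hG : SG G) :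
    HasSum (fun p : Ω' × Ω => avg6 G (ℓ' p.1 0) (ℓ' p.1 1) (ℓ' p.1 2) (ℓ p.2 0) (ℓ p.2 1) (ℓ p.2 2))
      (ExT (pch ℓ' ℓ) G) := by
  have hT : HasSum (fun p => G (pch ℓ' ℓ p 0) (pch ℓ' ℓ p 1) (pch ℓ' ℓ p 2)) (ExT (pch ℓ' ℓ) G) :=
    (pch_summable h' h hG).hasSum
  have key : ∀ (σ : Equiv.Perm (Fin 3)) (i j k : Fin 3), σ 0 = i → σ 1 = j → σ 2 = k →
      HasSum (fun p : Ω' × Ω => G (ℓ' p.1 0 * ℓ p.2 i) (ℓ' p.1 1 * ℓ p.2 j) (ℓ' p.1 2 * ℓ p.2 k))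
        (ExT (pch ℓ' ℓ) G) := by
    intro σ i j k h0 h1 h2
    obtain ⟨e, he⟩ := sym σ
    have h3 := (Equiv.hasSum_iff (Equiv.prodCongr (Equiv.refl Ω') e)).2 hT
    convert h3 using 2 with p
    simp [pch, he, h0, h1, h2]
  have t1 := key 1 0 1 2 (by decide) (by decide) (by decide)
  have t2 := key ((Equiv.swap 1 2).trans (Equiv.swap 0 1)) 1 2 0 (by decide) (by decide) (by decide)
  have t3 := key ((Equiv.swap 0 1).trans (Equiv.swap 1 2)) 2 0 1 (by decide) (by decide) (by decide)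
  have t4 := key (Equiv.swap 1 2) 0 2 1 (by decide) (by decide) (by decide)
  have t5 := key (Equiv.swap 0 1) 1 0 2 (by decide) (by decide) (by decide)
  have t6 := key (Equiv.swap 0 2) 2 1 0 (by decide) (by decide) (by decide)
  have hsum := (((((t1.add t2).add t3).add t4).add t5).add t6).div_const 6
  have e : (ExT (pch ℓ' ℓ) G + ExT (pch ℓ' ℓ) G + ExT (pch ℓ' ℓ) G + ExT (pch ℓ' ℓ) G + ExT (pch ℓ' ℓ) G
      + ExT (pch ℓ' ℓ) G) / 6 = ExT (pch ℓ' ℓ) G := by ring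
  rw [e] at hsum
  exact hsum

/-- One product step. -/
theorem product_stepT {ℓ' : Ω' → Fin 3 → ℝ} {ℓ : Ω → Fin 3 → ℝ} (h' : GoodT ℓ') (h : GoodT ℓ) (sym : IsSym ℓ) :
    GoodT (pch ℓ' ℓ) ∧
      ExT (pch ℓ' ℓ) GS ≤ ExT ℓ' GS + ExT ℓ GS - 1 / 1000 * (ExT ℓ' GS * ExT ℓ GS) := by
  have mul_hs : ∀ {F H : ℝ → ℝ → ℝ → ℝ}, SG F → SG H →
      HasSum (fun p : Ω' × Ω => F (ℓ' p.1 0) (ℓ' p.1 1) (ℓ' p.1 2) * H (ℓ p.2 0) (ℓ p.2 1) (ℓ p.2 2))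
        (ExT ℓ' F * ExT ℓ H) := by
    intro F H hF hH
    exact mulsum (h'.summable hF) (h.summable hH)
  have massA : ExT ℓ GM = 1 := h.mass
  have massB : ExT ℓ' GM = 1 := h'.mass
  -- mass
  have hM : ExT (pch ℓ' ℓ) GM = 1 := by
    have a1 := hasSum_avg6 h' h sym SG_GM
    have a2 := mul_hs SG_GM SG_GM
    have e : (fun p : Ω' × Ω => avg6 GM (ℓ' p.1 0) (ℓ' p.1 1) (ℓ' p.1 2) (ℓ p.2 0) (ℓ p.2 1) (ℓ p.2 2))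
        = (fun p : Ω' × Ω => GM (ℓ' p.1 0) (ℓ' p.1 1) (ℓ' p.1 2) * GM (ℓ p.2 0) (ℓ p.2 1) (ℓ p.2 2)) := by
      funext p
      exact rawM _ _ _ _ _ _
    rw [e] at a1
    rw [a1.unique a2, massA, massB]
    norm_num
  have hq1 := h.S_le
  have hq2 := h'.S_le
  -- the invariant
  have hPhi : 0 ≤ ExT (pch ℓ' ℓ) GPhi := by
    have a1 := hasSum_avg6 h' h sym SG_GPhi
    have hR : HasSum (fun p : Ω' × Ω => (GM (ℓ p.2 0) (ℓ p.2 1) (ℓ p.2 2) * GPhi (ℓ' p.1 0) (ℓ' p.1 1) (ℓ' p.1 2)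
        - (GS (ℓ p.2 0) (ℓ p.2 1) (ℓ p.2 2) * GPhi (ℓ' p.1 0) (ℓ' p.1 1) (ℓ' p.1 2)) / 6)
        + (GM (ℓ' p.1 0) (ℓ' p.1 1) (ℓ' p.1 2) * GPhi (ℓ p.2 0) (ℓ p.2 1) (ℓ p.2 2)
        - (GS (ℓ' p.1 0) (ℓ' p.1 1) (ℓ' p.1 2) * GPhi (ℓ p.2 0) (ℓ p.2 1) (ℓ p.2 2)) / 6))
        ((ExT ℓ' GPhi * ExT ℓ GM - (ExT ℓ' GPhi * ExT ℓ GS) / 6) + (ExT ℓ' GM * ExT ℓ GPhi - (ExT ℓ' GS * ExT ℓ GPhi) / 6)) := by
      refine HasSum.add (HasSum.sub ?_ (HasSum.div_const ?_ 6)) (HasSum.sub ?_ (HasSum.div_const ?_ 6))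
      · have := mul_hs SG_GPhi SG_GM
        simpa only [mul_comm] using this
      · have := mul_hs SG_GPhi SG_GS
        simpa only [mul_comm] using this
      · exact mul_hs SG_GM SG_GPhi
      · exact mul_hs SG_GS SG_GPhi
    have hle : ((ExT ℓ' GPhi * ExT ℓ GM - (ExT ℓ' GPhi * ExT ℓ GS) / 6) + (ExT ℓ' GM * ExT ℓ GPhi - (ExT ℓ' GS * ExT ℓ GPhi) / 6))
        ≤ ExT (pch ℓ' ℓ) GPhi := by
      apply hasSum_le _ hR a1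
      intro p
      have := rawB' (h'.nn p.1 0) (h'.nn p.1 1) (h'.nn p.1 2) (h.nn p.2 0) (h.nn p.2 1) (h.nn p.2 2)
      linarith
    rw [massA, massB] at hle
    have p3 : 0 ≤ (1 - ExT ℓ GS / 6) * ExT ℓ' GPhi := mul_nonneg (by linarith) h'.phi
    have p4 : 0 ≤ ExT ℓ GPhi * (1 - ExT ℓ' GS / 6) := mul_nonneg h.phi (by linarith)
    linarith
  refine ⟨⟨pch_nn h' h, pch_summ h' h, hM, hPhi⟩, ?_⟩
  -- the main inequality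
  have a1 := hasSum_avg6 h' h sym SG_GS
  have hR : HasSum (fun p : Ω' × Ω => GS (ℓ' p.1 0) (ℓ' p.1 1) (ℓ' p.1 2) * GM (ℓ p.2 0) (ℓ p.2 1) (ℓ p.2 2)
      + GM (ℓ' p.1 0) (ℓ' p.1 1) (ℓ' p.1 2) * GS (ℓ p.2 0) (ℓ p.2 1) (ℓ p.2 2)
      - GPhi (ℓ' p.1 0) (ℓ' p.1 1) (ℓ' p.1 2) * Gxi (ℓ p.2 0) (ℓ p.2 1) (ℓ p.2 2)
      - Gxi (ℓ' p.1 0) (ℓ' p.1 1) (ℓ' p.1 2) * GPhi (ℓ p.2 0) (ℓ p.2 1) (ℓ p.2 2)
      - 1 / 1000 * (GS (ℓ' p.1 0) (ℓ' p.1 1) (ℓ' p.1 2) * GS (ℓ p.2 0) (ℓ p.2 1) (ℓ p.2 2)))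
      (ExT ℓ' GS * ExT ℓ GM + ExT ℓ' GM * ExT ℓ GS - ExT ℓ' GPhi * ExT ℓ Gxi - ExT ℓ' Gxi * ExT ℓ GPhi
        - 1 / 1000 * (ExT ℓ' GS * ExT ℓ GS)) :=
    (((((mul_hs SG_GS SG_GM).add (mul_hs SG_GM SG_GS)).sub (mul_hs SG_GPhi SG_Gxi)).sub
      (mul_hs SG_Gxi SG_GPhi)).sub ((mul_hs SG_GS SG_GS).mul_left (1 / 1000)))
  have hle := hasSum_le (fun p => by
    have := rawA' (h'.nn p.1 0) (h'.nn p.1 1) (h'.nn p.1 2) (h.nn p.2 0) (h.nn p.2 1) (h.nn p.2 2)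
    linarith) a1 hR
  rw [massA, massB] at hle
  have p1 := mul_nonneg h'.phi h.xi_nonneg
  have p2 := mul_nonneg h'.xi_nonneg h.phi
  linarith

/-- Transport along a bijection of outputs. -/
theorem GoodT.of_equiv {ℓ₁ : Ω → Fin 3 → ℝ} {ℓ₂ : Ω' → Fin 3 → ℝ} (e : Ω ≃ Ω') (he : ∀ ω i, ℓ₂ (e ω) i = ℓ₁ ω i)
    (h : GoodT ℓ₁) : GoodT ℓ₂ ∧ ∀ G, ExT ℓ₂ G = ExT ℓ₁ G := by
  have hE : ∀ G, ExT ℓ₂ G = ExT ℓ₁ G := by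
    intro G
    unfold ExT
    rw [← e.tsum_eq]
    simp only [he]
  refine ⟨⟨?_, ?_, ?_, ?_⟩, hE⟩
  · intro ω i
    have := he (e.symm ω) i
    rw [e.apply_symm_apply] at this
    rw [this]
    exact h.nn _ _
  · rw [← e.summable_iff]
    have : ((fun ω => GM (ℓ₂ ω 0) (ℓ₂ ω 1) (ℓ₂ ω 2)) ∘ e) = fun ω => GM (ℓ₁ ω 0) (ℓ₁ ω 1) (ℓ₁ ω 2) := by
      funext ω
      simp [he]
    rw [this]
    exact h.summ
  · rw [hE]; exact h.mass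
  · rw [hE]; exact h.phi

theorem powCh_consT (ℓ : Ω → Fin 3 → ℝ) (k : ℕ) (ω : Ω) (η : Fin k → Ω) (i : Fin 3) :
    powCh ℓ (k + 1) (Fin.cons ω η) i = powCh ℓ k η i * ℓ ω i := by
  unfold powCh
  rw [Fin.prod_univ_succ]
  simp only [Fin.cons_zero, Fin.cons_succ]
  ring

/-- The bijection between outputs of the `k+1`-fold product and pairs. -/
def consE (Ω : Type*) (k : ℕ) : (Fin k → Ω) × Ω ≃ (Fin (k + 1) → Ω) :=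
  (Equiv.prodComm _ _).trans (Fin.consEquiv (fun _ => Ω))

theorem powCh_consE (ℓ : Ω → Fin 3 → ℝ) (k : ℕ) (p : (Fin k → Ω) × Ω) (i : Fin 3) :
    powCh ℓ (k + 1) (consE Ω k p) i = pch (powCh ℓ k) ℓ p i := by
  exact powCh_consT ℓ k p.2 p.1 i

theorem powCh_zero_hasSum (ℓ : Ω → Fin 3 → ℝ) (G : ℝ → ℝ → ℝ → ℝ) :
    HasSum (fun η : Fin 0 → Ω => G (powCh ℓ 0 η 0) (powCh ℓ 0 η 1) (powCh ℓ 0 η 2)) (G 1 1 1) := by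
  have := hasSum_unique (fun η : Fin 0 → Ω => G (powCh ℓ 0 η 0) (powCh ℓ 0 η 1) (powCh ℓ 0 η 2))
  simpa [powCh] using this

/-- The `k`-fold product of a good symmetric channel is good. -/
theorem powT_good {ℓ : Ω → Fin 3 → ℝ} (h : GoodT ℓ) (sym : IsSym ℓ) (k : ℕ) :
    GoodT (powCh ℓ k) ∧ (1 - 1 / 1000 * ExT ℓ GS) ^ k ≤ 1 - 1 / 1000 * ExT (powCh ℓ k) GS := by
  induction k with
  | zero =>
    have hG : ∀ G, ExT (powCh ℓ 0) G = G 1 1 1 := fun G => (powCh_zero_hasSum ℓ G).tsum_eq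
    refine ⟨⟨?_, (powCh_zero_hasSum ℓ GM).summable, ?_, ?_⟩, ?_⟩
    · intro ω i
      simp [powCh]
    · rw [hG]
      unfold GM
      norm_num
    · rw [hG, GPhi_norm (by norm_num), sphi_one]
    · rw [hG, GS_norm (by norm_num)]
      unfold sS
      norm_num
  | succ k ih =>
    obtain ⟨ih1, ih2⟩ := ih
    obtain ⟨a1, a2⟩ := product_stepT ih1 h sym
    obtain ⟨b1, b2⟩ := GoodT.of_equiv (consE Ω k) (powCh_consE ℓ k) a1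
    refine ⟨b1, ?_⟩
    rw [b2]
    have c1 : 0 ≤ 1 - 1 / 1000 * ExT ℓ GS := by
      have := h.S_le
      linarith
    have c2 : (1 - 1 / 1000 * ExT ℓ GS) ^ (k + 1)
        ≤ (1 - 1 / 1000 * ExT (powCh ℓ k) GS) * (1 - 1 / 1000 * ExT ℓ GS) := by
      rw [pow_succ]
      exact mul_le_mul_of_nonneg_right ih2 c1
    nlinarith

theorem zero_of_GM_zero {x y z : ℝ} (hx : 0 ≤ x) (hy : 0 ≤ y) (hz : 0 ≤ z) (h : GM x y z = 0) :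
    x = 0 ∧ y = 0 ∧ z = 0 := by
  unfold GM at h
  refine ⟨by linarith, by linarith, by linarith⟩

theorem GS_eStep' {lam x₁ x₂ x₃ : ℝ} (hl0 : 0 ≤ lam) (hl1 : lam ≤ 1) (h₁ : 0 ≤ x₁) (h₂ : 0 ≤ x₂) (h₃ : 0 ≤ x₃) :
    GS (eStep lam x₁ x₂ x₃ x₁) (eStep lam x₁ x₂ x₃ x₂) (eStep lam x₁ x₂ x₃ x₃) = lam ^ 2 * GS x₁ x₂ x₃ := by
  rcases (GM_nonneg' h₁ h₂ h₃).eq_or_lt with h | h
  · obtain ⟨rfl, rfl, rfl⟩ := zero_of_GM_zero h₁ h₂ h₃ h.symm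
    simp [eStep, GS, GM]
  · exact GS_eStep hl0 hl1 h₁ h₂ h₃ h

theorem GPhi_eStep' {lam x₁ x₂ x₃ : ℝ} (hl0 : 0 ≤ lam) (hl1 : lam ≤ 1) (h₁ : 0 ≤ x₁) (h₂ : 0 ≤ x₂) (h₃ : 0 ≤ x₃) :
    lam ^ 3 * GPhi x₁ x₂ x₃ ≤ GPhi (eStep lam x₁ x₂ x₃ x₁) (eStep lam x₁ x₂ x₃ x₂) (eStep lam x₁ x₂ x₃ x₃) := by
  rcases (GM_nonneg' h₁ h₂ h₃).eq_or_lt with h | h
  · obtain ⟨rfl, rfl, rfl⟩ := zero_of_GM_zero h₁ h₂ h₃ h.symm
    simp [eStep, GPhi, GS, GM, GE, gv]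
  · exact GPhi_eStep hl0 hl1 h₁ h₂ h₃ h

theorem GoodT.edge {ℓ : Ω → Fin 3 → ℝ} (h : GoodT ℓ) {lam : ℝ} (h0 : 0 ≤ lam) (h1 : lam ≤ 1) :
    GoodT (edgeCh lam ℓ) ∧ ExT (edgeCh lam ℓ) GS = lam ^ 2 * ExT ℓ GS := by
  have hl' : 0 ≤ 1 - lam := by linarith
  have hnn : ∀ ω i, 0 ≤ edgeCh lam ℓ ω i := by
    intro ω i
    have := h.nn ω i
    have h2 := GM_nonneg' (h.nn ω 0) (h.nn ω 1) (h.nn ω 2)
    unfold edgeCh eStep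
    positivity
  have hGM : (fun ω => GM (edgeCh lam ℓ ω 0) (edgeCh lam ℓ ω 1) (edgeCh lam ℓ ω 2))
      = fun ω => GM (ℓ ω 0) (ℓ ω 1) (ℓ ω 2) := by
    funext ω
    exact GM_eStep _ _ _ _
  have hsumm : Summable (fun ω => GM (edgeCh lam ℓ ω 0) (edgeCh lam ℓ ω 1) (edgeCh lam ℓ ω 2)) := by
    rw [hGM]; exact h.summ
  have hm : ExT (edgeCh lam ℓ) GM = 1 := by
    unfold ExT
    rw [hGM]
    exact h.mass
  have hgood0 : GoodT (edgeCh lam ℓ) ∨ True := Or.inr trivial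
  have hS : ExT (edgeCh lam ℓ) GS = lam ^ 2 * ExT ℓ GS := by
    unfold ExT
    rw [← tsum_mul_left]
    apply tsum_congr
    intro ω
    exact GS_eStep' h0 h1 (h.nn ω 0) (h.nn ω 1) (h.nn ω 2)
  have hsP : Summable (fun ω => GPhi (edgeCh lam ℓ ω 0) (edgeCh lam ℓ ω 1) (edgeCh lam ℓ ω 2)) := by
    obtain ⟨C, hC⟩ := SG_GPhi
    exact Summable.of_norm_bounded (hsumm.mul_left C) (fun ω => hC _ _ _ (hnn ω 0) (hnn ω 1) (hnn ω 2))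
  have hphi : lam ^ 3 * ExT ℓ GPhi ≤ ExT (edgeCh lam ℓ) GPhi := by
    unfold ExT
    rw [← tsum_mul_left]
    apply Summable.tsum_le_tsum _ ((h.summable SG_GPhi).mul_left _) hsP
    intro ω
    exact GPhi_eStep' h0 h1 (h.nn ω 0) (h.nn ω 1) (h.nn ω 2)
  have h2 : 0 ≤ lam ^ 3 * ExT ℓ GPhi := mul_nonneg (by positivity) h.phi
  exact ⟨⟨hnn, hsumm, hm, by linarith⟩, hS⟩

end chan

end Vale.Agent.Lib.P154
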