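import Vale.Agent.Lib.P154.Channel

namespace Vale.Agent.Lib.P154

open Filter Topology

/-- stability of a functional under limits from the nonnegative orthant -/
def CtsG (G : ℝ → ℝ → ℝ → ℝ) : Prop :=
  ∀ (f₁ f₂ f₃ : ℝ → ℝ) (c₁ c₂ c₃ : ℝ), 0 ≤ c₁ → 0 ≤ c₂ → 0 ≤ c₃ →
    (∀ t, 0 < t → 0 ≤ f₁ t ∧ 0 ≤ f₂ t ∧ 0 ≤ f₃ t) →
    Tendsto f₁ (𝓝[>] 0) (𝓝 c₁) → Tendsto f₂ (𝓝[>] 0) (𝓝 c₂) → Tendsto f₃ (𝓝[>] 0) (𝓝 c₃) →
    Tendsto (fun t => G (f₁ t) (f₂ t) (f₃ t)) (𝓝[>] 0) (𝓝 (G c₁ c₂ c₃))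

theorem GM_cts : CtsG GM := by
  intro f₁ f₂ f₃ c₁ c₂ c₃ _ _ _ _ h₁ h₂ h₃
  unfold GM
  exact ((h₁.add h₂).add h₃).div_const 3

theorem GS_bound {x y z : ℝ} (hx : 0 ≤ x) (hy : 0 ≤ y) (hz : 0 ≤ z) :
    0 ≤ GS x y z ∧ GS x y z ≤ 2 * (x + y + z) := by
  unfold GS
  rcases (by positivity : 0 ≤ x + y + z).eq_or_lt with h | h
  · simp [← h]
  · constructor
    · have : x + y + z ≤ 3 * (x ^ 2 + y ^ 2 + z ^ 2) / (x + y + z) := by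
        rw [le_div_iff₀ h]
        nlinarith [sq_nonneg (x - y), sq_nonneg (y - z), sq_nonneg (x - z)]
      linarith
    · have : 3 * (x ^ 2 + y ^ 2 + z ^ 2) / (x + y + z) ≤ 3 * (x + y + z) := by
        rw [div_le_iff₀ h]
        nlinarith [mul_nonneg hx hy, mul_nonneg hy hz, mul_nonneg hx hz]
      linarith

theorem GS_cts : CtsG GS := by
  intro f₁ f₂ f₃ c₁ c₂ c₃ h₁ h₂ h₃ hf t₁ t₂ t₃
  have hsum := (t₁.add t₂).add t₃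
  rcases (by positivity : 0 ≤ c₁ + c₂ + c₃).eq_or_lt with h | h
  · -- all limits vanish
    have e1 : c₁ = 0 := by linarith
    have e2 : c₂ = 0 := by linarith
    have e3 : c₃ = 0 := by linarith
    subst e1 e2 e3
    have hG : GS 0 0 0 = 0 := by simp [GS]
    rw [hG]
    have hlim : Tendsto (fun t => 2 * (f₁ t + f₂ t + f₃ t)) (𝓝[>] 0) (𝓝 0) := by
      have := hsum.const_mul 2
      simpa using this
    apply squeeze_zero' (g := fun t => 2 * (f₁ t + f₂ t + f₃ t)) _ _ hlim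
    · filter_upwards [self_mem_nhdsWithin] with t ht
      obtain ⟨a, b, c⟩ := hf t ht
      exact (GS_bound a b c).1
    · filter_upwards [self_mem_nhdsWithin] with t ht
      obtain ⟨a, b, c⟩ := hf t ht
      exact (GS_bound a b c).2
  · unfold GS
    have hnum := ((t₁.pow 2).add (t₂.pow 2)).add (t₃.pow 2)
    exact ((hnum.const_mul 3).div hsum h.ne').sub hsum

theorem GE_bound {x y z : ℝ} (hx : 0 ≤ x) (hy : 0 ≤ y) (hz : 0 ≤ z) :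
    0 ≤ GE x y z ∧ GE x y z ≤ (x + y + z) / 3 := by
  unfold GE
  rcases (by positivity : 0 ≤ x + y + z).eq_or_lt with h | h
  · simp [← h]
  · constructor
    · positivity
    · rw [div_le_iff₀ (by positivity)]
      have := schur_three x y z hx hy hz
      have h27 : 27 * (x * y * z) ≤ (x + y + z) ^ 3 := by
        nlinarith [mul_nonneg hx (sq_nonneg (y - z)), mul_nonneg hy (sq_nonneg (x - z)),
          mul_nonneg hz (sq_nonneg (x - y)), mul_nonneg (add_nonneg (add_nonneg hx hy) hz) (sq_nonneg (x - y)),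
          mul_nonneg (add_nonneg (add_nonneg hx hy) hz) (sq_nonneg (y - z)),
          mul_nonneg (add_nonneg (add_nonneg hx hy) hz) (sq_nonneg (x - z))]
      nlinarith

theorem GE_cts : CtsG GE := by
  intro f₁ f₂ f₃ c₁ c₂ c₃ h₁ h₂ h₃ hf t₁ t₂ t₃
  have hsum := (t₁.add t₂).add t₃
  rcases (by positivity : 0 ≤ c₁ + c₂ + c₃).eq_or_lt with h | h
  · have e1 : c₁ = 0 := by linarith
    have e2 : c₂ = 0 := by linarith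
    have e3 : c₃ = 0 := by linarith
    subst e1 e2 e3
    have hG : GE 0 0 0 = 0 := by simp [GE]
    rw [hG]
    have hlim : Tendsto (fun t => (f₁ t + f₂ t + f₃ t) / 3) (𝓝[>] 0) (𝓝 0) := by
      have := hsum.div_const 3
      simpa using this
    apply squeeze_zero' (g := fun t => (f₁ t + f₂ t + f₃ t) / 3) _ _ hlim
    · filter_upwards [self_mem_nhdsWithin] with t ht
      obtain ⟨a, b, c⟩ := hf t ht
      exact (GE_bound a b c).1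
    · filter_upwards [self_mem_nhdsWithin] with t ht
      obtain ⟨a, b, c⟩ := hf t ht
      exact (GE_bound a b c).2
  · unfold GE
    have hnum := ((t₁.mul t₂).mul t₃).const_mul 9
    exact hnum.div (hsum.pow 2) (by positivity)

theorem gv_cts : CtsG gv := by
  intro f₁ f₂ f₃ c₁ c₂ c₃ _ _ _ _ t₁ t₂ t₃
  unfold gv
  exact ((t₁.mul t₂).mul t₃).rpow_const (Or.inr (by norm_num))

theorem GPhi_cts : CtsG GPhi := by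
  intro f₁ f₂ f₃ c₁ c₂ c₃ h₁ h₂ h₃ hf t₁ t₂ t₃
  unfold GPhi
  exact (((GS_cts f₁ f₂ f₃ c₁ c₂ c₃ h₁ h₂ h₃ hf t₁ t₂ t₃).const_mul _).sub
    ((GM_cts f₁ f₂ f₃ c₁ c₂ c₃ h₁ h₂ h₃ hf t₁ t₂ t₃).const_mul _)).add
    ((GE_cts f₁ f₂ f₃ c₁ c₂ c₃ h₁ h₂ h₃ hf t₁ t₂ t₃).const_mul _) |>.add
    ((gv_cts f₁ f₂ f₃ c₁ c₂ c₃ h₁ h₂ h₃ hf t₁ t₂ t₃).const_mul _)

theorem Gxi_cts : CtsG Gxi := by
  intro f₁ f₂ f₃ c₁ c₂ c₃ h₁ h₂ h₃ hf t₁ t₂ t₃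
  unfold Gxi
  have a1 := GS_cts f₁ f₂ f₃ c₁ c₂ c₃ h₁ h₂ h₃ hf t₁ t₂ t₃
  have a2 := GM_cts f₁ f₂ f₃ c₁ c₂ c₃ h₁ h₂ h₃ hf t₁ t₂ t₃
  have a3 := GE_cts f₁ f₂ f₃ c₁ c₂ c₃ h₁ h₂ h₃ hf t₁ t₂ t₃
  exact ((a1.sub (((a1.const_mul _).sub (a2.const_mul _)).add (a3.const_mul _))).const_mul _).add (a1.const_mul _)

theorem avg6_cts {G : ℝ → ℝ → ℝ → ℝ} (hG : CtsG G) {x₁ x₂ x₃ y₁ y₂ y₃ : ℝ} (h₁ : 0 ≤ x₁) (h₂ : 0 ≤ x₂) (h₃ : 0 ≤ x₃)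
    (k₁ : 0 ≤ y₁) (k₂ : 0 ≤ y₂) (k₃ : 0 ≤ y₃) :
    Tendsto (fun t => avg6 G (x₁ + t) (x₂ + t) (x₃ + t) (y₁ + t) (y₂ + t) (y₃ + t)) (𝓝[>] 0)
      (𝓝 (avg6 G x₁ x₂ x₃ y₁ y₂ y₃)) := by
  have lim : ∀ u : ℝ, Tendsto (fun t : ℝ => u + t) (𝓝[>] 0) (𝓝 u) := by
    intro u
    have : Tendsto (fun t : ℝ => u + t) (𝓝 0) (𝓝 (u + 0)) := by
      exact (tendsto_const_nhds).add tendsto_id
    rw [add_zero] at this
    exact this.mono_left nhdsWithin_le_nhds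
  have key : ∀ u₁ u₂ u₃ v₁ v₂ v₃ : ℝ, 0 ≤ u₁ → 0 ≤ u₂ → 0 ≤ u₃ → 0 ≤ v₁ → 0 ≤ v₂ → 0 ≤ v₃ →
      Tendsto (fun t => G ((u₁ + t) * (v₁ + t)) ((u₂ + t) * (v₂ + t)) ((u₃ + t) * (v₃ + t))) (𝓝[>] 0)
        (𝓝 (G (u₁ * v₁) (u₂ * v₂) (u₃ * v₃))) := by
    intro u₁ u₂ u₃ v₁ v₂ v₃ a1 a2 a3 b1 b2 b3
    apply hG _ _ _ _ _ _ (by positivity) (by positivity) (by positivity) _
      ((lim u₁).mul (lim v₁)) ((lim u₂).mul (lim v₂)) ((lim u₃).mul (lim v₃))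
    intro t ht
    refine ⟨by positivity, by positivity, by positivity⟩
  unfold avg6
  exact (((((key _ _ _ _ _ _ h₁ h₂ h₃ k₁ k₂ k₃).add (key _ _ _ _ _ _ h₁ h₂ h₃ k₂ k₃ k₁)).add
    (key _ _ _ _ _ _ h₁ h₂ h₃ k₃ k₁ k₂)).add (key _ _ _ _ _ _ h₁ h₂ h₃ k₁ k₃ k₂)).add
    (key _ _ _ _ _ _ h₁ h₂ h₃ k₂ k₁ k₃) |>.add (key _ _ _ _ _ _ h₁ h₂ h₃ k₃ k₂ k₁)).div_const 6

theorem G_shift {G : ℝ → ℝ → ℝ → ℝ} (hG : CtsG G) {x y z : ℝ} (hx : 0 ≤ x) (hy : 0 ≤ y) (hz : 0 ≤ z) :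
    Tendsto (fun t => G (x + t) (y + t) (z + t)) (𝓝[>] 0) (𝓝 (G x y z)) := by
  have lim : ∀ u : ℝ, Tendsto (fun t : ℝ => u + t) (𝓝[>] 0) (𝓝 u) := by
    intro u
    have : Tendsto (fun t : ℝ => u + t) (𝓝 0) (𝓝 (u + 0)) := by
      exact (tendsto_const_nhds).add tendsto_id
    rw [add_zero] at this
    exact this.mono_left nhdsWithin_le_nhds
  apply hG _ _ _ _ _ _ hx hy hz _ (lim x) (lim y) (lim z)
  intro t ht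
  refine ⟨by positivity, by positivity, by positivity⟩

/-- The inequality (A) on the closed orthant. -/
theorem rawA' {x₁ x₂ x₃ y₁ y₂ y₃ : ℝ} (h₁ : 0 ≤ x₁) (h₂ : 0 ≤ x₂) (h₃ : 0 ≤ x₃) (k₁ : 0 ≤ y₁) (k₂ : 0 ≤ y₂)
    (k₃ : 0 ≤ y₃) :
    avg6 GS x₁ x₂ x₃ y₁ y₂ y₃ ≤ GM y₁ y₂ y₃ * GS x₁ x₂ x₃ + GM x₁ x₂ x₃ * GS y₁ y₂ y₃
      - Gxi y₁ y₂ y₃ * GPhi x₁ x₂ x₃ - Gxi x₁ x₂ x₃ * GPhi y₁ y₂ y₃
      - 1 / 1000 * (GS x₁ x₂ x₃ * GS y₁ y₂ y₃) := by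
  have hl := avg6_cts GS_cts h₁ h₂ h₃ k₁ k₂ k₃
  have a1 := G_shift GM_cts k₁ k₂ k₃
  have a2 := G_shift GM_cts h₁ h₂ h₃
  have a3 := G_shift GS_cts h₁ h₂ h₃
  have a4 := G_shift GS_cts k₁ k₂ k₃
  have a5 := G_shift Gxi_cts k₁ k₂ k₃
  have a6 := G_shift Gxi_cts h₁ h₂ h₃
  have a7 := G_shift GPhi_cts h₁ h₂ h₃
  have a8 := G_shift GPhi_cts k₁ k₂ k₃
  have hr := (((a1.mul a3).add (a2.mul a4)).sub (a5.mul a7)).sub (a6.mul a8) |>.sub ((a3.mul a4).const_mul (1 / 1000))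
  refine le_of_tendsto_of_tendsto hl hr ?_
  filter_upwards [self_mem_nhdsWithin] with t ht
  have ht' : 0 < t := ht
  exact rawA (by positivity) (by positivity) (by positivity) (by positivity) (by positivity) (by positivity)

/-- The inequality (B) on the closed orthant. -/
theorem rawB' {x₁ x₂ x₃ y₁ y₂ y₃ : ℝ} (h₁ : 0 ≤ x₁) (h₂ : 0 ≤ x₂) (h₃ : 0 ≤ x₃) (k₁ : 0 ≤ y₁) (k₂ : 0 ≤ y₂)
    (k₃ : 0 ≤ y₃) :
    (GM y₁ y₂ y₃ - GS y₁ y₂ y₃ / 6) * GPhi x₁ x₂ x₃ + (GM x₁ x₂ x₃ - GS x₁ x₂ x₃ / 6) * GPhi y₁ y₂ y₃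
      ≤ avg6 GPhi x₁ x₂ x₃ y₁ y₂ y₃ := by
  have hl := avg6_cts GPhi_cts h₁ h₂ h₃ k₁ k₂ k₃
  have a1 := G_shift GM_cts k₁ k₂ k₃
  have a2 := G_shift GM_cts h₁ h₂ h₃
  have a3 := G_shift GS_cts h₁ h₂ h₃
  have a4 := G_shift GS_cts k₁ k₂ k₃
  have a7 := G_shift GPhi_cts h₁ h₂ h₃
  have a8 := G_shift GPhi_cts k₁ k₂ k₃
  have hr := ((a1.sub (a4.div_const 6)).mul a7).add ((a2.sub (a3.div_const 6)).mul a8)
  refine le_of_tendsto_of_tendsto hr hl ?_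
  filter_upwards [self_mem_nhdsWithin] with t ht
  have ht' : 0 < t := ht
  exact rawB (by positivity) (by positivity) (by positivity) (by positivity) (by positivity) (by positivity)

end Vale.Agent.Lib.P154
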