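import Vale.Agent.Lib.P154.KS

namespace Vale.Agent.Lib.P154

section domain
variable {a₁ a₂ a₃ : ℝ}

theorem sT_eq (ha : a₁ + a₂ + a₃ = 3) :
    sT a₁ a₂ a₃ = 3 / 2 * sS a₁ a₂ a₃ - 3 + 3 * (a₁ * a₂ * a₃) := by
  have h3 : a₃ = 3 - a₁ - a₂ := by linarith
  subst h3
  unfold sT sS
  ring

theorem sS_eq_sq (ha : a₁ + a₂ + a₃ = 3) :
    sS a₁ a₂ a₃ = (a₁ - 1) ^ 2 + (a₂ - 1) ^ 2 + (a₃ - 1) ^ 2 := by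
  have h3 : a₃ = 3 - a₁ - a₂ := by linarith
  subst h3
  unfold sS
  ring

theorem sS_nonneg (ha : a₁ + a₂ + a₃ = 3) : 0 ≤ sS a₁ a₂ a₃ := by
  rw [sS_eq_sq ha]; positivity

theorem sS_eq_e2 (ha : a₁ + a₂ + a₃ = 3) : sS a₁ a₂ a₃ = 6 - 2 * e2 a₁ a₂ a₃ := by
  have h3 : a₃ = 3 - a₁ - a₂ := by linarith
  subst h3
  unfold sS e2
  ring

theorem sS_le_six (ha : a₁ + a₂ + a₃ = 3) (h₁ : 0 ≤ a₁) (h₂ : 0 ≤ a₂) (h₃ : 0 ≤ a₃) :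
    sS a₁ a₂ a₃ ≤ 6 := by
  rw [sS_eq_e2 ha]
  have : 0 ≤ e2 a₁ a₂ a₃ := by unfold e2; positivity
  linarith

theorem disc_ineq (ha : a₁ + a₂ + a₃ = 3) :
    6 * sT a₁ a₂ a₃ ^ 2 ≤ sS a₁ a₂ a₃ ^ 3 := by
  have h3 : a₃ = 3 - a₁ - a₂ := by linarith
  subst h3
  have : sS a₁ a₂ (3 - a₁ - a₂) ^ 3 - 6 * sT a₁ a₂ (3 - a₁ - a₂) ^ 2
      = 2 * ((a₁ - a₂) * (a₂ - (3 - a₁ - a₂)) * (a₁ - (3 - a₁ - a₂))) ^ 2 := by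
    unfold sS sT
    ring
  nlinarith [sq_nonneg ((a₁ - a₂) * (a₂ - (3 - a₁ - a₂)) * (a₁ - (3 - a₁ - a₂)))]

theorem sub_eq (ha : a₁ + a₂ + a₃ = 3) :
    sS a₁ a₂ a₃ - sT a₁ a₂ a₃
      = (a₁ * (a₂ - a₃) ^ 2 + a₂ * (a₁ - a₃) ^ 2 + a₃ * (a₁ - a₂) ^ 2) / 3 := by
  have h3 : a₃ = 3 - a₁ - a₂ := by linarith
  subst h3
  unfold sS sT
  ring

theorem sT_le_sS (ha : a₁ + a₂ + a₃ = 3) (h₁ : 0 ≤ a₁) (h₂ : 0 ≤ a₂) (h₃ : 0 ≤ a₃) :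
    sT a₁ a₂ a₃ ≤ sS a₁ a₂ a₃ := by
  have := sub_eq ha
  have h : 0 ≤ (a₁ * (a₂ - a₃) ^ 2 + a₂ * (a₁ - a₃) ^ 2 + a₃ * (a₁ - a₂) ^ 2) / 3 := by positivity
  linarith

theorem sT_lt_sS (ha : a₁ + a₂ + a₃ = 3) (h₁ : 0 < a₁) (h₂ : 0 < a₂) (h₃ : 0 < a₃)
    (hS : 0 < sS a₁ a₂ a₃) : sT a₁ a₂ a₃ < sS a₁ a₂ a₃ := by
  have h := sub_eq ha
  have hne : ¬ (a₂ - a₃ = 0 ∧ a₁ - a₃ = 0) := by
    rintro ⟨h1, h2⟩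
    have e1 : a₂ = a₃ := by linarith
    have e2 : a₁ = a₃ := by linarith
    have e3 : a₃ = 1 := by linarith
    have : sS a₁ a₂ a₃ = 0 := by
      rw [e1, e2, e3]; unfold sS; norm_num
    linarith
  have hpos : 0 < (a₁ * (a₂ - a₃) ^ 2 + a₂ * (a₁ - a₃) ^ 2 + a₃ * (a₁ - a₂) ^ 2) / 3 := by
    by_cases h1 : a₂ - a₃ = 0
    · have h2 : a₁ - a₃ ≠ 0 := fun h' => hne ⟨h1, h'⟩
      have : 0 < a₂ * (a₁ - a₃) ^ 2 := by positivity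
      have : 0 ≤ a₁ * (a₂ - a₃) ^ 2 := by positivity
      have : 0 ≤ a₃ * (a₁ - a₂) ^ 2 := by positivity
      linarith
    · have : 0 < a₁ * (a₂ - a₃) ^ 2 := by positivity
      have : 0 ≤ a₂ * (a₁ - a₃) ^ 2 := by positivity
      have : 0 ≤ a₃ * (a₁ - a₂) ^ 2 := by positivity
      linarith
  linarith

theorem schur_three (x y z : ℝ) (hx : 0 ≤ x) (hy : 0 ≤ y) (hz : 0 ≤ z) :
    0 ≤ x * (x - y) * (x - z) + y * (y - x) * (y - z) + z * (z - x) * (z - y) := by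
  rcases le_total x y with h1 | h1 <;> rcases le_total y z with h2 | h2 <;>
    rcases le_total x z with h3 | h3 <;>
    nlinarith [mul_nonneg hx hy, mul_nonneg hy hz, mul_nonneg hx hz,
      mul_nonneg (sub_nonneg.2 h1) (sub_nonneg.2 h2), mul_nonneg (sub_nonneg.2 h1) (sub_nonneg.2 h3),
      mul_nonneg (sub_nonneg.2 h2) (sub_nonneg.2 h3),
      mul_nonneg hx (mul_nonneg (sub_nonneg.2 h1) (sub_nonneg.2 h3)),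
      mul_nonneg hy (mul_nonneg (sub_nonneg.2 h1) (sub_nonneg.2 h2)),
      mul_nonneg hz (mul_nonneg (sub_nonneg.2 h2) (sub_nonneg.2 h3)),
      mul_self_nonneg (x - y), mul_self_nonneg (y - z), mul_self_nonneg (x - z),
      mul_nonneg hx (mul_self_nonneg (x - y)), mul_nonneg hy (mul_self_nonneg (x - y)),
      mul_nonneg hy (mul_self_nonneg (y - z)), mul_nonneg hz (mul_self_nonneg (y - z)),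
      mul_nonneg hx (mul_self_nonneg (x - z)), mul_nonneg hz (mul_self_nonneg (x - z))]

theorem sT_ge (ha : a₁ + a₂ + a₃ = 3) (h₁ : 0 ≤ a₁) (h₂ : 0 ≤ a₂) (h₃ : 0 ≤ a₃) :
    - (sS a₁ a₂ a₃ / 2) ≤ sT a₁ a₂ a₃ := by
  have hs := schur_three a₁ a₂ a₃ h₁ h₂ h₃
  have h3 : a₃ = 3 - a₁ - a₂ := by linarith
  have : sS a₁ a₂ a₃ / 2 + sT a₁ a₂ a₃
      = (a₁ * (a₁ - a₂) * (a₁ - a₃) + a₂ * (a₂ - a₁) * (a₂ - a₃) + a₃ * (a₃ - a₁) * (a₃ - a₂)) / 3 := by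
    subst h3
    unfold sS sT
    ring
  linarith

theorem eps_eq (ha : a₁ + a₂ + a₃ = 3) :
    a₁ * a₂ * a₃ = 1 - sS a₁ a₂ a₃ / 2 + sT a₁ a₂ a₃ / 3 := by
  rw [sT_eq ha]; ring

theorem eps_le_one (ha : a₁ + a₂ + a₃ = 3) (h₁ : 0 ≤ a₁) (h₂ : 0 ≤ a₂) (h₃ : 0 ≤ a₃) :
    a₁ * a₂ * a₃ ≤ 1 := by
  rw [eps_eq ha]
  have := sT_le_sS ha h₁ h₂ h₃
  have := sS_nonneg ha
  linarith

end domain

/-- The cube root of the product of the coordinates. -/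
noncomputable def gv (a₁ a₂ a₃ : ℝ) : ℝ := (a₁ * a₂ * a₃) ^ ((1 : ℝ) / 3)

theorem gv_nonneg (a₁ a₂ a₃ : ℝ) : 0 ≤ gv a₁ a₂ a₃ ∨ a₁ * a₂ * a₃ < 0 := by
  by_cases h : 0 ≤ a₁ * a₂ * a₃
  · left; unfold gv; positivity
  · right; linarith

theorem gv_nonneg' {a₁ a₂ a₃ : ℝ} (h₁ : 0 ≤ a₁) (h₂ : 0 ≤ a₂) (h₃ : 0 ≤ a₃) : 0 ≤ gv a₁ a₂ a₃ := by
  unfold gv; positivity

theorem gv_cube {a₁ a₂ a₃ : ℝ} (h₁ : 0 ≤ a₁) (h₂ : 0 ≤ a₂) (h₃ : 0 ≤ a₃) :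
    gv a₁ a₂ a₃ ^ 3 = a₁ * a₂ * a₃ := by
  unfold gv
  have h : 0 ≤ a₁ * a₂ * a₃ := by positivity
  rw [← Real.rpow_natCast, ← Real.rpow_mul h]
  norm_num

theorem gv_le_one {a₁ a₂ a₃ : ℝ} (ha : a₁ + a₂ + a₃ = 3) (h₁ : 0 ≤ a₁) (h₂ : 0 ≤ a₂) (h₃ : 0 ≤ a₃) :
    gv a₁ a₂ a₃ ≤ 1 := by
  unfold gv
  have h : 0 ≤ a₁ * a₂ * a₃ := by positivity
  exact Real.rpow_le_one h (eps_le_one ha h₁ h₂ h₃) (by norm_num)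

theorem gv_mul {a₁ a₂ a₃ b₁ b₂ b₃ : ℝ} (h₁ : 0 ≤ a₁) (h₂ : 0 ≤ a₂) (h₃ : 0 ≤ a₃)
    (k₁ : 0 ≤ b₁) (k₂ : 0 ≤ b₂) (k₃ : 0 ≤ b₃) :
    gv (a₁ * b₁) (a₂ * b₂) (a₃ * b₃) = gv a₁ a₂ a₃ * gv b₁ b₂ b₃ := by
  unfold gv
  have e : a₁ * b₁ * (a₂ * b₂) * (a₃ * b₃) = (a₁ * a₂ * a₃) * (b₁ * b₂ * b₃) := by ring
  rw [e, Real.mul_rpow (by positivity) (by positivity)]

/-- `g` is at least the product, as `g³ = ε` and `0 ≤ g ≤ 1`. -/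
theorem eps_le_gv {a₁ a₂ a₃ : ℝ} (ha : a₁ + a₂ + a₃ = 3) (h₁ : 0 ≤ a₁) (h₂ : 0 ≤ a₂) (h₃ : 0 ≤ a₃) :
    a₁ * a₂ * a₃ ≤ gv a₁ a₂ a₃ := by
  have hg := gv_nonneg' h₁ h₂ h₃
  have hg1 := gv_le_one ha h₁ h₂ h₃
  rw [← gv_cube h₁ h₂ h₃]
  nlinarith [mul_nonneg hg (sub_nonneg.2 hg1), mul_nonneg (mul_nonneg hg hg) (sub_nonneg.2 hg1)]

/-- tangent line at `1` to the cube root -/
theorem gv_le_tangent {a₁ a₂ a₃ : ℝ} (h₁ : 0 ≤ a₁) (h₂ : 0 ≤ a₂) (h₃ : 0 ≤ a₃) :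
    gv a₁ a₂ a₃ ≤ (a₁ * a₂ * a₃ + 2) / 3 := by
  have hg := gv_nonneg' h₁ h₂ h₃
  rw [← gv_cube h₁ h₂ h₃]
  nlinarith [mul_nonneg (sq_nonneg (gv a₁ a₂ a₃ - 1)) (by linarith : 0 ≤ gv a₁ a₂ a₃ + 2)]

end Vale.Agent.Lib.P154
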