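import Mathlib

namespace Vale.Agent.Lib.P154.Model

/-- The `q`-state Potts channel `P_lam (j | i) = lam * 1_{i = j} + (1 - lam) / q`. -/
noncomputable def pottsKernel (q : ℕ) (lam : ℝ) (i j : Fin q) : ℝ :=
  lam * (if i = j then 1 else 0) + (1 - lam) / q

/-- Spin configurations on the vertices at distance `n` from the root of the rooted `d`-ary tree,
written as nested arrays: one spin for `n = 0`, and one configuration per child for `n + 1`. -/
def Leaves (q d : ℕ) : ℕ → Type
  | 0 => Fin q
  | n + 1 => Fin d → Leaves q d n

/-- The finite set of leaf configurations. -/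
instance Leaves.instFintype (q d : ℕ) : (n : ℕ) → Fintype (Leaves q d n)
  | 0 => inferInstanceAs (Fintype (Fin q))
  | n + 1 =>
    letI := Leaves.instFintype q d n
    inferInstanceAs (Fintype (Fin d → Leaves q d n))

/-- `lik q d lam n i η` is the probability that the spins at distance `n` from the root equal `η`,
given that the root spin is `i`: the children of a vertex are independent given its spin. -/
noncomputable def lik (q d : ℕ) (lam : ℝ) : (n : ℕ) → Fin q → Leaves q d n → ℝ
  | 0, i, η => if i = (show Fin q from η) then 1 else 0
  | n + 1, i, η => ∏ c : Fin d, ∑ j : Fin q, pottsKernel q lam i j * lik q d lam n j (η c)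

/-- The probability of the leaf configuration `η` when the root spin is uniform. -/
noncomputable def marginal (q d : ℕ) (lam : ℝ) (n : ℕ) (η : Leaves q d n) : ℝ :=
  ∑ i : Fin q, (1 / (q : ℝ)) * lik q d lam n i η

/-- The conditional probability of root spin `i` given the leaf configuration `η` (Bayes). -/
noncomputable def posterior (q d : ℕ) (lam : ℝ) (n : ℕ) (i : Fin q) (η : Leaves q d n) : ℝ :=
  ((1 / (q : ℝ)) * lik q d lam n i η) / marginal q d lam n η

/-- The quantity `a_n = E [ (1/2) * Σ_i |Pr (root = i | leaves) - 1/q| ]`. -/
noncomputable def advantage (q d : ℕ) (lam : ℝ) (n : ℕ) : ℝ :=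
  ∑ η : Leaves q d n, marginal q d lam n η *
    ((1 / 2) * ∑ i : Fin q, |posterior q d lam n i η - 1 / (q : ℝ)|)

end Vale.Agent.Lib.P154.Model
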