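import Vale.Agent.Lib.P154.Channel
import Vale.Agent.Lib.P154.Model

namespace Vale.Agent.Lib.P154

open Model Finset

variable {d : ℕ} {lam : ℝ}

/-- the channel of the tree model -/
noncomputable def ch (d : ℕ) (lam : ℝ) (n : ℕ) : Leaves 3 d n → Fin 3 → ℝ :=
  fun η i => lik 3 d lam n i η

theorem kernel_sum (lam : ℝ) (v : Fin 3 → ℝ) (i : Fin 3) :
    ∑ j : Fin 3, pottsKernel 3 lam i j * v j = eStep lam (v 0) (v 1) (v 2) (v i) := by
  unfold pottsKernel eStep GM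
  fin_cases i <;> simp [Fin.sum_univ_three] <;> ring

theorem ch_succ (d : ℕ) (lam : ℝ) (n : ℕ) :
    ch d lam (n + 1) = powCh (edgeCh lam (ch d lam n)) d := by
  funext η i
  unfold ch powCh edgeCh
  simp only [lik]
  apply Finset.prod_congr rfl
  intro c _
  exact kernel_sum lam (fun j => lik 3 d lam n j (η c)) i

theorem ch_sym (d : ℕ) (lam : ℝ) (n : ℕ) : IsSym (ch d lam n) := by
  induction n with
  | zero =>
    intro σ
    refine ⟨σ.symm, ?_⟩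
    intro (ω : Fin 3) i
    show (if i = σ.symm ω then (1 : ℝ) else 0) = if σ i = ω then 1 else 0
    simp only [Equiv.eq_symm_apply]
  | succ n ih =>
    rw [ch_succ]
    exact (ih.edgeCh lam).powCh d

theorem GPhi_corner1 : GPhi 1 0 0 = 2 := by
  unfold GPhi GS GM GE gv
  norm_num

theorem ch_zero_pre (d : ℕ) (lam : ℝ) : Pre (ch d lam 0) := by
  refine ⟨?_, ?_, ?_, ?_⟩
  · intro (ω : Fin 3) i
    show 0 ≤ (if i = ω then (1 : ℝ) else 0)
    split_ifs <;> norm_num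
  · intro (ω : Fin 3)
    show 0 < GM (if (0 : Fin 3) = ω then (1 : ℝ) else 0) (if (1 : Fin 3) = ω then (1 : ℝ) else 0)
      (if (2 : Fin 3) = ω then (1 : ℝ) else 0)
    have hω : ω = (0 : Fin 3) ∨ ω = (1 : Fin 3) ∨ ω = (2 : Fin 3) := by
      revert ω; decide
    rcases hω with rfl | rfl | rfl <;> simp [GM]
  · show ∑ ω : Fin 3, GM (if (0 : Fin 3) = ω then (1 : ℝ) else 0) (if (1 : Fin 3) = ω then (1 : ℝ) else 0)
      (if (2 : Fin 3) = ω then (1 : ℝ) else 0) = 1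
    rw [Fin.sum_univ_three]
    simp [GM]
    norm_num
  · show 0 ≤ ∑ ω : Fin 3, GPhi (if (0 : Fin 3) = ω then (1 : ℝ) else 0) (if (1 : Fin 3) = ω then (1 : ℝ) else 0)
      (if (2 : Fin 3) = ω then (1 : ℝ) else 0)
    rw [Fin.sum_univ_three]
    have e2 : GPhi 0 0 1 = GPhi 1 0 0 := GPhi_symm1 1 0 0
    have e1 : GPhi 0 1 0 = GPhi 1 0 0 := (GPhi_symm1 0 0 1).trans e2
    simp
    rw [e1, e2, GPhi_corner1]
    norm_num

theorem lam_lt_one {d : ℕ} (hd : 2 ≤ d) (h0 : 0 ≤ lam) (h1 : (d : ℝ) * lam ^ 2 ≤ 1) : lam < 1 := by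
  have hd' : (2 : ℝ) ≤ d := by exact_mod_cast hd
  nlinarith [sq_nonneg lam]

theorem ch_pre {d : ℕ} (hd : 2 ≤ d) (h0 : 0 ≤ lam) (h1 : (d : ℝ) * lam ^ 2 ≤ 1) (n : ℕ) : Pre (ch d lam n) := by
  have hl := lam_lt_one hd h0 h1
  induction n with
  | zero => exact ch_zero_pre d lam
  | succ n ih =>
    rw [ch_succ]
    exact (powCh_good (ih.edge h0 hl).1 ((ch_sym d lam n).edgeCh lam) d).1.pre

/-- the expected value of `S` along the levels -/
noncomputable def xs (d : ℕ) (lam : ℝ) (n : ℕ) : ℝ := Ex (ch d lam n) GS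

theorem Pre.S_nonneg {Ω : Type*} [Fintype Ω] {ℓ : Ω → Fin 3 → ℝ} (h : Pre ℓ) : 0 ≤ Ex ℓ GS := by
  apply Finset.sum_nonneg
  intro ω _
  obtain ⟨m, a₁, a₂, a₃, hm', hs, p₁, p₂, p₃, e₁, e₂, e₃⟩ :=
    exists_norm' (h.nn ω 0) (h.nn ω 1) (h.nn ω 2) (h.mpos ω)
  rw [e₁, e₂, e₃, Hom_GS m _ _ _ hm' p₁ p₂ p₃, GS_norm hs]
  have := sS_nonneg hs
  positivity

theorem Pre.S_le {Ω : Type*} [Fintype Ω] {ℓ : Ω → Fin 3 → ℝ} (h : Pre ℓ) : Ex ℓ GS ≤ 6 := by
  have : Ex ℓ GS ≤ 6 * Ex ℓ GM := by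
    unfold Ex
    rw [Finset.mul_sum]
    apply Finset.sum_le_sum
    intro ω _
    obtain ⟨m, a₁, a₂, a₃, hm', hs, p₁, p₂, p₃, e₁, e₂, e₃⟩ :=
      exists_norm' (h.nn ω 0) (h.nn ω 1) (h.nn ω 2) (h.mpos ω)
    rw [e₁, e₂, e₃, Hom_GS m _ _ _ hm' p₁ p₂ p₃, GS_norm hs, GM_mul _ _ _ _ hs]
    have := sS_le_six hs p₁ p₂ p₃
    nlinarith
  rw [h.mass] at this
  linarith

theorem xs_recursion {d : ℕ} (hd : 2 ≤ d) (h0 : 0 ≤ lam) (h1 : (d : ℝ) * lam ^ 2 ≤ 1) (n : ℕ) :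
    xs d lam (n + 1) ≤ d * lam ^ 2 * xs d lam n - 1 / 1000 * lam ^ 4 * xs d lam n ^ 2 := by
  have hl := lam_lt_one hd h0 h1
  have hp := ch_pre hd h0 h1 n
  obtain ⟨hg, hS⟩ := hp.edge h0 hl
  have h2 := (powCh_good hg ((ch_sym d lam n).edgeCh lam) d).2
  rw [hS] at h2
  have hx0 := hp.S_nonneg
  have hx6 := hp.S_le
  have hxs : xs d lam (n + 1) = Ex (powCh (edgeCh lam (ch d lam n)) d) GS := by
    unfold xs
    rw [ch_succ]
    rfl
  rw [hxs]
  have hll : lam ^ 2 ≤ 1 := pow_le_one₀ h0 hl.le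
  have ht0 : 0 ≤ 1 / 1000 * (lam ^ 2 * Ex (ch d lam n) GS) := by positivity
  have ht1 : 1 / 1000 * (lam ^ 2 * Ex (ch d lam n) GS) ≤ 1 := by nlinarith
  have h3 := pow_lower _ ht0 ht1 d hd
  unfold xs
  nlinarith

theorem xs_tendsto {d : ℕ} (hd : 2 ≤ d) (h0 : 0 ≤ lam) (h1 : (d : ℝ) * lam ^ 2 ≤ 1) :
    Filter.Tendsto (xs d lam) Filter.atTop (nhds 0) := by
  have hx0 : ∀ n, 0 ≤ xs d lam n := fun n => (ch_pre hd h0 h1 n).S_nonneg
  have hx6 : ∀ n, xs d lam n ≤ 6 := fun n => (ch_pre hd h0 h1 n).S_le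
  rcases h0.eq_or_lt with hz | hpos
  · subst hz
    apply tendsto_zero_of_quad _ (1 / 6) (by norm_num) hx0
    intro n
    have h2 := xs_recursion hd h0 h1 n
    norm_num at h2
    nlinarith [hx0 n, hx6 n]
  · apply tendsto_zero_of_quad _ (1 / 1000 * lam ^ 4) (by positivity) hx0
    intro n
    have h2 := xs_recursion hd h0 h1 n
    have h3 : d * lam ^ 2 * xs d lam n ≤ 1 * xs d lam n := mul_le_mul_of_nonneg_right h1 (hx0 n)
    linarith

theorem marginal_eq (d : ℕ) (lam : ℝ) (n : ℕ) (η : Leaves 3 d n) :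
    marginal 3 d lam n η = GM (ch d lam n η 0) (ch d lam n η 1) (ch d lam n η 2) := by
  unfold marginal GM ch
  rw [Fin.sum_univ_three]
  push_cast
  ring

/-- one leaf configuration: bound on the contribution to the advantage -/
theorem adv_term {v₀ v₁ v₂ m θ : ℝ} (hm : m = GM v₀ v₁ v₂) (hmpos : 0 < m) (hθ : 0 < θ) :
    m * ((1 / 2) * (|((1 / 3) * v₀) / m - 1 / 3| + |((1 / 3) * v₁) / m - 1 / 3| + |((1 / 3) * v₂) / m - 1 / 3|))
      ≤ (GS v₀ v₁ v₂ / θ + 3 * m * θ) / 12 := by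
  have key : ∀ v : ℝ, m * |((1 / 3) * v) / m - 1 / 3| = |v - m| / 3 := by
    intro v
    have : ((1 / 3) * v) / m - 1 / 3 = (v - m) / (3 * m) := by
      field_simp
    rw [this, abs_div, abs_of_pos (by positivity : 0 < 3 * m)]
    field_simp
  have e : m * ((1 / 2) * (|((1 / 3) * v₀) / m - 1 / 3| + |((1 / 3) * v₁) / m - 1 / 3| + |((1 / 3) * v₂) / m - 1 / 3|))
      = (1 / 2) * (m * |((1 / 3) * v₀) / m - 1 / 3| + m * |((1 / 3) * v₁) / m - 1 / 3| + m * |((1 / 3) * v₂) / m - 1 / 3|) := by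
    ring
  rw [e, key, key, key]
  have hGS : GS v₀ v₁ v₂ = ((v₀ - m) ^ 2 + (v₁ - m) ^ 2 + (v₂ - m) ^ 2) / m := by
    have hs : v₀ + v₁ + v₂ = 3 * m := by rw [hm]; unfold GM; ring
    unfold GS
    rw [hs]
    have h3 : v₂ = 3 * m - v₀ - v₁ := by linarith
    subst h3
    field_simp
    ring
  have am : ∀ u : ℝ, |u| ≤ (u ^ 2 / (m * θ) + m * θ) / 2 := by
    intro u
    have h2 : 0 < m * θ := by positivity
    rw [← sq_abs u]
    have : (|u| ^ 2 / (m * θ) + m * θ) / 2 - |u| = (|u| - m * θ) ^ 2 / (2 * (m * θ)) := by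
      field_simp
      ring
    have h3 : 0 ≤ (|u| - m * θ) ^ 2 / (2 * (m * θ)) := by positivity
    linarith
  have a0 := am (v₀ - m)
  have a1 := am (v₁ - m)
  have a2 := am (v₂ - m)
  have e3 : GS v₀ v₁ v₂ / θ = (v₀ - m) ^ 2 / (m * θ) + (v₁ - m) ^ 2 / (m * θ) + (v₂ - m) ^ 2 / (m * θ) := by
    rw [hGS]
    field_simp
  rw [e3]
  linarith

theorem advantage_le {d : ℕ} (hd : 2 ≤ d) (h0 : 0 ≤ lam) (h1 : (d : ℝ) * lam ^ 2 ≤ 1) (n : ℕ) (θ : ℝ) (hθ : 0 < θ) :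
    advantage 3 d lam n ≤ (xs d lam n / θ + 3 * θ) / 12 := by
  have hp := ch_pre hd h0 h1 n
  have hterm : ∀ η : Leaves 3 d n, marginal 3 d lam n η *
      ((1 / 2) * ∑ i : Fin 3, |posterior 3 d lam n i η - 1 / ((3 : ℕ) : ℝ)|)
      ≤ (GS (ch d lam n η 0) (ch d lam n η 1) (ch d lam n η 2) / θ
        + 3 * GM (ch d lam n η 0) (ch d lam n η 1) (ch d lam n η 2) * θ) / 12 := by
    intro η
    have hm := marginal_eq d lam n η
    have := adv_term (v₀ := ch d lam n η 0) (v₁ := ch d lam n η 1) (v₂ := ch d lam n η 2) hm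
      (by rw [hm]; exact hp.mpos η) hθ
    rw [← hm]
    rw [Fin.sum_univ_three]
    unfold posterior
    push_cast
    exact this
  have hsum : advantage 3 d lam n ≤ ∑ η : Leaves 3 d n, (GS (ch d lam n η 0) (ch d lam n η 1) (ch d lam n η 2) / θ
        + 3 * GM (ch d lam n η 0) (ch d lam n η 1) (ch d lam n η 2) * θ) / 12 :=
    Finset.sum_le_sum fun η _ => hterm η
  refine le_trans hsum (le_of_eq ?_)
  have hmass := hp.mass
  unfold xs
  unfold Ex at hmass ⊢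
  rw [← Finset.sum_div, Finset.sum_add_distrib, ← Finset.sum_div]
  have : ∑ η : Leaves 3 d n, 3 * GM (ch d lam n η 0) (ch d lam n η 1) (ch d lam n η 2) * θ
      = 3 * (∑ η : Leaves 3 d n, GM (ch d lam n η 0) (ch d lam n η 1) (ch d lam n η 2)) * θ := by
    rw [Finset.mul_sum, Finset.sum_mul]
  rw [this, hmass]
  ring

theorem advantage_nonneg {d : ℕ} (hd : 2 ≤ d) (h0 : 0 ≤ lam) (h1 : (d : ℝ) * lam ^ 2 ≤ 1) (n : ℕ) :
    0 ≤ advantage 3 d lam n := by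
  have hp := ch_pre hd h0 h1 n
  apply Finset.sum_nonneg
  intro η _
  rw [marginal_eq]
  have := hp.mpos η
  positivity

/-- Nonreconstruction for the three-state ferromagnetic Potts channel on the `d`-ary tree. -/
theorem main_dary (d : ℕ) (hd : 2 ≤ d) (lam : ℝ) (h0 : 0 ≤ lam) (h1 : (d : ℝ) * lam ^ 2 ≤ 1) :
    Filter.Tendsto (advantage 3 d lam) Filter.atTop (nhds 0) := by
  have hx := xs_tendsto hd h0 h1
  rw [Metric.tendsto_atTop] at hx ⊢
  intro ε hε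
  obtain ⟨N, hN⟩ := hx (12 * ε ^ 2) (by positivity)
  refine ⟨N, fun n hn => ?_⟩
  have h2 := hN n hn
  rw [Real.dist_eq, sub_zero] at h2 ⊢
  have hle := advantage_le hd h0 h1 n (2 * ε) (by positivity)
  have hnn := advantage_nonneg hd h0 h1 n
  rw [abs_of_nonneg hnn]
  have hx0 : 0 ≤ xs d lam n := (ch_pre hd h0 h1 n).S_nonneg
  rw [abs_of_nonneg hx0] at h2
  have h3 : xs d lam n / (2 * ε) < 6 * ε := by
    rw [div_lt_iff₀ (by positivity)]
    nlinarith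
  linarith

end Vale.Agent.Lib.P154
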