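import Vale.Agent.Lib.P154.Model

namespace Vale.Agent.Lib.P154.Model

/-- What the observer sees on a Galton-Watson tree when looking at distance `n` from the root: for
`n = 0` the spin of the vertex; for `n + 1` the number `k` of children of the vertex (the children
being listed in an arbitrary order) and, for each child, what is seen at distance `n` from it. -/
def Obs (q : ℕ) : ℕ → Type
  | 0 => Fin q
  | n + 1 => Σ k : ℕ, (Fin k → Obs q n)

/-- `gwLik q p lam n i ω` is the probability of the observation `ω` given that the root spin is `i`,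
when the offspring numbers are independent with law `p` and independent of the spins. -/
noncomputable def gwLik (q : ℕ) (p : ℕ → ℝ) (lam : ℝ) : (n : ℕ) → Fin q → Obs q n → ℝ
  | 0, i, ω => if i = (show Fin q from ω) then 1 else 0
  | n + 1, i, (ω : Σ k : ℕ, (Fin k → Obs q n)) =>
      p ω.1 * ∏ c : Fin ω.1, ∑ j : Fin q, pottsKernel q lam i j * gwLik q p lam n j (ω.2 c)

/-- The probability of the observation `ω` when the root spin is uniform. -/
noncomputable def gwMarginal (q : ℕ) (p : ℕ → ℝ) (lam : ℝ) (n : ℕ) (ω : Obs q n) : ℝ :=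
  ∑ i : Fin q, (1 / (q : ℝ)) * gwLik q p lam n i ω

/-- The conditional probability of root spin `i` given the observation `ω` (Bayes). -/
noncomputable def gwPosterior (q : ℕ) (p : ℕ → ℝ) (lam : ℝ) (n : ℕ) (i : Fin q) (ω : Obs q n) : ℝ :=
  ((1 / (q : ℝ)) * gwLik q p lam n i ω) / gwMarginal q p lam n ω

/-- The contribution of the observation `ω` to `a_n`. -/
noncomputable def gwTerm (q : ℕ) (p : ℕ → ℝ) (lam : ℝ) (n : ℕ) (ω : Obs q n) : ℝ :=
  gwMarginal q p lam n ω * ((1 / 2) * ∑ i : Fin q, |gwPosterior q p lam n i ω - 1 / (q : ℝ)|)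

/-- The quantity `a_n` for the Galton-Watson tree with offspring law `p`. -/
noncomputable def gwAdvantage (q : ℕ) (p : ℕ → ℝ) (lam : ℝ) (n : ℕ) : ℝ :=
  ∑' ω : Obs q n, gwTerm q p lam n ω

/-- The Poisson law of mean `d`. -/
noncomputable def poissonLaw (d : ℝ) (k : ℕ) : ℝ := Real.exp (-d) * d ^ k / (k.factorial : ℝ)

end Vale.Agent.Lib.P154.Model
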