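import Vale.Agent.Lib.P154.Mix
import Vale.Agent.Lib.P154.Final
import Vale.Agent.Lib.P154.ModelGW

namespace Vale.Agent.Lib.P154

open Model Filter Topology

/-- the channel of the Galton-Watson model -/
noncomputable def gch (p : ℕ → ℝ) (lam : ℝ) (n : ℕ) : Obs 3 n → Fin 3 → ℝ :=
  fun ω i => gwLik 3 p lam n i ω

theorem gch_succ (p : ℕ → ℝ) (lam : ℝ) (n : ℕ) :
    gch p lam (n + 1) = mixCh p (edgeCh lam (gch p lam n)) := by
  funext (ω : Σ k : ℕ, (Fin k → Obs 3 n)) i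
  show p ω.1 * ∏ c : Fin ω.1, ∑ j : Fin 3, pottsKernel 3 lam i j * gwLik 3 p lam n j (ω.2 c)
    = p ω.1 * powCh (edgeCh lam (gch p lam n)) ω.1 ω.2 i
  congr 1
  unfold powCh edgeCh gch
  apply Finset.prod_congr rfl
  intro c _
  exact kernel_sum lam (fun j => gwLik 3 p lam n j (ω.2 c)) i

theorem gch_sym (p : ℕ → ℝ) (lam : ℝ) (n : ℕ) : IsSym (gch p lam n) := by
  induction n with
  | zero =>
    intro σ
    refine ⟨σ.symm, ?_⟩
    intro (ω : Fin 3) i
    show (if i = σ.symm ω then (1 : ℝ) else 0) = if σ i = ω then 1 else 0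
    simp only [Equiv.eq_symm_apply]
  | succ n ih =>
    rw [gch_succ]
    exact (ih.edgeT lam).mixCh p

theorem gch_zero_hasSum (p : ℕ → ℝ) (lam : ℝ) (G : ℝ → ℝ → ℝ → ℝ) :
    HasSum (fun ω => G (gch p lam 0 ω 0) (gch p lam 0 ω 1) (gch p lam 0 ω 2)) (G 1 0 0 + G 0 1 0 + G 0 0 1) := by
  have h := hasSum_fintype (fun ω : Fin 3 => G (if (0 : Fin 3) = ω then (1 : ℝ) else 0)
    (if (1 : Fin 3) = ω then (1 : ℝ) else 0) (if (2 : Fin 3) = ω then (1 : ℝ) else 0))
  rw [Fin.sum_univ_three] at h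
  have h' : HasSum (fun ω : Fin 3 => G (if (0 : Fin 3) = ω then (1 : ℝ) else 0)
    (if (1 : Fin 3) = ω then (1 : ℝ) else 0) (if (2 : Fin 3) = ω then (1 : ℝ) else 0)) (G 1 0 0 + G 0 1 0 + G 0 0 1) := by
    simpa using h
  exact h'

theorem gch_zero_good (p : ℕ → ℝ) (lam : ℝ) : GoodT (gch p lam 0) := by
  have hE : ∀ G, ExT (gch p lam 0) G = G 1 0 0 + G 0 1 0 + G 0 0 1 := fun G => (gch_zero_hasSum p lam G).tsum_eq
  refine ⟨?_, (gch_zero_hasSum p lam GM).summable, ?_, ?_⟩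
  · intro (ω : Fin 3) i
    show 0 ≤ (if i = ω then (1 : ℝ) else 0)
    split_ifs <;> norm_num
  · rw [hE]
    unfold GM
    norm_num
  · rw [hE]
    have e2 : GPhi 0 0 1 = GPhi 1 0 0 := GPhi_symm1 1 0 0
    have e1 : GPhi 0 1 0 = GPhi 1 0 0 := (GPhi_symm1 0 0 1).trans e2
    rw [e1, e2, GPhi_corner1]
    norm_num

theorem gch_good {p : ℕ → ℝ} (hp : ∀ k, 0 ≤ p k) (hs : HasSum p 1) {lam : ℝ} (h0 : 0 ≤ lam) (h1 : lam ≤ 1) (n : ℕ) :
    GoodT (gch p lam n) := by
  induction n with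
  | zero => exact gch_zero_good p lam
  | succ n ih =>
    rw [gch_succ]
    exact (mix_good hp hs (ih.edge h0 h1).1 ((gch_sym p lam n).edgeT lam)).1

/-- the expected value of `S` -/
noncomputable def xg (p : ℕ → ℝ) (lam : ℝ) (n : ℕ) : ℝ := ExT (gch p lam n) GS

theorem xg_recursion {p : ℕ → ℝ} (hp : ∀ k, 0 ≤ p k) (hs : HasSum p 1) {m : ℝ}
    (hm : HasSum (fun k : ℕ => (k : ℝ) * p k) m) {lam : ℝ} (h0 : 0 ≤ lam) (h1 : lam ≤ 1) (n : ℕ) :
    xg p lam (n + 1) ≤ m * lam ^ 2 * xg p lam n - (1 - p 0 - p 1) * (1 / 1000) * lam ^ 4 * xg p lam n ^ 2 := by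
  have hg := gch_good hp hs h0 h1 n
  obtain ⟨hE, hS⟩ := hg.edge h0 h1
  have h2 := (mix_good hp hs hE ((gch_sym p lam n).edgeT lam)).2
  rw [hS] at h2
  have hx0 := hg.S_nonneg
  have hx6 := hg.S_le
  have hll : lam ^ 2 ≤ 1 := pow_le_one₀ h0 h1
  have hu0 : 0 ≤ 1 / 1000 * (lam ^ 2 * ExT (gch p lam n) GS) := by positivity
  have hu1 : 1 / 1000 * (lam ^ 2 * ExT (gch p lam n) GS) ≤ 1 := by nlinarith
  have h3 := gen_lower hp hs hm hu0 hu1
  have hxs : xg p lam (n + 1) = ExT (mixCh p (edgeCh lam (gch p lam n))) GS := by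
    unfold xg
    rw [gch_succ]
    rfl
  rw [hxs]
  unfold xg
  nlinarith

theorem p01_le {p : ℕ → ℝ} (hp : ∀ k, 0 ≤ p k) (hs : HasSum p 1) : p 0 + p 1 ≤ 1 := by
  have := sum_le_hasSum ({0, 1} : Finset ℕ) (fun k _ => hp k) hs
  simpa using this

theorem xg_tendsto {p : ℕ → ℝ} (hp : ∀ k, 0 ≤ p k) (hs : HasSum p 1) {m : ℝ}
    (hm : HasSum (fun k : ℕ => (k : ℝ) * p k) m) {lam : ℝ} (h0 : 0 ≤ lam) (h1 : lam ≤ 1)
    (hκ : m * lam ^ 2 ≤ 1) (hnd : ¬ (p 1 = 1 ∧ lam = 1)) :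
    Tendsto (xg p lam) atTop (𝓝 0) := by
  have hx0 : ∀ n, 0 ≤ xg p lam n := fun n => (gch_good hp hs h0 h1 n).S_nonneg
  have hx6 : ∀ n, xg p lam n ≤ 6 := fun n => (gch_good hp hs h0 h1 n).S_le
  have hrec := xg_recursion hp hs hm h0 h1
  have hp01 := p01_le hp hs
  rcases h0.eq_or_lt with hz | hpos
  · subst hz
    apply tendsto_zero_of_quad _ (1 / 6) (by norm_num) hx0
    intro n
    have h2 := hrec n
    norm_num at h2
    nlinarith [hx0 n, hx6 n]
  · rcases (by linarith : 0 ≤ 1 - p 0 - p 1).eq_or_lt with hc | hc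
    · -- at most one child
      have hk2 : ∀ k, 2 ≤ k → p k = 0 := by
        intro k hk
        have h3 := sum_le_hasSum ({0, 1, k} : Finset ℕ) (fun k _ => hp k) hs
        have h4 : k ∉ ({0, 1} : Finset ℕ) := by
          simp
          omega
        rw [Finset.sum_insert (by simp; omega), Finset.sum_insert (by simp; omega), Finset.sum_singleton] at h3
        have := hp k
        linarith
      have hm1 : m = p 1 := by
        have h5 : HasSum (fun k : ℕ => (k : ℝ) * p k) (((1 : ℕ) : ℝ) * p 1) := by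
          apply hasSum_single
          intro k hk
          rcases Nat.lt_or_ge k 2 with h6 | h6
          · interval_cases k
            · simp
            · exact absurd rfl hk
          · rw [hk2 k h6]; simp
        have := hm.unique h5
        simpa using this
      have hp1 : p 1 ≤ 1 := by have := hp 0; linarith
      have hκ' : m * lam ^ 2 < 1 := by
        rw [hm1]
        by_contra hcon
        push Not at hcon
        have hll : lam ^ 2 ≤ 1 := pow_le_one₀ hpos.le h1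
        have hp1' : 0 ≤ p 1 := hp 1
        have e1 : p 1 = 1 := by nlinarith
        have e2 : lam = 1 := by
          have : lam ^ 2 = 1 := by rw [e1] at hcon; nlinarith
          nlinarith
        exact hnd ⟨e1, e2⟩
      apply tendsto_zero_of_quad _ ((1 - m * lam ^ 2) / 6) (by linarith) hx0
      intro n
      have h2 := hrec n
      rw [← hc] at h2
      have h3 : 0 ≤ (1 - m * lam ^ 2) * xg p lam n * (6 - xg p lam n) :=
        mul_nonneg (mul_nonneg (by linarith) (hx0 n)) (by linarith [hx6 n])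
      nlinarith
    · apply tendsto_zero_of_quad _ ((1 - p 0 - p 1) * (1 / 1000) * lam ^ 4) (by positivity) hx0
      intro n
      have h2 := hrec n
      have h3 : m * lam ^ 2 * xg p lam n ≤ 1 * xg p lam n := mul_le_mul_of_nonneg_right hκ (hx0 n)
      linarith

theorem gwMarginal_eq (p : ℕ → ℝ) (lam : ℝ) (n : ℕ) (ω : Obs 3 n) :
    gwMarginal 3 p lam n ω = GM (gch p lam n ω 0) (gch p lam n ω 1) (gch p lam n ω 2) := by
  unfold gwMarginal GM gch
  rw [Fin.sum_univ_three]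
  push_cast
  ring

theorem gw_term_bound {p : ℕ → ℝ} (hp : ∀ k, 0 ≤ p k) (hs : HasSum p 1) {lam : ℝ} (h0 : 0 ≤ lam) (h1 : lam ≤ 1)
    (n : ℕ) (ω : Obs 3 n) {θ : ℝ} (hθ : 0 < θ) :
    0 ≤ gwTerm 3 p lam n ω ∧
    gwTerm 3 p lam n ω ≤ (GS (gch p lam n ω 0) (gch p lam n ω 1) (gch p lam n ω 2) / θ
        + 3 * GM (gch p lam n ω 0) (gch p lam n ω 1) (gch p lam n ω 2) * θ) / 12 := by
  have hg := gch_good hp hs h0 h1 n
  have n0 := hg.nn ω 0
  have n1 := hg.nn ω 1
  have n2 := hg.nn ω 2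
  have hm := gwMarginal_eq p lam n ω
  have hG := (GS_bound n0 n1 n2).1
  have hM := GM_nonneg' n0 n1 n2
  rcases hM.eq_or_lt with hz | hpos
  · have hzero : gwTerm 3 p lam n ω = 0 := by
      unfold gwTerm
      rw [hm, ← hz, zero_mul]
    rw [hzero, ← hz]
    refine ⟨le_refl _, ?_⟩
    have : 0 ≤ GS (gch p lam n ω 0) (gch p lam n ω 1) (gch p lam n ω 2) / θ := by positivity
    simp only [mul_zero, zero_mul, add_zero]
    positivity
  · constructor
    · unfold gwTerm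
      rw [hm]
      positivity
    · have := adv_term (v₀ := gch p lam n ω 0) (v₁ := gch p lam n ω 1) (v₂ := gch p lam n ω 2) hm
        (by rw [hm]; exact hpos) hθ
      unfold gwTerm
      rw [← hm]
      rw [Fin.sum_univ_three]
      unfold gwPosterior
      push_cast
      exact this

theorem gw_term_summable {p : ℕ → ℝ} (hp : ∀ k, 0 ≤ p k) (hs : HasSum p 1) {lam : ℝ} (h0 : 0 ≤ lam) (h1 : lam ≤ 1)
    (n : ℕ) : Summable (gwTerm 3 p lam n) ∧ ∀ θ : ℝ, 0 < θ → gwAdvantage 3 p lam n ≤ (xg p lam n / θ + 3 * θ) / 12 := by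
  have hg := gch_good hp hs h0 h1 n
  have hB : ∀ θ : ℝ, HasSum (fun ω => (GS (gch p lam n ω 0) (gch p lam n ω 1) (gch p lam n ω 2) / θ
        + 3 * GM (gch p lam n ω 0) (gch p lam n ω 1) (gch p lam n ω 2) * θ) / 12) ((xg p lam n / θ + 3 * 1 * θ) / 12) := by
    intro θ
    have a1 := (hg.hasSum SG_GS).div_const θ
    have a2 := ((hg.hasSum SG_GM).mul_left 3).mul_right θ
    rw [hg.mass] at a2
    exact (a1.add a2).div_const 12
  have hsum : Summable (gwTerm 3 p lam n) :=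
    Summable.of_nonneg_of_le (fun ω => (gw_term_bound hp hs h0 h1 n ω one_pos).1)
      (fun ω => (gw_term_bound hp hs h0 h1 n ω one_pos).2) (hB 1).summable
  refine ⟨hsum, fun θ hθ => ?_⟩
  have := hasSum_le (fun ω => (gw_term_bound hp hs h0 h1 n ω hθ).2) hsum.hasSum (hB θ)
  unfold gwAdvantage
  linarith

/-- Nonreconstruction for the three-state ferromagnetic Potts channel on Galton-Watson trees. -/
theorem main_gw {p : ℕ → ℝ} (hp : ∀ k, 0 ≤ p k) (hs : HasSum p 1) {m : ℝ}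
    (hm : HasSum (fun k : ℕ => (k : ℝ) * p k) m) {lam : ℝ} (h0 : 0 ≤ lam) (h1 : lam ≤ 1)
    (hκ : m * lam ^ 2 ≤ 1) (hnd : ¬ (p 1 = 1 ∧ lam = 1)) :
    (∀ n, Summable (gwTerm 3 p lam n)) ∧ Tendsto (gwAdvantage 3 p lam) atTop (𝓝 0) := by
  refine ⟨fun n => (gw_term_summable hp hs h0 h1 n).1, ?_⟩
  have hx := xg_tendsto hp hs hm h0 h1 hκ hnd
  rw [Metric.tendsto_atTop] at hx ⊢
  intro ε hε
  obtain ⟨N, hN⟩ := hx (12 * ε ^ 2) (by positivity)
  refine ⟨N, fun n hn => ?_⟩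
  have h2 := hN n hn
  rw [Real.dist_eq, sub_zero] at h2 ⊢
  have hle := (gw_term_summable hp hs h0 h1 n).2 (2 * ε) (by positivity)
  have hnn : 0 ≤ gwAdvantage 3 p lam n := tsum_nonneg fun ω => (gw_term_bound hp hs h0 h1 n ω one_pos).1
  rw [abs_of_nonneg hnn]
  have hx0 : 0 ≤ xg p lam n := (gch_good hp hs h0 h1 n).S_nonneg
  rw [abs_of_nonneg hx0] at h2
  have h3 : xg p lam n / (2 * ε) < 6 * ε := by
    rw [div_lt_iff₀ (by positivity)]
    nlinarith
  linarith

theorem poisson_nonneg {d : ℝ} (hd : 0 < d) (k : ℕ) : 0 ≤ poissonLaw d k := by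
  unfold poissonLaw
  positivity

theorem exp_hasSum (d : ℝ) : HasSum (fun k : ℕ => d ^ k / (k.factorial : ℝ)) (Real.exp d) := by
  rw [Real.exp_eq_exp_ℝ]
  exact NormedSpace.expSeries_div_hasSum_exp d

theorem poisson_hasSum (d : ℝ) : HasSum (poissonLaw d) 1 := by
  have h := (exp_hasSum d).mul_left (Real.exp (-d))
  have e : Real.exp (-d) * Real.exp d = 1 := by
    rw [← Real.exp_add]; simp
  rw [e] at h
  have e' : poissonLaw d = fun k : ℕ => Real.exp (-d) * (d ^ k / (k.factorial : ℝ)) := by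
    funext k
    unfold poissonLaw
    ring
  rw [e']
  exact h

theorem poisson_mean (d : ℝ) : HasSum (fun k : ℕ => (k : ℝ) * poissonLaw d k) d := by
  have h := (poisson_hasSum d).mul_left d
  rw [mul_one] at h
  rw [← hasSum_nat_add_iff' 1]
  simp only [Finset.range_one, Finset.sum_singleton, Nat.cast_zero, zero_mul, sub_zero]
  have e' : (fun k : ℕ => ((k + 1 : ℕ) : ℝ) * poissonLaw d (k + 1)) = fun k : ℕ => d * poissonLaw d k := by
    funext k
    unfold poissonLaw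
    rw [Nat.factorial_succ]
    push_cast
    field_simp
    ring
  rw [e']
  exact h

/-- Nonreconstruction on Poisson Galton-Watson trees. -/
theorem main_poisson {d : ℝ} (hd : 0 < d) {lam : ℝ} (h0 : 0 ≤ lam) (h1 : lam ≤ 1) (hκ : d * lam ^ 2 ≤ 1) :
    (∀ n, Summable (gwTerm 3 (poissonLaw d) lam n)) ∧ Tendsto (gwAdvantage 3 (poissonLaw d) lam) atTop (𝓝 0) := by
  apply main_gw (poisson_nonneg hd) (poisson_hasSum d) (poisson_mean d) h0 h1 hκ
  rintro ⟨e, -⟩
  have h2 : poissonLaw d 1 = Real.exp (-d) * d := by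
    unfold poissonLaw
    simp
  rw [h2] at e
  have h3 := Real.add_one_le_exp d
  have h4 : Real.exp (-d) * Real.exp d = 1 := by
    rw [← Real.exp_add]; simp
  have h5 : 0 < Real.exp (-d) := Real.exp_pos _
  nlinarith

end Vale.Agent.Lib.P154
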