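import Vale.Agent.Lib.P154.Algebra

namespace Vale.Agent.Lib.P154

/-- Average over the six arrangements of the second vector. -/
noncomputable def avg6 (G : ℝ → ℝ → ℝ → ℝ) (a₁ a₂ a₃ b₁ b₂ b₃ : ℝ) : ℝ :=
  (G (a₁ * b₁) (a₂ * b₂) (a₃ * b₃) + G (a₁ * b₂) (a₂ * b₃) (a₃ * b₁)
    + G (a₁ * b₃) (a₂ * b₁) (a₃ * b₂) + G (a₁ * b₁) (a₂ * b₃) (a₃ * b₂)
    + G (a₁ * b₂) (a₂ * b₁) (a₃ * b₃) + G (a₁ * b₃) (a₂ * b₂) (a₃ * b₁)) / 6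

/-- Homogeneous extension of `S`. -/
noncomputable def GS (x y z : ℝ) : ℝ := 3 * (x ^ 2 + y ^ 2 + z ^ 2) / (x + y + z) - (x + y + z)

theorem GS_eq (x y z : ℝ) (h : 0 < x + y + z) :
    GS x y z = 2 * (x + y + z) - 6 * (e2 x y z / (x + y + z)) := by
  unfold GS e2
  field_simp
  ring

/-- the variational lower bound for one term -/
theorem GS_ge_aux (A₁ A₂ A₃ D v₁ v₂ v₃ z₁ z₂ z₃ : ℝ) (hD : 0 < D)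
    (h₁ : A₁ = z₁ + D / 3) (h₂ : A₂ = z₂ + D / 3) (h₃ : A₃ = z₃ + D / 3)
    (hz : z₁ + z₂ + z₃ = 0) :
    (2 * v₁ * z₁ - v₁ ^ 2 * D / 3) + (2 * v₂ * z₂ - v₂ ^ 2 * D / 3) + (2 * v₃ * z₃ - v₃ ^ 2 * D / 3)
      ≤ GS A₁ A₂ A₃ := by
  have hsum : A₁ + A₂ + A₃ = D := by rw [h₁, h₂, h₃]; linarith
  have hGS : GS A₁ A₂ A₃ = 3 * (z₁ ^ 2 + z₂ ^ 2 + z₃ ^ 2) / D := by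
    unfold GS
    rw [hsum, h₁, h₂, h₃]
    have hz3 : z₃ = - z₁ - z₂ := by linarith
    subst hz3
    field_simp
    ring
  rw [hGS]
  have key : ∀ z v : ℝ, 2 * v * z - v ^ 2 * D / 3 ≤ 3 * z ^ 2 / D := by
    intro z v
    rw [le_div_iff₀ hD]
    nlinarith [sq_nonneg (3 * z - v * D)]
  have := key z₁ v₁
  have := key z₂ v₂
  have := key z₃ v₃
  have e : 3 * (z₁ ^ 2 + z₂ ^ 2 + z₃ ^ 2) / D = 3 * z₁ ^ 2 / D + 3 * z₂ ^ 2 / D + 3 * z₃ ^ 2 / D := by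
    ring
  rw [e]
  linarith

theorem GS_ge_lb (w₁ w₂ w₃ u₁ u₂ u₃ α₁ α₂ γ : ℝ) (hw : w₁ + w₂ + w₃ = 0) (hu : u₁ + u₂ + u₃ = 0)
    (hD : 0 < (1 + w₁) * (1 + u₁) + (1 + w₂) * (1 + u₂) + (1 + w₃) * (1 + u₃)) :
    lbTerm w₁ w₂ w₃ u₁ u₂ u₃ α₁ α₂ γ
      ≤ GS ((1 + w₁) * (1 + u₁)) ((1 + w₂) * (1 + u₂)) ((1 + w₃) * (1 + u₃)) := by
  set p := w₁ * u₁ + w₂ * u₂ + w₃ * u₃ with hp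
  have hDp : (1 + w₁) * (1 + u₁) + (1 + w₂) * (1 + u₂) + (1 + w₃) * (1 + u₃) = 3 + p := by
    rw [hp]; linear_combination hw + hu
  have hD' : 0 < 3 + p := by rw [← hDp]; exact hD
  have := GS_ge_aux ((1 + w₁) * (1 + u₁)) ((1 + w₂) * (1 + u₂)) ((1 + w₃) * (1 + u₃)) (3 + p)
    (α₁ * w₁ + α₂ * u₁ + γ * (w₁ * u₁ - p / 3)) (α₁ * w₂ + α₂ * u₂ + γ * (w₂ * u₂ - p / 3))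
    (α₁ * w₃ + α₂ * u₃ + γ * (w₃ * u₃ - p / 3))
    (w₁ + u₁ + (w₁ * u₁ - p / 3)) (w₂ + u₂ + (w₂ * u₂ - p / 3)) (w₃ + u₃ + (w₃ * u₃ - p / 3))
    hD' (by ring) (by ring) (by ring) (by rw [hp]; linear_combination hw + hu)
  unfold lbTerm
  simp only []
  rw [← hp]
  exact this

/-- Upper bound for the loss: the variational estimate.  -/
theorem avg6_GS_ge (a₁ a₂ a₃ b₁ b₂ b₃ α₁ α₂ γ : ℝ)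
    (ha₁ : 0 < a₁) (ha₂ : 0 < a₂) (ha₃ : 0 < a₃) (hb₁ : 0 < b₁) (hb₂ : 0 < b₂) (hb₃ : 0 < b₃)
    (ha : a₁ + a₂ + a₃ = 3) (hb : b₁ + b₂ + b₃ = 3) :
    (2 * α₁ - α₁ ^ 2) * sS a₁ a₂ a₃ + (2 * α₂ - α₂ ^ 2) * sS b₁ b₂ b₃
      + sS a₁ a₂ a₃ * sS b₁ b₂ b₃ * ((2 * γ - γ ^ 2) / 6 - α₁ * α₂ / 3)
      - γ / 3 * (α₁ * sS b₁ b₂ b₃ * sT a₁ a₂ a₃ + α₂ * sS a₁ a₂ a₃ * sT b₁ b₂ b₃)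
    ≤ avg6 GS a₁ a₂ a₃ b₁ b₂ b₃ := by
  have hw : (a₁ - 1) + (a₂ - 1) + (a₃ - 1) = 0 := by linarith
  have hu : (b₁ - 1) + (b₂ - 1) + (b₃ - 1) = 0 := by linarith
  have hS1 : sS a₁ a₂ a₃ = (a₁ - 1) ^ 2 + (a₂ - 1) ^ 2 + (a₃ - 1) ^ 2 := by
    unfold sS; nlinarith
  have hS2 : sS b₁ b₂ b₃ = (b₁ - 1) ^ 2 + (b₂ - 1) ^ 2 + (b₃ - 1) ^ 2 := by
    unfold sS; nlinarith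
  have havg := lbTerm_avg (a₁ - 1) (a₂ - 1) (a₃ - 1) (b₁ - 1) (b₂ - 1) (b₃ - 1) α₁ α₂ γ hw hu
  have key : ∀ c₁ c₂ c₃ : ℝ, 0 < c₁ → 0 < c₂ → 0 < c₃ → c₁ + c₂ + c₃ = 3 →
      lbTerm (a₁ - 1) (a₂ - 1) (a₃ - 1) (c₁ - 1) (c₂ - 1) (c₃ - 1) α₁ α₂ γ
        ≤ GS (a₁ * c₁) (a₂ * c₂) (a₃ * c₃) := by
    intro c₁ c₂ c₃ h1 h2 h3 hc
    have := GS_ge_lb (a₁ - 1) (a₂ - 1) (a₃ - 1) (c₁ - 1) (c₂ - 1) (c₃ - 1) α₁ α₂ γ hw (by linarith)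
      (by ring_nf; positivity)
    simpa using this
  have k1 := key b₁ b₂ b₃ hb₁ hb₂ hb₃ hb
  have k2 := key b₂ b₃ b₁ hb₂ hb₃ hb₁ (by linarith)
  have k3 := key b₃ b₁ b₂ hb₃ hb₁ hb₂ (by linarith)
  have k4 := key b₁ b₃ b₂ hb₁ hb₃ hb₂ (by linarith)
  have k5 := key b₂ b₁ b₃ hb₂ hb₁ hb₃ (by linarith)
  have k6 := key b₃ b₂ b₁ hb₃ hb₂ hb₁ (by linarith)
  rw [hS1, hS2]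
  unfold avg6 sT
  rw [← havg] 
  linarith

/-- the six-term sum `Σ e/D` -/
noncomputable def xSum (a₁ a₂ a₃ b₁ b₂ b₃ : ℝ) : ℝ :=
  e2 (a₁ * b₁) (a₂ * b₂) (a₃ * b₃) / (a₁ * b₁ + a₂ * b₂ + a₃ * b₃)
  + e2 (a₁ * b₂) (a₂ * b₃) (a₃ * b₁) / (a₁ * b₂ + a₂ * b₃ + a₃ * b₁)
  + e2 (a₁ * b₃) (a₂ * b₁) (a₃ * b₂) / (a₁ * b₃ + a₂ * b₁ + a₃ * b₂)
  + (e2 (a₁ * b₁) (a₂ * b₃) (a₃ * b₂) / (a₁ * b₁ + a₂ * b₃ + a₃ * b₂)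
  + e2 (a₁ * b₃) (a₂ * b₂) (a₃ * b₁) / (a₁ * b₃ + a₂ * b₂ + a₃ * b₁)
  + e2 (a₁ * b₂) (a₂ * b₁) (a₃ * b₃) / (a₁ * b₂ + a₂ * b₁ + a₃ * b₃))

theorem avg6_GS_eq (a₁ a₂ a₃ b₁ b₂ b₃ : ℝ)
    (ha₁ : 0 < a₁) (ha₂ : 0 < a₂) (ha₃ : 0 < a₃) (hb₁ : 0 < b₁) (hb₂ : 0 < b₂) (hb₃ : 0 < b₃)
    (ha : a₁ + a₂ + a₃ = 3) (hb : b₁ + b₂ + b₃ = 3) :
    avg6 GS a₁ a₂ a₃ b₁ b₂ b₃ = 6 - xSum a₁ a₂ a₃ b₁ b₂ b₃ := by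
  unfold avg6 xSum
  rw [GS_eq _ _ _ (by positivity), GS_eq _ _ _ (by positivity), GS_eq _ _ _ (by positivity),
    GS_eq _ _ _ (by positivity), GS_eq _ _ _ (by positivity), GS_eq _ _ _ (by positivity)]
  have h3 : a₃ = 3 - a₁ - a₂ := by linarith
  have h4 : b₃ = 3 - b₁ - b₂ := by linarith
  have hsum : (a₁ * b₁ + a₂ * b₂ + a₃ * b₃) + (a₁ * b₂ + a₂ * b₃ + a₃ * b₁)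
      + (a₁ * b₃ + a₂ * b₁ + a₃ * b₂) + (a₁ * b₁ + a₂ * b₃ + a₃ * b₂)
      + (a₁ * b₂ + a₂ * b₁ + a₃ * b₃) + (a₁ * b₃ + a₂ * b₂ + a₃ * b₁) = 18 := by
    rw [h3, h4]; ring
  linarith

theorem xSum_nonneg (a₁ a₂ a₃ b₁ b₂ b₃ : ℝ)
    (ha₁ : 0 < a₁) (ha₂ : 0 < a₂) (ha₃ : 0 < a₃) (hb₁ : 0 < b₁) (hb₂ : 0 < b₂) (hb₃ : 0 < b₃) :
    0 ≤ xSum a₁ a₂ a₃ b₁ b₂ b₃ := by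
  unfold xSum e2
  positivity

theorem titu_aux (e₁ e₂ e₃ e₄ e₅ e₆ d₁ d₂ d₃ d₄ d₅ d₆ : ℝ)
    (h₁ : 0 < d₁) (h₂ : 0 < d₂) (h₃ : 0 < d₃) (h₄ : 0 < d₄) (h₅ : 0 < d₅) (h₆ : 0 < d₆)
    (he₁ : 0 ≤ e₁) (he₂ : 0 ≤ e₂) (he₃ : 0 ≤ e₃)
    (hN : e₁ * d₂ * d₃ + e₂ * d₁ * d₃ + e₃ * d₁ * d₂ = e₄ * d₅ * d₆ + e₅ * d₄ * d₆ + e₆ * d₄ * d₅) :
    2 * (e₁ * d₂ * d₃ + e₂ * d₁ * d₃ + e₃ * d₁ * d₂)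
      ≤ ((d₁ * d₂ * d₃ + d₄ * d₅ * d₆) / 2)
        * (e₁ / d₁ + e₂ / d₂ + e₃ / d₃ + (e₄ / d₄ + e₅ / d₅ + e₆ / d₆)) := by
  set N := e₁ * d₂ * d₃ + e₂ * d₁ * d₃ + e₃ * d₁ * d₂ with hNdef
  have hNnn : 0 ≤ N := by positivity
  set P := d₁ * d₂ * d₃ with hP
  set Q := d₄ * d₅ * d₆ with hQ
  have hPpos : 0 < P := by positivity
  have hQpos : 0 < Q := by positivity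
  have e1 : e₁ / d₁ + e₂ / d₂ + e₃ / d₃ = N / P := by
    rw [hNdef, hP]; field_simp
  have e2' : e₄ / d₄ + e₅ / d₅ + e₆ / d₆ = N / Q := by
    rw [hN, hQ]; field_simp
  rw [e1, e2']
  have : ((P + Q) / 2) * (N / P + N / Q) - 2 * N = N * ((P - Q) ^ 2 / (2 * P * Q)) := by
    field_simp
    ring
  have h2 : 0 ≤ N * ((P - Q) ^ 2 / (2 * P * Q)) := by positivity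
  linarith

/-- The closed-form lower bound for the loss. -/
theorem bigE_pos (a₁ a₂ a₃ b₁ b₂ b₃ : ℝ)
    (ha₁ : 0 < a₁) (ha₂ : 0 < a₂) (ha₃ : 0 < a₃) (hb₁ : 0 < b₁) (hb₂ : 0 < b₂) (hb₃ : 0 < b₃)
    (ha : a₁ + a₂ + a₃ = 3) (hb : b₁ + b₂ + b₃ = 3) :
    0 < bigE (sS a₁ a₂ a₃) (sT a₁ a₂ a₃) (sS b₁ b₂ b₃) (sT b₁ b₂ b₃) := by
  have := prod_sum a₁ a₂ a₃ b₁ b₂ b₃ ha hb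
  have h : 0 < (a₁ * b₁ + a₂ * b₂ + a₃ * b₃) * (a₁ * b₂ + a₂ * b₃ + a₃ * b₁) * (a₁ * b₃ + a₂ * b₁ + a₃ * b₂)
    + (a₁ * b₁ + a₂ * b₃ + a₃ * b₂) * (a₁ * b₃ + a₂ * b₂ + a₃ * b₁) * (a₁ * b₂ + a₂ * b₁ + a₃ * b₃) := by
    positivity
  linarith

theorem loss_lower (a₁ a₂ a₃ b₁ b₂ b₃ : ℝ)
    (ha₁ : 0 < a₁) (ha₂ : 0 < a₂) (ha₃ : 0 < a₃) (hb₁ : 0 < b₁) (hb₂ : 0 < b₂) (hb₃ : 0 < b₃)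
    (ha : a₁ + a₂ + a₃ = 3) (hb : b₁ + b₂ + b₃ = 3) :
    bigP (sS a₁ a₂ a₃) (sT a₁ a₂ a₃) (sS b₁ b₂ b₃) (sT b₁ b₂ b₃)
      ≤ bigE (sS a₁ a₂ a₃) (sT a₁ a₂ a₃) (sS b₁ b₂ b₃) (sT b₁ b₂ b₃)
        * (sS a₁ a₂ a₃ + sS b₁ b₂ b₃ - avg6 GS a₁ a₂ a₃ b₁ b₂ b₃) := by
  rw [avg6_GS_eq a₁ a₂ a₃ b₁ b₂ b₃ ha₁ ha₂ ha₃ hb₁ hb₂ hb₃ ha hb, bigP_eq a₁ a₂ a₃ b₁ b₂ b₃ ha hb]
  have hN := nRot_swap a₁ a₂ a₃ b₁ b₂ b₃ ha hb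
  have hT := titu_aux (e2 (a₁ * b₁) (a₂ * b₂) (a₃ * b₃)) (e2 (a₁ * b₂) (a₂ * b₃) (a₃ * b₁))
    (e2 (a₁ * b₃) (a₂ * b₁) (a₃ * b₂)) (e2 (a₁ * b₁) (a₂ * b₃) (a₃ * b₂))
    (e2 (a₁ * b₃) (a₂ * b₂) (a₃ * b₁)) (e2 (a₁ * b₂) (a₂ * b₁) (a₃ * b₃))
    (a₁ * b₁ + a₂ * b₂ + a₃ * b₃) (a₁ * b₂ + a₂ * b₃ + a₃ * b₁) (a₁ * b₃ + a₂ * b₁ + a₃ * b₂)
    (a₁ * b₁ + a₂ * b₃ + a₃ * b₂) (a₁ * b₃ + a₂ * b₂ + a₃ * b₁) (a₁ * b₂ + a₂ * b₁ + a₃ * b₃)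
    (by positivity) (by positivity) (by positivity) (by positivity) (by positivity) (by positivity)
    (by unfold e2; positivity) (by unfold e2; positivity) (by unfold e2; positivity)
    (by
      unfold nRot at hN
      linarith)
  have hE := prod_sum a₁ a₂ a₃ b₁ b₂ b₃ ha hb
  have hnr : nRot a₁ a₂ a₃ b₁ b₂ b₃ = e2 (a₁ * b₁) (a₂ * b₂) (a₃ * b₃) * (a₁ * b₂ + a₂ * b₃ + a₃ * b₁) * (a₁ * b₃ + a₂ * b₁ + a₃ * b₂)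
      + e2 (a₁ * b₂) (a₂ * b₃) (a₃ * b₁) * (a₁ * b₁ + a₂ * b₂ + a₃ * b₃) * (a₁ * b₃ + a₂ * b₁ + a₃ * b₂)
      + e2 (a₁ * b₃) (a₂ * b₁) (a₃ * b₂) * (a₁ * b₁ + a₂ * b₂ + a₃ * b₃) * (a₁ * b₂ + a₂ * b₃ + a₃ * b₁) := rfl
  rw [hnr]
  have hX : xSum a₁ a₂ a₃ b₁ b₂ b₃ = e2 (a₁ * b₁) (a₂ * b₂) (a₃ * b₃) / (a₁ * b₁ + a₂ * b₂ + a₃ * b₃)
      + e2 (a₁ * b₂) (a₂ * b₃) (a₃ * b₁) / (a₁ * b₂ + a₂ * b₃ + a₃ * b₁)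
      + e2 (a₁ * b₃) (a₂ * b₁) (a₃ * b₂) / (a₁ * b₃ + a₂ * b₁ + a₃ * b₂)
      + (e2 (a₁ * b₁) (a₂ * b₃) (a₃ * b₂) / (a₁ * b₁ + a₂ * b₃ + a₃ * b₂)
      + e2 (a₁ * b₃) (a₂ * b₂) (a₃ * b₁) / (a₁ * b₃ + a₂ * b₂ + a₃ * b₁)
      + e2 (a₁ * b₂) (a₂ * b₁) (a₃ * b₃) / (a₁ * b₂ + a₂ * b₁ + a₃ * b₃)) := rfl
  have hE' : (bigE (sS a₁ a₂ a₃) (sT a₁ a₂ a₃) (sS b₁ b₂ b₃) (sT b₁ b₂ b₃)) = (((a₁ * b₁ + a₂ * b₂ + a₃ * b₃) * (a₁ * b₂ + a₂ * b₃ + a₃ * b₁) * (a₁ * b₃ + a₂ * b₁ + a₃ * b₂)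
    + (a₁ * b₁ + a₂ * b₃ + a₃ * b₂) * (a₁ * b₃ + a₂ * b₂ + a₃ * b₁) * (a₁ * b₂ + a₂ * b₁ + a₃ * b₃)) / 2) := by
    linarith
  have : bigE (sS a₁ a₂ a₃) (sT a₁ a₂ a₃) (sS b₁ b₂ b₃) (sT b₁ b₂ b₃) * xSum a₁ a₂ a₃ b₁ b₂ b₃
      ≥ 2 * (e2 (a₁ * b₁) (a₂ * b₂) (a₃ * b₃) * (a₁ * b₂ + a₂ * b₃ + a₃ * b₁) * (a₁ * b₃ + a₂ * b₁ + a₃ * b₂)
      + e2 (a₁ * b₂) (a₂ * b₃) (a₃ * b₁) * (a₁ * b₁ + a₂ * b₂ + a₃ * b₃) * (a₁ * b₃ + a₂ * b₁ + a₃ * b₂)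
      + e2 (a₁ * b₃) (a₂ * b₁) (a₃ * b₂) * (a₁ * b₁ + a₂ * b₂ + a₃ * b₃) * (a₁ * b₂ + a₂ * b₃ + a₃ * b₁)) := by
    rw [hE', hX]
    exact hT
  linarith

end Vale.Agent.Lib.P154
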