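import Vale.Agent.Lib.P154.ChannelT

namespace Vale.Agent.Lib.P154

open Filter Topology

/-- homogeneity including the factor zero -/
def Hom0 (G : ℝ → ℝ → ℝ → ℝ) : Prop :=
  ∀ c x y z : ℝ, 0 ≤ c → 0 ≤ x → 0 ≤ y → 0 ≤ z → G (c * x) (c * y) (c * z) = c * G x y z

theorem Hom0_of {G : ℝ → ℝ → ℝ → ℝ} (h : Hom G) (h0 : G 0 0 0 = 0) : Hom0 G := by
  intro c x y z hc hx hy hz
  rcases hc.eq_or_lt with e | e
  · subst e
    simp [h0]
  · exact h c x y z e hx hy hz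

theorem Hom0_GM : Hom0 GM := Hom0_of Hom_GM (by simp [GM])
theorem Hom0_GS : Hom0 GS := Hom0_of Hom_GS (by simp [GS])
theorem Hom0_GPhi : Hom0 GPhi := Hom0_of Hom_GPhi (by simp [GPhi, GS, GM, GE, gv])

section mix

variable {Ω : Type*}

/-- The mixture over the number of children. -/
noncomputable def mixCh (p : ℕ → ℝ) (ℓ : Ω → Fin 3 → ℝ) : (Σ k : ℕ, (Fin k → Ω)) → Fin 3 → ℝ :=
  fun s i => p s.1 * powCh ℓ s.1 s.2 i

theorem IsSym.mixCh {ℓ : Ω → Fin 3 → ℝ} (h : IsSym ℓ) (p : ℕ → ℝ) : IsSym (mixCh p ℓ) := by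
  intro σ
  refine ⟨Equiv.sigmaCongrRight (fun k => Equiv.arrowCongr (Equiv.refl _) (Classical.choose (h σ))), ?_⟩
  rintro ⟨k, η⟩ i
  have he := Classical.choose_spec (h σ)
  show p k * ∏ c, ℓ ((Classical.choose (h σ)) (η c)) i = p k * ∏ c, ℓ (η c) (σ i)
  congr 1
  apply Finset.prod_congr rfl
  intro c _
  exact he (η c) i

theorem IsSym.edgeT {ℓ : Ω → Fin 3 → ℝ} (h : IsSym ℓ) (lam : ℝ) : IsSym (Vale.Agent.Lib.P154.edgeCh lam ℓ) := by
  intro σ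
  obtain ⟨e, he⟩ := h σ
  refine ⟨e, ?_⟩
  intro ω i
  unfold Vale.Agent.Lib.P154.edgeCh eStep
  rw [GM_fin (fun j => ℓ (e ω) j), GM_fin (fun j => ℓ ω j)]
  simp only [he]
  rw [Equiv.sum_comp σ (fun j => ℓ ω j)]

theorem mix_fiber (p : ℕ → ℝ) (hp : ∀ k, 0 ≤ p k) {ℓ : Ω → Fin 3 → ℝ} (h : GoodT ℓ) (sym : IsSym ℓ)
    {G : ℝ → ℝ → ℝ → ℝ} (hG : Hom0 G) (hS : SG G) (k : ℕ) :
    HasSum (fun η : Fin k → Ω => G (mixCh p ℓ ⟨k, η⟩ 0) (mixCh p ℓ ⟨k, η⟩ 1) (mixCh p ℓ ⟨k, η⟩ 2))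
      (p k * ExT (powCh ℓ k) G) := by
  have hk := (powT_good h sym k).1
  have h1 := (hk.hasSum hS).mul_left (p k)
  have e : (fun η : Fin k → Ω => G (mixCh p ℓ ⟨k, η⟩ 0) (mixCh p ℓ ⟨k, η⟩ 1) (mixCh p ℓ ⟨k, η⟩ 2))
      = fun η => p k * G (powCh ℓ k η 0) (powCh ℓ k η 1) (powCh ℓ k η 2) := by
    funext η
    exact hG _ _ _ _ (hp k) (hk.nn _ _) (hk.nn _ _) (hk.nn _ _)
  rw [e]
  exact h1

theorem mix_nn {p : ℕ → ℝ} (hp : ∀ k, 0 ≤ p k) {ℓ : Ω → Fin 3 → ℝ} (h : GoodT ℓ) (sym : IsSym ℓ) :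
    ∀ s i, 0 ≤ mixCh p ℓ s i := by
  intro s i
  exact mul_nonneg (hp _) ((powT_good h sym s.1).1.nn _ _)

theorem mix_summ {p : ℕ → ℝ} (hp : ∀ k, 0 ≤ p k) (hs : Summable p) {ℓ : Ω → Fin 3 → ℝ} (h : GoodT ℓ) (sym : IsSym ℓ) :
    Summable (fun s => GM (mixCh p ℓ s 0) (mixCh p ℓ s 1) (mixCh p ℓ s 2)) := by
  have hnn := mix_nn hp h sym
  rw [summable_sigma_of_nonneg (fun s => GM_nonneg' (hnn s 0) (hnn s 1) (hnn s 2))]
  refine ⟨fun k => (mix_fiber p hp h sym Hom0_GM SG_GM k).summable, ?_⟩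
  have e : (fun k => ∑' η : Fin k → Ω, GM (mixCh p ℓ ⟨k, η⟩ 0) (mixCh p ℓ ⟨k, η⟩ 1) (mixCh p ℓ ⟨k, η⟩ 2)) = p := by
    funext k
    rw [(mix_fiber p hp h sym Hom0_GM SG_GM k).tsum_eq, (powT_good h sym k).1.mass, mul_one]
  rw [e]
  exact hs

theorem mix_summable {p : ℕ → ℝ} (hp : ∀ k, 0 ≤ p k) (hs : Summable p) {ℓ : Ω → Fin 3 → ℝ} (h : GoodT ℓ)
    (sym : IsSym ℓ) {G : ℝ → ℝ → ℝ → ℝ} (hS : SG G) :
    Summable (fun s => G (mixCh p ℓ s 0) (mixCh p ℓ s 1) (mixCh p ℓ s 2)) := by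
  obtain ⟨C, hC⟩ := hS
  have hnn := mix_nn hp h sym
  exact Summable.of_norm_bounded ((mix_summ hp hs h sym).mul_left C)
    (fun s => hC _ _ _ (hnn s 0) (hnn s 1) (hnn s 2))

theorem mix_Ex {p : ℕ → ℝ} (hp : ∀ k, 0 ≤ p k) (hs : Summable p) {ℓ : Ω → Fin 3 → ℝ} (h : GoodT ℓ)
    (sym : IsSym ℓ) {G : ℝ → ℝ → ℝ → ℝ} (hG : Hom0 G) (hS : SG G) :
    ExT (mixCh p ℓ) G = ∑' k, p k * ExT (powCh ℓ k) G := by
  unfold ExT
  rw [(mix_summable hp hs h sym hS).tsum_sigma]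
  apply tsum_congr
  intro k
  exact (mix_fiber p hp h sym hG hS k).tsum_eq

/-- The offspring mixture of a good symmetric channel is good. -/
theorem mix_good {p : ℕ → ℝ} (hp : ∀ k, 0 ≤ p k) (hs : HasSum p 1) {ℓ : Ω → Fin 3 → ℝ} (h : GoodT ℓ)
    (sym : IsSym ℓ) :
    GoodT (mixCh p ℓ) ∧ ∑' k, p k * (1 - 1 / 1000 * ExT ℓ GS) ^ k ≤ 1 - 1 / 1000 * ExT (mixCh p ℓ) GS := by
  have hsum := hs.summable
  refine ⟨⟨mix_nn hp h sym, mix_summ hp hsum h sym, ?_, ?_⟩, ?_⟩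
  · rw [mix_Ex hp hsum h sym Hom0_GM SG_GM]
    have : (fun k => p k * ExT (powCh ℓ k) GM) = p := by
      funext k
      rw [(powT_good h sym k).1.mass, mul_one]
    rw [this]
    exact hs.tsum_eq
  · rw [mix_Ex hp hsum h sym Hom0_GPhi SG_GPhi]
    exact tsum_nonneg fun k => mul_nonneg (hp k) (powT_good h sym k).1.phi
  · have hA : Summable (fun k => p k * ExT (powCh ℓ k) GS) := by
      refine Summable.of_nonneg_of_le (fun k => mul_nonneg (hp k) (powT_good h sym k).1.S_nonneg) (fun k => ?_)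
        (hsum.mul_right 6)
      exact mul_le_mul_of_nonneg_left (powT_good h sym k).1.S_le (hp k)
    have ht0 : 0 ≤ 1 - 1 / 1000 * ExT ℓ GS := by
      have := h.S_le
      linarith
    have ht1 : 1 - 1 / 1000 * ExT ℓ GS ≤ 1 := by
      have := h.S_nonneg
      linarith
    have hB : Summable (fun k => p k * (1 - 1 / 1000 * ExT ℓ GS) ^ k) := by
      refine Summable.of_nonneg_of_le (fun k => mul_nonneg (hp k) (by positivity)) (fun k => ?_) hsum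
      have : (1 - 1 / 1000 * ExT ℓ GS) ^ k ≤ 1 := pow_le_one₀ ht0 ht1
      have := mul_le_mul_of_nonneg_left this (hp k)
      linarith
    have hR : HasSum (fun k => p k - 1 / 1000 * (p k * ExT (powCh ℓ k) GS))
        (1 - 1 / 1000 * ExT (mixCh p ℓ) GS) := by
      rw [mix_Ex hp hsum h sym Hom0_GS SG_GS]
      exact hs.sub (hA.hasSum.mul_left _)
    refine hasSum_le (fun k => ?_) hB.hasSum hR
    have := mul_le_mul_of_nonneg_left (powT_good h sym k).2 (hp k)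
    linarith

/-- Elementary bound on the generating function. -/
theorem gen_lower {p : ℕ → ℝ} (hp : ∀ k, 0 ≤ p k) (hs : HasSum p 1) {m : ℝ} (hm : HasSum (fun k : ℕ => (k : ℝ) * p k) m)
    {u : ℝ} (hu0 : 0 ≤ u) (hu1 : u ≤ 1) :
    1 - m * u + (1 - p 0 - p 1) * u ^ 2 ≤ ∑' k, p k * (1 - u) ^ k := by
  have hsum := hs.summable
  have hB : Summable (fun k => p k * (1 - u) ^ k) := by
    refine Summable.of_nonneg_of_le (fun k => mul_nonneg (hp k) (pow_nonneg (by linarith) k)) (fun k => ?_) hsum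
    have : (1 - u) ^ k ≤ 1 := pow_le_one₀ (by linarith) (by linarith)
    have := mul_le_mul_of_nonneg_left this (hp k)
    linarith
  have hL : HasSum (fun k : ℕ => p k - ((k : ℝ) * p k) * u + p k * u ^ 2 - (if k = 0 then p 0 * u ^ 2 else 0)
      - (if k = 1 then p 1 * u ^ 2 else 0)) (1 - m * u + 1 * u ^ 2 - p 0 * u ^ 2 - p 1 * u ^ 2) :=
    (((hs.sub (hm.mul_right u)).add (hs.mul_right _)).sub (hasSum_ite_eq 0 _)).sub (hasSum_ite_eq 1 _)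
  have hle := hasSum_le (fun k => ?_) hL hB.hasSum
  · linarith
  · have hp' := hp k
    rcases Nat.lt_or_ge k 2 with hk | hk
    · interval_cases k
      · simp
      · simp
        apply le_of_eq
        ring
    · have h1 := pow_lower u hu0 hu1 k hk
      have h2 := mul_le_mul_of_nonneg_left h1 hp'
      have h3 : k ≠ 0 := by omega
      have h4 : k ≠ 1 := by omega
      simp only [h3, h4, if_false]
      nlinarith

end mix

end Vale.Agent.Lib.P154
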