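import Vale.Agent.Lib.P154.BBMain
import Vale.Agent.Lib.P154.Domain

namespace Vale.Agent.Lib.P154

open BB

/-- The invariant functional on a normalised vector. -/
noncomputable def sphi (a₁ a₂ a₃ : ℝ) : ℝ :=
  sT a₁ a₂ a₃ + 3 / 5 * (sS a₁ a₂ a₃ - 6 + 6 * gv a₁ a₂ a₃)

/-- The nonnegative weight on a normalised vector. -/
noncomputable def sxi (a₁ a₂ a₃ : ℝ) : ℝ :=
  2 / 25 * (sS a₁ a₂ a₃ - sT a₁ a₂ a₃) + 1 / 20 * sS a₁ a₂ a₃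

/-- A normalised positive vector. -/
structure NP (a₁ a₂ a₃ : ℝ) : Prop where
  p₁ : 0 < a₁
  p₂ : 0 < a₂
  p₃ : 0 < a₃
  sum : a₁ + a₂ + a₃ = 3

theorem NP.dom {a₁ a₂ a₃ : ℝ} (h : NP a₁ a₂ a₃) (hS : 0 < sS a₁ a₂ a₃) :
    Dom (sS a₁ a₂ a₃) (sT a₁ a₂ a₃ / sS a₁ a₂ a₃) (gv a₁ a₂ a₃) := by
  have h1 := h.p₁
  have h2 := h.p₂
  have h3 := h.p₃
  have hs := h.sum
  refine ⟨hS, sS_le_six hs h1.le h2.le h3.le, ?_, ?_, ?_, gv_nonneg' h1.le h2.le h3.le,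
    gv_le_one hs h1.le h2.le h3.le, ?_⟩
  · rw [le_div_iff₀ hS]
    have := sT_ge hs h1.le h2.le h3.le
    linarith
  · rw [div_le_iff₀ hS]
    have := sT_le_sS hs h1.le h2.le h3.le
    linarith
  · have := disc_ineq hs
    rw [div_pow]
    have e : 6 * (sT a₁ a₂ a₃ ^ 2 / sS a₁ a₂ a₃ ^ 2) = (6 * sT a₁ a₂ a₃ ^ 2) / sS a₁ a₂ a₃ ^ 2 := by ring
    rw [e, div_le_iff₀ (by positivity)]
    nlinarith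
  · rw [gv_cube h1.le h2.le h3.le, eps_eq hs]
    field_simp
    ring

theorem sphi_eq {a₁ a₂ a₃ : ℝ} (hS : 0 < sS a₁ a₂ a₃) :
    sphi a₁ a₂ a₃ = sS a₁ a₂ a₃ * fval (sS a₁ a₂ a₃) (sT a₁ a₂ a₃ / sS a₁ a₂ a₃) (gv a₁ a₂ a₃) := by
  unfold sphi fval
  field_simp
  ring

theorem sxi_eq {a₁ a₂ a₃ : ℝ} (hS : 0 < sS a₁ a₂ a₃) :
    sxi a₁ a₂ a₃ = sS a₁ a₂ a₃ * (2 / 25 * (1 - sT a₁ a₂ a₃ / sS a₁ a₂ a₃) + 1 / 20) := by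
  unfold sxi
  field_simp

/-- The inequality (A) for nonconstant vectors. -/
theorem pairA_main {a₁ a₂ a₃ b₁ b₂ b₃ : ℝ} (ha : NP a₁ a₂ a₃) (hb : NP b₁ b₂ b₃)
    (hS₁ : 0 < sS a₁ a₂ a₃) (hS₂ : 0 < sS b₁ b₂ b₃) :
    avg6 GS a₁ a₂ a₃ b₁ b₂ b₃ ≤ sS a₁ a₂ a₃ + sS b₁ b₂ b₃ - sxi b₁ b₂ b₃ * sphi a₁ a₂ a₃
      - sxi a₁ a₂ a₃ * sphi b₁ b₂ b₃ - 1 / 1000 * (sS a₁ a₂ a₃ * sS b₁ b₂ b₃) := by
  have d1 := ha.dom hS₁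
  have d2 := hb.dom hS₂
  have hG := bbMain d1 d2
  set S₁ := sS a₁ a₂ a₃ with hS₁def
  set S₂ := sS b₁ b₂ b₃ with hS₂def
  set T₁ := sT a₁ a₂ a₃ with hT₁def
  set T₂ := sT b₁ b₂ b₃ with hT₂def
  set f₁ := fval S₁ (T₁ / S₁) (gv a₁ a₂ a₃) with hf₁
  set f₂ := fval S₂ (T₂ / S₂) (gv b₁ b₂ b₃) with hf₂
  have hB : sxi b₁ b₂ b₃ * sphi a₁ a₂ a₃ + sxi a₁ a₂ a₃ * sphi b₁ b₂ b₃ + 1 / 1000 * (S₁ * S₂)
      = S₁ * S₂ * Bv (T₁ / S₁) (T₂ / S₂) f₁ f₂ := by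
    rw [sphi_eq hS₁, sphi_eq hS₂, sxi_eq hS₁, sxi_eq hS₂]
    unfold Bv
    ring
  suffices h : S₁ * S₂ * Bv (T₁ / S₁) (T₂ / S₂) f₁ f₂ ≤ S₁ + S₂ - avg6 GS a₁ a₂ a₃ b₁ b₂ b₃ by
    linarith
  unfold Goal at hG
  rcases hG with hG | hG
  · have hE := bigE_pos a₁ a₂ a₃ b₁ b₂ b₃ ha.p₁ ha.p₂ ha.p₃ hb.p₁ hb.p₂ hb.p₃ ha.sum hb.sum
    have hL := loss_lower a₁ a₂ a₃ b₁ b₂ b₃ ha.p₁ ha.p₂ ha.p₃ hb.p₁ hb.p₂ hb.p₃ ha.sum hb.sum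
    have eE : bigE S₁ T₁ S₂ T₂ = E00 S₁ (T₁ / S₁) S₂ (T₂ / S₂) := by
      unfold bigE E00
      field_simp
      ring
    have eP : bigP S₁ T₁ S₂ T₂ = S₁ * S₂ * R0 S₁ (T₁ / S₁) S₂ (T₂ / S₂) := by
      unfold bigP R0
      field_simp
    rw [eE] at hE hL
    rw [eP] at hL
    have h1 := hG hE.le
    have h2 : 0 ≤ S₁ * S₂ * (R0 S₁ (T₁ / S₁) S₂ (T₂ / S₂)
        - E00 S₁ (T₁ / S₁) S₂ (T₂ / S₂) * Bv (T₁ / S₁) (T₂ / S₂) f₁ f₂) :=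
      mul_nonneg (by positivity) h1
    have h3 : E00 S₁ (T₁ / S₁) S₂ (T₂ / S₂) * (S₁ * S₂ * Bv (T₁ / S₁) (T₂ / S₂) f₁ f₂)
        ≤ E00 S₁ (T₁ / S₁) S₂ (T₂ / S₂) * (S₁ + S₂ - avg6 GS a₁ a₂ a₃ b₁ b₂ b₃) := by
      nlinarith
    exact le_of_mul_le_mul_left h3 hE
  · have hX := xSum_nonneg a₁ a₂ a₃ b₁ b₂ b₃ ha.p₁ ha.p₂ ha.p₃ hb.p₁ hb.p₂ hb.p₃
    have hK := avg6_GS_eq a₁ a₂ a₃ b₁ b₂ b₃ ha.p₁ ha.p₂ ha.p₃ hb.p₁ hb.p₂ hb.p₃ ha.sum hb.sum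
    linarith

theorem eq_one_of_sS_eq_zero {a₁ a₂ a₃ : ℝ} (hs : a₁ + a₂ + a₃ = 3) (h : sS a₁ a₂ a₃ = 0) :
    a₁ = 1 ∧ a₂ = 1 ∧ a₃ = 1 := by
  rw [sS_eq_sq hs] at h
  have h1 : (a₁ - 1) ^ 2 = 0 := by nlinarith [sq_nonneg (a₁ - 1), sq_nonneg (a₂ - 1), sq_nonneg (a₃ - 1)]
  have h2 : (a₂ - 1) ^ 2 = 0 := by nlinarith [sq_nonneg (a₁ - 1), sq_nonneg (a₂ - 1), sq_nonneg (a₃ - 1)]
  have h3 : (a₃ - 1) ^ 2 = 0 := by nlinarith [sq_nonneg (a₁ - 1), sq_nonneg (a₂ - 1), sq_nonneg (a₃ - 1)]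
  refine ⟨?_, ?_, ?_⟩ <;> nlinarith [pow_eq_zero_iff (n := 2) (by norm_num) |>.1 h1, pow_eq_zero_iff (n := 2) (by norm_num) |>.1 h2, pow_eq_zero_iff (n := 2) (by norm_num) |>.1 h3]

theorem GS_norm {x y z : ℝ} (h : x + y + z = 3) : GS x y z = sS x y z := by
  unfold GS sS
  rw [h]
  ring

theorem sS_perm1 (x y z : ℝ) : sS y z x = sS x y z := by unfold sS; ring
theorem sS_perm2 (x y z : ℝ) : sS z x y = sS x y z := by unfold sS; ring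
theorem sS_perm3 (x y z : ℝ) : sS x z y = sS x y z := by unfold sS; ring
theorem sS_perm4 (x y z : ℝ) : sS y x z = sS x y z := by unfold sS; ring
theorem sS_perm5 (x y z : ℝ) : sS z y x = sS x y z := by unfold sS; ring

theorem gv_one : gv 1 1 1 = 1 := by
  unfold gv; norm_num

theorem sphi_one : sphi 1 1 1 = 0 := by
  unfold sphi
  rw [gv_one]
  unfold sT sS
  norm_num

theorem sxi_one : sxi 1 1 1 = 0 := by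
  unfold sxi sT sS
  norm_num

theorem GS_symm1 (x y z : ℝ) : GS y z x = GS x y z := by
  unfold GS
  rw [show y + z + x = x + y + z by ring, show y ^ 2 + z ^ 2 + x ^ 2 = x ^ 2 + y ^ 2 + z ^ 2 by ring]

theorem GS_symm2 (x y z : ℝ) : GS x z y = GS x y z := by
  unfold GS
  rw [show x + z + y = x + y + z by ring, show x ^ 2 + z ^ 2 + y ^ 2 = x ^ 2 + y ^ 2 + z ^ 2 by ring]

/-- The average over arrangements when the first vector is constant. -/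
theorem avg6_one_left (G : ℝ → ℝ → ℝ → ℝ) (h1 : ∀ x y z, G y z x = G x y z) (h2 : ∀ x y z, G x z y = G x y z)
    (b₁ b₂ b₃ : ℝ) : avg6 G 1 1 1 b₁ b₂ b₃ = G b₁ b₂ b₃ := by
  unfold avg6
  simp only [one_mul]
  have e2 : G b₂ b₃ b₁ = G b₁ b₂ b₃ := h1 _ _ _
  have e3 : G b₃ b₁ b₂ = G b₁ b₂ b₃ := (h1 b₂ b₃ b₁).trans (h1 b₁ b₂ b₃)
  have e4 : G b₁ b₃ b₂ = G b₁ b₂ b₃ := h2 _ _ _
  have e5 : G b₂ b₁ b₃ = G b₁ b₂ b₃ := (h2 b₂ b₃ b₁).trans e2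
  have e6 : G b₃ b₂ b₁ = G b₁ b₂ b₃ := (h2 b₃ b₁ b₂).trans e3
  rw [e2, e3, e4, e5, e6]
  ring

/-- The average over arrangements when the second vector is constant. -/
theorem avg6_one_right (G : ℝ → ℝ → ℝ → ℝ) (a₁ a₂ a₃ : ℝ) : avg6 G a₁ a₂ a₃ 1 1 1 = G a₁ a₂ a₃ := by
  unfold avg6
  simp only [mul_one]
  ring

/-- The inequality (A). -/
theorem pairA {a₁ a₂ a₃ b₁ b₂ b₃ : ℝ} (ha : NP a₁ a₂ a₃) (hb : NP b₁ b₂ b₃) :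
    avg6 GS a₁ a₂ a₃ b₁ b₂ b₃ ≤ sS a₁ a₂ a₃ + sS b₁ b₂ b₃ - sxi b₁ b₂ b₃ * sphi a₁ a₂ a₃
      - sxi a₁ a₂ a₃ * sphi b₁ b₂ b₃ - 1 / 1000 * (sS a₁ a₂ a₃ * sS b₁ b₂ b₃) := by
  rcases (sS_nonneg ha.sum).eq_or_lt with h1 | h1
  · obtain ⟨e1, e2, e3⟩ := eq_one_of_sS_eq_zero ha.sum h1.symm
    subst e1 e2 e3
    rw [avg6_one_left GS GS_symm1 GS_symm2, sphi_one, sxi_one, ← h1, GS_norm hb.sum]
    simp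
  · rcases (sS_nonneg hb.sum).eq_or_lt with h2 | h2
    · obtain ⟨e1, e2, e3⟩ := eq_one_of_sS_eq_zero hb.sum h2.symm
      subst e1 e2 e3
      rw [avg6_one_right, sphi_one, sxi_one, ← h2, GS_norm ha.sum]
      simp
    · exact pairA_main ha hb h1 h2

end Vale.Agent.Lib.P154
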