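import Mathlib

namespace Vale.Agent.Lib.P154

/-- The polynomial for the invariance inequality. -/
noncomputable def Pfun (t₁ t₂ : ℝ) : ℝ :=
  (1 / 6 - 21 / 500 * (2 - (t₁ + t₂)) + (1 - t₁) * (1 - t₂) * (1 / 3)) * (1 - t₁ * t₂) * (1 + 2 * (t₁ * t₂))
    - 7 / 10 * ((1 - t₁) * (1 - t₂)) * ((t₁ + t₂) + t₁ * t₂)

theorem Pfun_box0 (t₁ t₂ : ℝ) (h1 : -1/2 ≤ t₁) (h2 : t₁ ≤ 1/4) (h3 : -1/2 ≤ t₂) (h4 : t₂ ≤ 1/4) :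
    0 ≤ Pfun t₁ t₂ := by
  have key : ∀ u v w z : ℝ, 0 ≤ u → 0 ≤ v → 0 ≤ w → 0 ≤ z → 0 ≤ 353408/30375 * u ^ 0 * v ^ 3 * w ^ 0 * z ^ 3 + 264224/10125 * u ^ 0 * v ^ 3 * w ^ 1 * z ^ 2 + 537568/30375 * u ^ 0 * v ^ 3 * w ^ 2 * z ^ 1 + 38264/10125 * u ^ 0 * v ^ 3 * w ^ 3 * z ^ 0 + 264224/10125 * u ^ 1 * v ^ 2 * w ^ 0 * z ^ 3 + 1535456/30375 * u ^ 1 * v ^ 2 * w ^ 1 * z ^ 2 + 188792/6075 * u ^ 1 * v ^ 2 * w ^ 2 * z ^ 1 + 192176/30375 * u ^ 1 * v ^ 2 * w ^ 3 * z ^ 0 + 537568/30375 * u ^ 2 * v ^ 1 * w ^ 0 * z ^ 3 + 188792/6075 * u ^ 2 * v ^ 1 * w ^ 1 * z ^ 2 + 99976/6075 * u ^ 2 * v ^ 1 * w ^ 2 * z ^ 1 + 90122/30375 * u ^ 2 * v ^ 1 * w ^ 3 * z ^ 0 + 38264/10125 * u ^ 3 * v ^ 0 * w ^ 0 * z ^ 3 + 192176/30375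 * u ^ 3 * v ^ 0 * w ^ 1 * z ^ 2 + 90122/30375 * u ^ 3 * v ^ 0 * w ^ 2 * z ^ 1 + 974/2025 * u ^ 3 * v ^ 0 * w ^ 3 * z ^ 0 := by
    intro u v w z _ _ _ _
    positivity
  have := key (t₁ - (-1/2)) (1/4 - t₁) (t₂ - (-1/2)) (1/4 - t₂) (by linarith) (by linarith) (by linarith) (by linarith)
  have e : Pfun t₁ t₂ = 353408/30375 * (t₁ - (-1/2)) ^ 0 * (1/4 - t₁) ^ 3 * (t₂ - (-1/2)) ^ 0 * (1/4 - t₂) ^ 3 + 264224/10125 * (t₁ - (-1/2)) ^ 0 * (1/4 - t₁) ^ 3 * (t₂ - (-1/2)) ^ 1 * (1/4 - t₂) ^ 2 + 537568/30375 * (t₁ - (-1/2)) ^ 0 * (1/4 - t₁) ^ 3 * (t₂ - (-1/2)) ^ 2 * (1/4 - t₂) ^ 1 + 38264/10125 * (t₁ - (-1/2)) ^ 0 * (1/4 - t₁) ^ 3 * (t₂ - (-1/2)) ^ 3 * (1/4 - t₂) ^ 0 + 264224/10125 * (t₁ - (-1/2))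 ^ 1 * (1/4 - t₁) ^ 2 * (t₂ - (-1/2)) ^ 0 * (1/4 - t₂) ^ 3 + 1535456/30375 * (t₁ - (-1/2)) ^ 1 * (1/4 - t₁) ^ 2 * (t₂ - (-1/2)) ^ 1 * (1/4 - t₂) ^ 2 + 188792/6075 * (t₁ - (-1/2)) ^ 1 * (1/4 - t₁) ^ 2 * (t₂ - (-1/2)) ^ 2 * (1/4 - t₂) ^ 1 + 192176/30375 * (t₁ - (-1/2)) ^ 1 * (1/4 - t₁) ^ 2 * (t₂ - (-1/2)) ^ 3 * (1/4 - t₂) ^ 0 + 537568/30375 * (t₁ - (-1/2)) ^ 2 * (1/4 - t₁) ^ 1 * (t₂ - (-1/2)) ^ 0 * (1/4 - t₂) ^ 3 + 188792/6075 * (t₁ - (-1/2)) ^ 2 * (1/4 - t₁) ^ 1 * (t₂ - (-1/2)) ^ 1 * (1/4 - t₂) ^ 2 + 99976/6075 * (t₁ - (-1/2)) ^ 2 * (1/4 - t₁) ^ 1 * (t₂ - (-1/2)) ^ 2 * (1/4 - t₂) ^ 1 + 90122/30375 * (t₁ - (-1/2)) ^ 2 * (1/4 - t₁) ^ 1 * (t₂ - (-1/2)) ^ 3 * (1/4 - t₂) ^ 0 + 38264/10125 * (t₁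 - (-1/2)) ^ 3 * (1/4 - t₁) ^ 0 * (t₂ - (-1/2)) ^ 0 * (1/4 - t₂) ^ 3 + 192176/30375 * (t₁ - (-1/2)) ^ 3 * (1/4 - t₁) ^ 0 * (t₂ - (-1/2)) ^ 1 * (1/4 - t₂) ^ 2 + 90122/30375 * (t₁ - (-1/2)) ^ 3 * (1/4 - t₁) ^ 0 * (t₂ - (-1/2)) ^ 2 * (1/4 - t₂) ^ 1 + 974/2025 * (t₁ - (-1/2)) ^ 3 * (1/4 - t₁) ^ 0 * (t₂ - (-1/2)) ^ 3 * (1/4 - t₂) ^ 0 := by
    unfold Pfun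
    ring
  rw [e]
  exact this

theorem Pfun_box1 (t₁ t₂ : ℝ) (h1 : -1/2 ≤ t₁) (h2 : t₁ ≤ -1/8) (h3 : 1/4 ≤ t₂) (h4 : t₂ ≤ 5/8) :
    0 ≤ Pfun t₁ t₂ := by
  have key : ∀ u v w z : ℝ, 0 ≤ u → 0 ≤ v → 0 ≤ w → 0 ≤ z → 0 ≤ 2448896/10125 * u ^ 0 * v ^ 3 * w ^ 0 * z ^ 3 + 3171584/6075 * u ^ 0 * v ^ 3 * w ^ 1 * z ^ 2 + 1185152/3375 * u ^ 0 * v ^ 3 * w ^ 2 * z ^ 1 + 457408/6075 * u ^ 0 * v ^ 3 * w ^ 3 * z ^ 0 + 17169664/30375 * u ^ 1 * v ^ 2 * w ^ 0 * z ^ 3 + 36356864/30375 * u ^ 1 * v ^ 2 * w ^ 1 * z ^ 2 + 24483136/30375 * u ^ 1 * v ^ 2 * w ^ 2 * z ^ 1 + 1819264/10125 * u ^ 1 * v ^ 2 * w ^ 3 * z ^ 0 + 174688/405 * u ^ 2 * v ^ 1 * w ^ 0 * z ^ 3 + 26953168/30375 * u ^ 2 * v ^ 1 * w ^ 1 * z ^ 2 +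 17995256/30375 * u ^ 2 * v ^ 1 * w ^ 2 * z ^ 1 + 4199884/30375 * u ^ 2 * v ^ 1 * w ^ 3 * z ^ 0 + 131744/1215 * u ^ 3 * v ^ 0 * w ^ 0 * z ^ 3 + 16136/75 * u ^ 3 * v ^ 0 * w ^ 1 * z ^ 2 + 4301968/30375 * u ^ 3 * v ^ 0 * w ^ 2 * z ^ 1 + 118498/3375 * u ^ 3 * v ^ 0 * w ^ 3 * z ^ 0 := by
    intro u v w z _ _ _ _
    positivity
  have := key (t₁ - (-1/2)) (-1/8 - t₁) (t₂ - (1/4)) (5/8 - t₂) (by linarith) (by linarith) (by linarith) (by linarith)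
  have e : Pfun t₁ t₂ = 2448896/10125 * (t₁ - (-1/2)) ^ 0 * (-1/8 - t₁) ^ 3 * (t₂ - (1/4)) ^ 0 * (5/8 - t₂) ^ 3 + 3171584/6075 * (t₁ - (-1/2)) ^ 0 * (-1/8 - t₁) ^ 3 * (t₂ - (1/4)) ^ 1 * (5/8 - t₂) ^ 2 + 1185152/3375 * (t₁ - (-1/2)) ^ 0 * (-1/8 - t₁) ^ 3 * (t₂ - (1/4)) ^ 2 * (5/8 - t₂) ^ 1 + 457408/6075 * (t₁ - (-1/2)) ^ 0 * (-1/8 - t₁) ^ 3 * (t₂ - (1/4)) ^ 3 * (5/8 - t₂) ^ 0 + 17169664/30375 * (t₁ - (-1/2)) ^ 1 * (-1/8 - t₁) ^ 2 * (t₂ - (1/4)) ^ 0 * (5/8 - t₂) ^ 3 + 36356864/30375 * (t₁ - (-1/2)) ^ 1 * (-1/8 - t₁) ^ 2 * (t₂ - (1/4)) ^ 1 * (5/8 - t₂) ^ 2 + 24483136/30375 * (t₁ - (-1/2)) ^ 1 * (-1/8 - t₁) ^ 2 * (t₂ - (1/4)) ^ 2 * (5/8 - t₂) ^ 1 + 1819264/10125 * (t₁ - (-1/2)) ^ 1 * (-1/8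 - t₁) ^ 2 * (t₂ - (1/4)) ^ 3 * (5/8 - t₂) ^ 0 + 174688/405 * (t₁ - (-1/2)) ^ 2 * (-1/8 - t₁) ^ 1 * (t₂ - (1/4)) ^ 0 * (5/8 - t₂) ^ 3 + 26953168/30375 * (t₁ - (-1/2)) ^ 2 * (-1/8 - t₁) ^ 1 * (t₂ - (1/4)) ^ 1 * (5/8 - t₂) ^ 2 + 17995256/30375 * (t₁ - (-1/2)) ^ 2 * (-1/8 - t₁) ^ 1 * (t₂ - (1/4)) ^ 2 * (5/8 - t₂) ^ 1 + 4199884/30375 * (t₁ - (-1/2)) ^ 2 * (-1/8 - t₁) ^ 1 * (t₂ - (1/4)) ^ 3 * (5/8 - t₂) ^ 0 + 131744/1215 * (t₁ - (-1/2)) ^ 3 * (-1/8 - t₁) ^ 0 * (t₂ - (1/4)) ^ 0 * (5/8 - t₂) ^ 3 + 16136/75 * (t₁ - (-1/2)) ^ 3 * (-1/8 - t₁) ^ 0 * (t₂ - (1/4)) ^ 1 * (5/8 - t₂) ^ 2 + 4301968/30375 * (t₁ - (-1/2)) ^ 3 * (-1/8 - t₁) ^ 0 * (t₂ - (1/4)) ^ 2 * (5/8 - t₂) ^ 1 + 118498/3375 * (t₁ - (-1/2))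 ^ 3 * (-1/8 - t₁) ^ 0 * (t₂ - (1/4)) ^ 3 * (5/8 - t₂) ^ 0 := by
    unfold Pfun
    ring
  rw [e]
  exact this

theorem Pfun_box2 (t₁ t₂ : ℝ) (h1 : -1/2 ≤ t₁) (h2 : t₁ ≤ -1/8) (h3 : 5/8 ≤ t₂) (h4 : t₂ ≤ 1) :
    0 ≤ Pfun t₁ t₂ := by
  have key : ∀ u v w z : ℝ, 0 ≤ u → 0 ≤ v → 0 ≤ w → 0 ≤ z → 0 ≤ 457408/6075 * u ^ 0 * v ^ 3 * w ^ 0 * z ^ 3 + 1018624/10125 * u ^ 0 * v ^ 3 * w ^ 1 * z ^ 2 + 636928/30375 * u ^ 0 * v ^ 3 * w ^ 2 * z ^ 1 + 1819264/10125 * u ^ 1 * v ^ 2 * w ^ 0 * z ^ 3 + 8263616/30375 * u ^ 1 * v ^ 2 * w ^ 1 * z ^ 2 + 3917824/30375 * u ^ 1 * v ^ 2 * w ^ 2 * z ^ 1 + 1273856/30375 * u ^ 1 * v ^ 2 * w ^ 3 * z ^ 0 + 4199884/30375 * u ^ 2 * v ^ 1 * w ^ 0 * z ^ 3 + 7204048/30375 * u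 ^ 2 * v ^ 1 * w ^ 1 * z ^ 2 + 5370752/30375 * u ^ 2 * v ^ 1 * w ^ 2 * z ^ 1 + 2422784/30375 * u ^ 2 * v ^ 1 * w ^ 3 * z ^ 0 + 118498/3375 * u ^ 3 * v ^ 0 * w ^ 0 * z ^ 3 + 2096924/30375 * u ^ 3 * v ^ 0 * w ^ 1 * z ^ 2 + 2124992/30375 * u ^ 3 * v ^ 0 * w ^ 2 * z ^ 1 + 366848/10125 * u ^ 3 * v ^ 0 * w ^ 3 * z ^ 0 := by
    intro u v w z _ _ _ _
    positivity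
  have := key (t₁ - (-1/2)) (-1/8 - t₁) (t₂ - (5/8)) (1 - t₂) (by linarith) (by linarith) (by linarith) (by linarith)
  have e : Pfun t₁ t₂ = 457408/6075 * (t₁ - (-1/2)) ^ 0 * (-1/8 - t₁) ^ 3 * (t₂ - (5/8)) ^ 0 * (1 - t₂) ^ 3 + 1018624/10125 * (t₁ - (-1/2)) ^ 0 * (-1/8 - t₁) ^ 3 * (t₂ - (5/8)) ^ 1 * (1 - t₂) ^ 2 + 636928/30375 * (t₁ - (-1/2)) ^ 0 * (-1/8 - t₁) ^ 3 * (t₂ - (5/8)) ^ 2 * (1 - t₂) ^ 1 + 1819264/10125 * (t₁ - (-1/2)) ^ 1 * (-1/8 - t₁) ^ 2 * (t₂ - (5/8)) ^ 0 * (1 - t₂) ^ 3 + 8263616/30375 * (t₁ - (-1/2)) ^ 1 * (-1/8 - t₁) ^ 2 * (t₂ - (5/8)) ^ 1 * (1 - t₂) ^ 2 + 3917824/30375 * (t₁ - (-1/2)) ^ 1 * (-1/8 - t₁) ^ 2 * (t₂ - (5/8)) ^ 2 * (1 - t₂) ^ 1 + 1273856/30375 * (t₁ - (-1/2))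 ^ 1 * (-1/8 - t₁) ^ 2 * (t₂ - (5/8)) ^ 3 * (1 - t₂) ^ 0 + 4199884/30375 * (t₁ - (-1/2)) ^ 2 * (-1/8 - t₁) ^ 1 * (t₂ - (5/8)) ^ 0 * (1 - t₂) ^ 3 + 7204048/30375 * (t₁ - (-1/2)) ^ 2 * (-1/8 - t₁) ^ 1 * (t₂ - (5/8)) ^ 1 * (1 - t₂) ^ 2 + 5370752/30375 * (t₁ - (-1/2)) ^ 2 * (-1/8 - t₁) ^ 1 * (t₂ - (5/8)) ^ 2 * (1 - t₂) ^ 1 + 2422784/30375 * (t₁ - (-1/2)) ^ 2 * (-1/8 - t₁) ^ 1 * (t₂ - (5/8)) ^ 3 * (1 - t₂) ^ 0 + 118498/3375 * (t₁ - (-1/2)) ^ 3 * (-1/8 - t₁) ^ 0 * (t₂ - (5/8)) ^ 0 * (1 - t₂) ^ 3 + 2096924/30375 * (t₁ - (-1/2)) ^ 3 * (-1/8 - t₁) ^ 0 * (t₂ - (5/8)) ^ 1 * (1 - t₂) ^ 2 + 2124992/30375 * (t₁ - (-1/2)) ^ 3 * (-1/8 - t₁) ^ 0 * (t₂ - (5/8)) ^ 2 * (1 - t₂) ^ 1 + 366848/10125 * (t₁ - (-1/2))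 ^ 3 * (-1/8 - t₁) ^ 0 * (t₂ - (5/8)) ^ 3 * (1 - t₂) ^ 0 := by
    unfold Pfun
    ring
  rw [e]
  exact this

theorem Pfun_box3 (t₁ t₂ : ℝ) (h1 : -1/8 ≤ t₁) (h2 : t₁ ≤ 1/4) (h3 : 1/4 ≤ t₂) (h4 : t₂ ≤ 5/8) :
    0 ≤ Pfun t₁ t₂ := by
  have key : ∀ u v w z : ℝ, 0 ≤ u → 0 ≤ v → 0 ≤ w → 0 ≤ z → 0 ≤ 131744/1215 * u ^ 0 * v ^ 3 * w ^ 0 * z ^ 3 + 16136/75 * u ^ 0 * v ^ 3 * w ^ 1 * z ^ 2 + 4301968/30375 * u ^ 0 * v ^ 3 * w ^ 2 * z ^ 1 + 118498/3375 * u ^ 0 * v ^ 3 * w ^ 3 * z ^ 0 + 5920/27 * u ^ 1 * v ^ 2 * w ^ 0 * z ^ 3 + 12257312/30375 * u ^ 1 * v ^ 2 * w ^ 1 * z ^ 2 + 7816552/30375 * u ^ 1 * v ^ 2 * w ^ 2 * z ^ 1 + 2199008/30375 * u ^ 1 * v ^ 2 * w ^ 3 * z ^ 0 + 4286464/30375 * u ^ 2 * v ^ 1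 * w ^ 0 * z ^ 3 + 6965152/30375 * u ^ 2 * v ^ 1 * w ^ 1 * z ^ 2 + 4125728/30375 * u ^ 2 * v ^ 1 * w ^ 2 * z ^ 1 + 291208/6075 * u ^ 2 * v ^ 1 * w ^ 3 * z ^ 0 + 62336/2025 * u ^ 3 * v ^ 0 * w ^ 0 * z ^ 3 + 1323776/30375 * u ^ 3 * v ^ 0 * w ^ 1 * z ^ 2 + 734624/30375 * u ^ 3 * v ^ 0 * w ^ 2 * z ^ 1 + 40096/3375 * u ^ 3 * v ^ 0 * w ^ 3 * z ^ 0 := by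
    intro u v w z _ _ _ _
    positivity
  have := key (t₁ - (-1/8)) (1/4 - t₁) (t₂ - (1/4)) (5/8 - t₂) (by linarith) (by linarith) (by linarith) (by linarith)
  have e : Pfun t₁ t₂ = 131744/1215 * (t₁ - (-1/8)) ^ 0 * (1/4 - t₁) ^ 3 * (t₂ - (1/4)) ^ 0 * (5/8 - t₂) ^ 3 + 16136/75 * (t₁ - (-1/8)) ^ 0 * (1/4 - t₁) ^ 3 * (t₂ - (1/4)) ^ 1 * (5/8 - t₂) ^ 2 + 4301968/30375 * (t₁ - (-1/8)) ^ 0 * (1/4 - t₁) ^ 3 * (t₂ - (1/4)) ^ 2 * (5/8 - t₂) ^ 1 + 118498/3375 * (t₁ - (-1/8)) ^ 0 * (1/4 - t₁) ^ 3 * (t₂ - (1/4)) ^ 3 * (5/8 - t₂) ^ 0 + 5920/27 * (t₁ - (-1/8)) ^ 1 * (1/4 - t₁) ^ 2 * (t₂ - (1/4)) ^ 0 * (5/8 - t₂) ^ 3 + 12257312/30375 * (t₁ - (-1/8)) ^ 1 * (1/4 - t₁) ^ 2 * (t₂ - (1/4)) ^ 1 * (5/8 - t₂)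 ^ 2 + 7816552/30375 * (t₁ - (-1/8)) ^ 1 * (1/4 - t₁) ^ 2 * (t₂ - (1/4)) ^ 2 * (5/8 - t₂) ^ 1 + 2199008/30375 * (t₁ - (-1/8)) ^ 1 * (1/4 - t₁) ^ 2 * (t₂ - (1/4)) ^ 3 * (5/8 - t₂) ^ 0 + 4286464/30375 * (t₁ - (-1/8)) ^ 2 * (1/4 - t₁) ^ 1 * (t₂ - (1/4)) ^ 0 * (5/8 - t₂) ^ 3 + 6965152/30375 * (t₁ - (-1/8)) ^ 2 * (1/4 - t₁) ^ 1 * (t₂ - (1/4)) ^ 1 * (5/8 - t₂) ^ 2 + 4125728/30375 * (t₁ - (-1/8)) ^ 2 * (1/4 - t₁) ^ 1 * (t₂ - (1/4)) ^ 2 * (5/8 - t₂) ^ 1 + 291208/6075 * (t₁ - (-1/8)) ^ 2 * (1/4 - t₁) ^ 1 * (t₂ - (1/4)) ^ 3 * (5/8 - t₂) ^ 0 + 62336/2025 * (t₁ - (-1/8)) ^ 3 * (1/4 - t₁) ^ 0 * (t₂ - (1/4)) ^ 0 * (5/8 - t₂) ^ 3 + 1323776/30375 * (t₁ - (-1/8)) ^ 3 * (1/4 - t₁) ^ 0 * (t₂ - (1/4)) ^ 1 *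 (5/8 - t₂) ^ 2 + 734624/30375 * (t₁ - (-1/8)) ^ 3 * (1/4 - t₁) ^ 0 * (t₂ - (1/4)) ^ 2 * (5/8 - t₂) ^ 1 + 40096/3375 * (t₁ - (-1/8)) ^ 3 * (1/4 - t₁) ^ 0 * (t₂ - (1/4)) ^ 3 * (5/8 - t₂) ^ 0 := by
    unfold Pfun
    ring
  rw [e]
  exact this

theorem Pfun_box4 (t₁ t₂ : ℝ) (h1 : -1/8 ≤ t₁) (h2 : t₁ ≤ 1/4) (h3 : 5/8 ≤ t₂) (h4 : t₂ ≤ 1) :
    0 ≤ Pfun t₁ t₂ := by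
  have key : ∀ u v w z : ℝ, 0 ≤ u → 0 ≤ v → 0 ≤ w → 0 ≤ z → 0 ≤ 118498/3375 * u ^ 0 * v ^ 3 * w ^ 0 * z ^ 3 + 2096924/30375 * u ^ 0 * v ^ 3 * w ^ 1 * z ^ 2 + 2124992/30375 * u ^ 0 * v ^ 3 * w ^ 2 * z ^ 1 + 366848/10125 * u ^ 0 * v ^ 3 * w ^ 3 * z ^ 0 + 2199008/30375 * u ^ 1 * v ^ 2 * w ^ 0 * z ^ 3 + 5377496/30375 * u ^ 1 * v ^ 2 * w ^ 1 * z ^ 2 + 295168/1215 * u ^ 1 * v ^ 2 * w ^ 2 * z ^ 1 + 836096/6075 * u ^ 1 * v ^ 2 * w ^ 3 * z ^ 0 + 291208/6075 * u ^ 2 * v ^ 1 * w ^ 0 * z ^ 3 + 4610512/30375 * u ^ 2 * v ^ 1 * w ^ 1 * z ^ 2 + 1586944/6075 * u ^ 2 * v ^ 1 * w ^ 2 * z ^ 1 + 1596416/10125 * u ^ 2 * v ^ 1 * w ^ 3 * z ^ 0 + 40096/3375 * u ^ 3 * v ^ 0 * w ^ 0 * z ^ 3 + 286112/6075 * u ^ 3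 * v ^ 0 * w ^ 1 * z ^ 2 + 905216/10125 * u ^ 3 * v ^ 0 * w ^ 2 * z ^ 1 + 1660928/30375 * u ^ 3 * v ^ 0 * w ^ 3 * z ^ 0 := by
    intro u v w z _ _ _ _
    positivity
  have := key (t₁ - (-1/8)) (1/4 - t₁) (t₂ - (5/8)) (1 - t₂) (by linarith) (by linarith) (by linarith) (by linarith)
  have e : Pfun t₁ t₂ = 118498/3375 * (t₁ - (-1/8)) ^ 0 * (1/4 - t₁) ^ 3 * (t₂ - (5/8)) ^ 0 * (1 - t₂) ^ 3 + 2096924/30375 * (t₁ - (-1/8)) ^ 0 * (1/4 - t₁) ^ 3 * (t₂ - (5/8)) ^ 1 * (1 - t₂) ^ 2 + 2124992/30375 * (t₁ - (-1/8)) ^ 0 * (1/4 - t₁) ^ 3 * (t₂ - (5/8)) ^ 2 * (1 - t₂) ^ 1 + 366848/10125 * (t₁ - (-1/8)) ^ 0 * (1/4 - t₁) ^ 3 * (t₂ - (5/8)) ^ 3 * (1 - t₂) ^ 0 + 2199008/30375 * (t₁ - (-1/8)) ^ 1 * (1/4 -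 t₁) ^ 2 * (t₂ - (5/8)) ^ 0 * (1 - t₂) ^ 3 + 5377496/30375 * (t₁ - (-1/8)) ^ 1 * (1/4 - t₁) ^ 2 * (t₂ - (5/8)) ^ 1 * (1 - t₂) ^ 2 + 295168/1215 * (t₁ - (-1/8)) ^ 1 * (1/4 - t₁) ^ 2 * (t₂ - (5/8)) ^ 2 * (1 - t₂) ^ 1 + 836096/6075 * (t₁ - (-1/8)) ^ 1 * (1/4 - t₁) ^ 2 * (t₂ - (5/8)) ^ 3 * (1 - t₂) ^ 0 + 291208/6075 * (t₁ - (-1/8)) ^ 2 * (1/4 - t₁) ^ 1 * (t₂ - (5/8)) ^ 0 * (1 - t₂) ^ 3 + 4610512/30375 * (t₁ - (-1/8)) ^ 2 * (1/4 - t₁) ^ 1 * (t₂ - (5/8)) ^ 1 * (1 - t₂) ^ 2 + 1586944/6075 * (t₁ - (-1/8)) ^ 2 * (1/4 - t₁) ^ 1 * (t₂ - (5/8)) ^ 2 * (1 - t₂) ^ 1 + 1596416/10125 * (t₁ - (-1/8)) ^ 2 * (1/4 - t₁) ^ 1 * (t₂ - (5/8)) ^ 3 * (1 - t₂) ^ 0 + 40096/3375 * (t₁ - (-1/8)) ^ 3 * (1/4 - t₁) ^ 0 *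 (t₂ - (5/8)) ^ 0 * (1 - t₂) ^ 3 + 286112/6075 * (t₁ - (-1/8)) ^ 3 * (1/4 - t₁) ^ 0 * (t₂ - (5/8)) ^ 1 * (1 - t₂) ^ 2 + 905216/10125 * (t₁ - (-1/8)) ^ 3 * (1/4 - t₁) ^ 0 * (t₂ - (5/8)) ^ 2 * (1 - t₂) ^ 1 + 1660928/30375 * (t₁ - (-1/8)) ^ 3 * (1/4 - t₁) ^ 0 * (t₂ - (5/8)) ^ 3 * (1 - t₂) ^ 0 := by
    unfold Pfun
    ring
  rw [e]
  exact this

theorem Pfun_box5 (t₁ t₂ : ℝ) (h1 : 1/4 ≤ t₁) (h2 : t₁ ≤ 5/8) (h3 : -1/2 ≤ t₂) (h4 : t₂ ≤ -1/8) :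
    0 ≤ Pfun t₁ t₂ := by
  have key : ∀ u v w z : ℝ, 0 ≤ u → 0 ≤ v → 0 ≤ w → 0 ≤ z → 0 ≤ 2448896/10125 * u ^ 0 * v ^ 3 * w ^ 0 * z ^ 3 + 17169664/30375 * u ^ 0 * v ^ 3 * w ^ 1 * z ^ 2 + 174688/405 * u ^ 0 * v ^ 3 * w ^ 2 * z ^ 1 + 131744/1215 * u ^ 0 * v ^ 3 * w ^ 3 * z ^ 0 + 3171584/6075 * u ^ 1 * v ^ 2 * w ^ 0 * z ^ 3 + 36356864/30375 * u ^ 1 * v ^ 2 * w ^ 1 * z ^ 2 + 26953168/30375 * u ^ 1 * v ^ 2 * w ^ 2 * z ^ 1 + 16136/75 * u ^ 1 * v ^ 2 * w ^ 3 * z ^ 0 + 1185152/3375 * u ^ 2 * v ^ 1 * w ^ 0 * z ^ 3 + 24483136/30375 * u ^ 2 * v ^ 1 * w ^ 1 * z ^ 2 + 17995256/30375 * u ^ 2 * v ^ 1 * w ^ 2 * z ^ 1 + 4301968/30375 * u ^ 2 * v ^ 1 * w ^ 3 * z ^ 0 + 457408/6075 * u ^ 3 * v ^ 0 * w ^ 0 *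 z ^ 3 + 1819264/10125 * u ^ 3 * v ^ 0 * w ^ 1 * z ^ 2 + 4199884/30375 * u ^ 3 * v ^ 0 * w ^ 2 * z ^ 1 + 118498/3375 * u ^ 3 * v ^ 0 * w ^ 3 * z ^ 0 := by
    intro u v w z _ _ _ _
    positivity
  have := key (t₁ - (1/4)) (5/8 - t₁) (t₂ - (-1/2)) (-1/8 - t₂) (by linarith) (by linarith) (by linarith) (by linarith)
  have e : Pfun t₁ t₂ = 2448896/10125 * (t₁ - (1/4)) ^ 0 * (5/8 - t₁) ^ 3 * (t₂ - (-1/2)) ^ 0 * (-1/8 - t₂) ^ 3 + 17169664/30375 * (t₁ - (1/4)) ^ 0 * (5/8 - t₁) ^ 3 * (t₂ - (-1/2)) ^ 1 * (-1/8 - t₂) ^ 2 + 174688/405 * (t₁ - (1/4)) ^ 0 * (5/8 - t₁) ^ 3 * (t₂ - (-1/2)) ^ 2 * (-1/8 - t₂) ^ 1 + 131744/1215 * (t₁ - (1/4)) ^ 0 * (5/8 - t₁) ^ 3 * (t₂ - (-1/2)) ^ 3 * (-1/8 - t₂) ^ 0 +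 3171584/6075 * (t₁ - (1/4)) ^ 1 * (5/8 - t₁) ^ 2 * (t₂ - (-1/2)) ^ 0 * (-1/8 - t₂) ^ 3 + 36356864/30375 * (t₁ - (1/4)) ^ 1 * (5/8 - t₁) ^ 2 * (t₂ - (-1/2)) ^ 1 * (-1/8 - t₂) ^ 2 + 26953168/30375 * (t₁ - (1/4)) ^ 1 * (5/8 - t₁) ^ 2 * (t₂ - (-1/2)) ^ 2 * (-1/8 - t₂) ^ 1 + 16136/75 * (t₁ - (1/4)) ^ 1 * (5/8 - t₁) ^ 2 * (t₂ - (-1/2)) ^ 3 * (-1/8 - t₂) ^ 0 + 1185152/3375 * (t₁ - (1/4)) ^ 2 * (5/8 - t₁) ^ 1 * (t₂ - (-1/2)) ^ 0 * (-1/8 - t₂) ^ 3 + 24483136/30375 * (t₁ - (1/4)) ^ 2 * (5/8 - t₁) ^ 1 * (t₂ - (-1/2)) ^ 1 * (-1/8 - t₂) ^ 2 + 17995256/30375 * (t₁ - (1/4)) ^ 2 * (5/8 - t₁) ^ 1 * (t₂ - (-1/2)) ^ 2 * (-1/8 - t₂) ^ 1 + 4301968/30375 * (t₁ - (1/4)) ^ 2 * (5/8 - t₁) ^ 1 * (t₂ - (-1/2)) ^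 3 * (-1/8 - t₂) ^ 0 + 457408/6075 * (t₁ - (1/4)) ^ 3 * (5/8 - t₁) ^ 0 * (t₂ - (-1/2)) ^ 0 * (-1/8 - t₂) ^ 3 + 1819264/10125 * (t₁ - (1/4)) ^ 3 * (5/8 - t₁) ^ 0 * (t₂ - (-1/2)) ^ 1 * (-1/8 - t₂) ^ 2 + 4199884/30375 * (t₁ - (1/4)) ^ 3 * (5/8 - t₁) ^ 0 * (t₂ - (-1/2)) ^ 2 * (-1/8 - t₂) ^ 1 + 118498/3375 * (t₁ - (1/4)) ^ 3 * (5/8 - t₁) ^ 0 * (t₂ - (-1/2)) ^ 3 * (-1/8 - t₂) ^ 0 := by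
    unfold Pfun
    ring
  rw [e]
  exact this

theorem Pfun_box6 (t₁ t₂ : ℝ) (h1 : 1/4 ≤ t₁) (h2 : t₁ ≤ 5/8) (h3 : -1/8 ≤ t₂) (h4 : t₂ ≤ 1/4) :
    0 ≤ Pfun t₁ t₂ := by
  have key : ∀ u v w z : ℝ, 0 ≤ u → 0 ≤ v → 0 ≤ w → 0 ≤ z → 0 ≤ 131744/1215 * u ^ 0 * v ^ 3 * w ^ 0 * z ^ 3 + 5920/27 * u ^ 0 * v ^ 3 * w ^ 1 * z ^ 2 + 4286464/30375 * u ^ 0 * v ^ 3 * w ^ 2 * z ^ 1 + 62336/2025 * u ^ 0 * v ^ 3 * w ^ 3 * z ^ 0 + 16136/75 * u ^ 1 * v ^ 2 * w ^ 0 * z ^ 3 + 12257312/30375 * u ^ 1 * v ^ 2 * w ^ 1 * z ^ 2 + 6965152/30375 * u ^ 1 * v ^ 2 * w ^ 2 * z ^ 1 + 1323776/30375 * u ^ 1 * v ^ 2 * w ^ 3 * z ^ 0 + 4301968/30375 * u ^ 2 * v ^ 1 * w ^ 0 * z ^ 3 + 7816552/30375 * u ^ 2 * v ^ 1 * w ^ 1 * z ^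 2 + 4125728/30375 * u ^ 2 * v ^ 1 * w ^ 2 * z ^ 1 + 734624/30375 * u ^ 2 * v ^ 1 * w ^ 3 * z ^ 0 + 118498/3375 * u ^ 3 * v ^ 0 * w ^ 0 * z ^ 3 + 2199008/30375 * u ^ 3 * v ^ 0 * w ^ 1 * z ^ 2 + 291208/6075 * u ^ 3 * v ^ 0 * w ^ 2 * z ^ 1 + 40096/3375 * u ^ 3 * v ^ 0 * w ^ 3 * z ^ 0 := by
    intro u v w z _ _ _ _
    positivity
  have := key (t₁ - (1/4)) (5/8 - t₁) (t₂ - (-1/8)) (1/4 - t₂) (by linarith) (by linarith) (by linarith) (by linarith)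
  have e : Pfun t₁ t₂ = 131744/1215 * (t₁ - (1/4)) ^ 0 * (5/8 - t₁) ^ 3 * (t₂ - (-1/8)) ^ 0 * (1/4 - t₂) ^ 3 + 5920/27 * (t₁ - (1/4)) ^ 0 * (5/8 - t₁) ^ 3 * (t₂ - (-1/8)) ^ 1 * (1/4 - t₂) ^ 2 + 4286464/30375 * (t₁ - (1/4)) ^ 0 * (5/8 - t₁) ^ 3 * (t₂ - (-1/8)) ^ 2 * (1/4 - t₂) ^ 1 + 62336/2025 * (t₁ - (1/4)) ^ 0 * (5/8 - t₁) ^ 3 * (t₂ - (-1/8)) ^ 3 * (1/4 - t₂) ^ 0 + 16136/75 * (t₁ - (1/4)) ^ 1 * (5/8 - t₁) ^ 2 * (t₂ - (-1/8)) ^ 0 * (1/4 - t₂) ^ 3 + 12257312/30375 * (t₁ - (1/4)) ^ 1 * (5/8 - t₁) ^ 2 * (t₂ - (-1/8)) ^ 1 * (1/4 - t₂) ^ 2 + 6965152/30375 * (t₁ - (1/4)) ^ 1 * (5/8 - t₁) ^ 2 * (t₂ - (-1/8)) ^ 2 * (1/4 - t₂) ^ 1 + 1323776/30375 * (t₁ - (1/4)) ^ 1 * (5/8 - t₁) ^ 2 * (t₂ - (-1/8))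 ^ 3 * (1/4 - t₂) ^ 0 + 4301968/30375 * (t₁ - (1/4)) ^ 2 * (5/8 - t₁) ^ 1 * (t₂ - (-1/8)) ^ 0 * (1/4 - t₂) ^ 3 + 7816552/30375 * (t₁ - (1/4)) ^ 2 * (5/8 - t₁) ^ 1 * (t₂ - (-1/8)) ^ 1 * (1/4 - t₂) ^ 2 + 4125728/30375 * (t₁ - (1/4)) ^ 2 * (5/8 - t₁) ^ 1 * (t₂ - (-1/8)) ^ 2 * (1/4 - t₂) ^ 1 + 734624/30375 * (t₁ - (1/4)) ^ 2 * (5/8 - t₁) ^ 1 * (t₂ - (-1/8)) ^ 3 * (1/4 - t₂) ^ 0 + 118498/3375 * (t₁ - (1/4)) ^ 3 * (5/8 - t₁) ^ 0 * (t₂ - (-1/8)) ^ 0 * (1/4 - t₂) ^ 3 + 2199008/30375 * (t₁ - (1/4)) ^ 3 * (5/8 - t₁) ^ 0 * (t₂ - (-1/8)) ^ 1 * (1/4 - t₂) ^ 2 + 291208/6075 * (t₁ - (1/4)) ^ 3 * (5/8 - t₁) ^ 0 * (t₂ - (-1/8)) ^ 2 * (1/4 - t₂) ^ 1 + 40096/3375 * (t₁ - (1/4)) ^ 3 * (5/8 - t₁) ^ 0 * (t₂ -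 (-1/8)) ^ 3 * (1/4 - t₂) ^ 0 := by
    unfold Pfun
    ring
  rw [e]
  exact this

theorem Pfun_box7 (t₁ t₂ : ℝ) (h1 : 5/8 ≤ t₁) (h2 : t₁ ≤ 1) (h3 : -1/2 ≤ t₂) (h4 : t₂ ≤ -1/8) :
    0 ≤ Pfun t₁ t₂ := by
  have key : ∀ u v w z : ℝ, 0 ≤ u → 0 ≤ v → 0 ≤ w → 0 ≤ z → 0 ≤ 457408/6075 * u ^ 0 * v ^ 3 * w ^ 0 * z ^ 3 + 1819264/10125 * u ^ 0 * v ^ 3 * w ^ 1 * z ^ 2 + 4199884/30375 * u ^ 0 * v ^ 3 * w ^ 2 * z ^ 1 + 118498/3375 * u ^ 0 * v ^ 3 * w ^ 3 * z ^ 0 + 1018624/10125 * u ^ 1 * v ^ 2 * w ^ 0 * z ^ 3 + 8263616/30375 * u ^ 1 * v ^ 2 * w ^ 1 * z ^ 2 + 7204048/30375 * u ^ 1 * v ^ 2 * w ^ 2 * z ^ 1 + 2096924/30375 * u ^ 1 * v ^ 2 * w ^ 3 * z ^ 0 + 636928/30375 * u ^ 2 * v ^ 1 * w ^ 0 * z ^ 3 +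 3917824/30375 * u ^ 2 * v ^ 1 * w ^ 1 * z ^ 2 + 5370752/30375 * u ^ 2 * v ^ 1 * w ^ 2 * z ^ 1 + 2124992/30375 * u ^ 2 * v ^ 1 * w ^ 3 * z ^ 0 + 1273856/30375 * u ^ 3 * v ^ 0 * w ^ 1 * z ^ 2 + 2422784/30375 * u ^ 3 * v ^ 0 * w ^ 2 * z ^ 1 + 366848/10125 * u ^ 3 * v ^ 0 * w ^ 3 * z ^ 0 := by
    intro u v w z _ _ _ _
    positivity
  have := key (t₁ - (5/8)) (1 - t₁) (t₂ - (-1/2)) (-1/8 - t₂) (by linarith) (by linarith) (by linarith) (by linarith)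
  have e : Pfun t₁ t₂ = 457408/6075 * (t₁ - (5/8)) ^ 0 * (1 - t₁) ^ 3 * (t₂ - (-1/2)) ^ 0 * (-1/8 - t₂) ^ 3 + 1819264/10125 * (t₁ - (5/8)) ^ 0 * (1 - t₁) ^ 3 * (t₂ - (-1/2)) ^ 1 * (-1/8 - t₂) ^ 2 + 4199884/30375 * (t₁ - (5/8)) ^ 0 * (1 - t₁) ^ 3 * (t₂ - (-1/2)) ^ 2 * (-1/8 - t₂) ^ 1 + 118498/3375 * (t₁ - (5/8)) ^ 0 * (1 - t₁) ^ 3 * (t₂ - (-1/2)) ^ 3 * (-1/8 - t₂) ^ 0 + 1018624/10125 * (t₁ - (5/8)) ^ 1 * (1 - t₁) ^ 2 * (t₂ - (-1/2)) ^ 0 * (-1/8 - t₂) ^ 3 + 8263616/30375 * (t₁ - (5/8)) ^ 1 * (1 - t₁) ^ 2 * (t₂ - (-1/2)) ^ 1 * (-1/8 - t₂) ^ 2 + 7204048/30375 * (t₁ - (5/8)) ^ 1 * (1 - t₁) ^ 2 * (t₂ - (-1/2)) ^ 2 * (-1/8 - t₂) ^ 1 + 2096924/30375 * (t₁ - (5/8)) ^ 1 * (1 - t₁) ^ 2 * (t₂ - (-1/2))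 ^ 3 * (-1/8 - t₂) ^ 0 + 636928/30375 * (t₁ - (5/8)) ^ 2 * (1 - t₁) ^ 1 * (t₂ - (-1/2)) ^ 0 * (-1/8 - t₂) ^ 3 + 3917824/30375 * (t₁ - (5/8)) ^ 2 * (1 - t₁) ^ 1 * (t₂ - (-1/2)) ^ 1 * (-1/8 - t₂) ^ 2 + 5370752/30375 * (t₁ - (5/8)) ^ 2 * (1 - t₁) ^ 1 * (t₂ - (-1/2)) ^ 2 * (-1/8 - t₂) ^ 1 + 2124992/30375 * (t₁ - (5/8)) ^ 2 * (1 - t₁) ^ 1 * (t₂ - (-1/2)) ^ 3 * (-1/8 - t₂) ^ 0 + 1273856/30375 * (t₁ - (5/8)) ^ 3 * (1 - t₁) ^ 0 * (t₂ - (-1/2)) ^ 1 * (-1/8 - t₂) ^ 2 + 2422784/30375 * (t₁ - (5/8)) ^ 3 * (1 - t₁) ^ 0 * (t₂ - (-1/2)) ^ 2 * (-1/8 - t₂) ^ 1 + 366848/10125 * (t₁ - (5/8)) ^ 3 * (1 - t₁) ^ 0 * (t₂ - (-1/2)) ^ 3 * (-1/8 - t₂) ^ 0 := by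
    unfold Pfun
    ring
  rw [e]
  exact this

theorem Pfun_box8 (t₁ t₂ : ℝ) (h1 : 5/8 ≤ t₁) (h2 : t₁ ≤ 1) (h3 : -1/8 ≤ t₂) (h4 : t₂ ≤ 1/4) :
    0 ≤ Pfun t₁ t₂ := by
  have key : ∀ u v w z : ℝ, 0 ≤ u → 0 ≤ v → 0 ≤ w → 0 ≤ z → 0 ≤ 118498/3375 * u ^ 0 * v ^ 3 * w ^ 0 * z ^ 3 + 2199008/30375 * u ^ 0 * v ^ 3 * w ^ 1 * z ^ 2 + 291208/6075 * u ^ 0 * v ^ 3 * w ^ 2 * z ^ 1 + 40096/3375 * u ^ 0 * v ^ 3 * w ^ 3 * z ^ 0 + 2096924/30375 * u ^ 1 * v ^ 2 * w ^ 0 * z ^ 3 + 5377496/30375 * u ^ 1 * v ^ 2 * w ^ 1 * z ^ 2 + 4610512/30375 * u ^ 1 * v ^ 2 * w ^ 2 * z ^ 1 + 286112/6075 * u ^ 1 * v ^ 2 * w ^ 3 * z ^ 0 + 2124992/30375 * u ^ 2 * v ^ 1 * w ^ 0 * z ^ 3 + 295168/1215 * u ^ 2 * v ^ 1 * w ^ 1 * z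 ^ 2 + 1586944/6075 * u ^ 2 * v ^ 1 * w ^ 2 * z ^ 1 + 905216/10125 * u ^ 2 * v ^ 1 * w ^ 3 * z ^ 0 + 366848/10125 * u ^ 3 * v ^ 0 * w ^ 0 * z ^ 3 + 836096/6075 * u ^ 3 * v ^ 0 * w ^ 1 * z ^ 2 + 1596416/10125 * u ^ 3 * v ^ 0 * w ^ 2 * z ^ 1 + 1660928/30375 * u ^ 3 * v ^ 0 * w ^ 3 * z ^ 0 := by
    intro u v w z _ _ _ _
    positivity
  have := key (t₁ - (5/8)) (1 - t₁) (t₂ - (-1/8)) (1/4 - t₂) (by linarith) (by linarith) (by linarith) (by linarith)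
  have e : Pfun t₁ t₂ = 118498/3375 * (t₁ - (5/8)) ^ 0 * (1 - t₁) ^ 3 * (t₂ - (-1/8)) ^ 0 * (1/4 - t₂) ^ 3 + 2199008/30375 * (t₁ - (5/8)) ^ 0 * (1 - t₁) ^ 3 * (t₂ - (-1/8)) ^ 1 * (1/4 - t₂) ^ 2 + 291208/6075 * (t₁ - (5/8)) ^ 0 * (1 - t₁) ^ 3 * (t₂ - (-1/8)) ^ 2 * (1/4 - t₂) ^ 1 + 40096/3375 * (t₁ - (5/8)) ^ 0 * (1 - t₁) ^ 3 * (t₂ - (-1/8)) ^ 3 * (1/4 - t₂) ^ 0 + 2096924/30375 * (t₁ - (5/8)) ^ 1 * (1 - t₁) ^ 2 * (t₂ - (-1/8)) ^ 0 * (1/4 - t₂) ^ 3 + 5377496/30375 * (t₁ - (5/8)) ^ 1 * (1 - t₁) ^ 2 * (t₂ - (-1/8)) ^ 1 * (1/4 - t₂) ^ 2 + 4610512/30375 * (t₁ - (5/8)) ^ 1 * (1 - t₁) ^ 2 * (t₂ - (-1/8)) ^ 2 * (1/4 - t₂) ^ 1 + 286112/6075 * (t₁ - (5/8)) ^ 1 * (1 - t₁) ^ 2 * (t₂ - (-1/8)) ^ 3 * (1/4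 - t₂) ^ 0 + 2124992/30375 * (t₁ - (5/8)) ^ 2 * (1 - t₁) ^ 1 * (t₂ - (-1/8)) ^ 0 * (1/4 - t₂) ^ 3 + 295168/1215 * (t₁ - (5/8)) ^ 2 * (1 - t₁) ^ 1 * (t₂ - (-1/8)) ^ 1 * (1/4 - t₂) ^ 2 + 1586944/6075 * (t₁ - (5/8)) ^ 2 * (1 - t₁) ^ 1 * (t₂ - (-1/8)) ^ 2 * (1/4 - t₂) ^ 1 + 905216/10125 * (t₁ - (5/8)) ^ 2 * (1 - t₁) ^ 1 * (t₂ - (-1/8)) ^ 3 * (1/4 - t₂) ^ 0 + 366848/10125 * (t₁ - (5/8)) ^ 3 * (1 - t₁) ^ 0 * (t₂ - (-1/8)) ^ 0 * (1/4 - t₂) ^ 3 + 836096/6075 * (t₁ - (5/8)) ^ 3 * (1 - t₁) ^ 0 * (t₂ - (-1/8)) ^ 1 * (1/4 - t₂) ^ 2 + 1596416/10125 * (t₁ - (5/8)) ^ 3 * (1 - t₁) ^ 0 * (t₂ - (-1/8)) ^ 2 * (1/4 - t₂) ^ 1 + 1660928/30375 * (t₁ - (5/8)) ^ 3 * (1 - t₁) ^ 0 * (t₂ - (-1/8)) ^ 3 * (1/4 - t₂)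 ^ 0 := by
    unfold Pfun
    ring
  rw [e]
  exact this

theorem Pfun_box9 (t₁ t₂ : ℝ) (h1 : 1/4 ≤ t₁) (h2 : t₁ ≤ 5/8) (h3 : 1/4 ≤ t₂) (h4 : t₂ ≤ 5/8) :
    0 ≤ Pfun t₁ t₂ := by
  have key : ∀ u v w z : ℝ, 0 ≤ u → 0 ≤ v → 0 ≤ w → 0 ≤ z → 0 ≤ 62336/2025 * u ^ 0 * v ^ 3 * w ^ 0 * z ^ 3 + 1323776/30375 * u ^ 0 * v ^ 3 * w ^ 1 * z ^ 2 + 734624/30375 * u ^ 0 * v ^ 3 * w ^ 2 * z ^ 1 + 40096/3375 * u ^ 0 * v ^ 3 * w ^ 3 * z ^ 0 + 1323776/30375 * u ^ 1 * v ^ 2 * w ^ 0 * z ^ 3 + 977504/30375 * u ^ 1 * v ^ 2 * w ^ 1 * z ^ 2 + 282016/30375 * u ^ 1 * v ^ 2 * w ^ 2 * z ^ 1 + 709144/30375 * u ^ 1 * v ^ 2 * w ^ 3 * z ^ 0 + 734624/30375 * u ^ 2 * v ^ 1 * w ^ 0 * z ^ 3 + 282016/30375 * u ^ 2 * v ^ 1 *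 w ^ 1 * z ^ 2 + 129128/30375 * u ^ 2 * v ^ 1 * w ^ 2 * z ^ 1 + 235072/10125 * u ^ 2 * v ^ 1 * w ^ 3 * z ^ 0 + 40096/3375 * u ^ 3 * v ^ 0 * w ^ 0 * z ^ 3 + 709144/30375 * u ^ 3 * v ^ 0 * w ^ 1 * z ^ 2 + 235072/10125 * u ^ 3 * v ^ 0 * w ^ 2 * z ^ 1 + 394286/30375 * u ^ 3 * v ^ 0 * w ^ 3 * z ^ 0 := by
    intro u v w z _ _ _ _
    positivity
  have := key (t₁ - (1/4)) (5/8 - t₁) (t₂ - (1/4)) (5/8 - t₂) (by linarith) (by linarith) (by linarith) (by linarith)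
  have e : Pfun t₁ t₂ = 62336/2025 * (t₁ - (1/4)) ^ 0 * (5/8 - t₁) ^ 3 * (t₂ - (1/4)) ^ 0 * (5/8 - t₂) ^ 3 + 1323776/30375 * (t₁ - (1/4)) ^ 0 * (5/8 - t₁) ^ 3 * (t₂ - (1/4)) ^ 1 * (5/8 - t₂) ^ 2 + 734624/30375 * (t₁ - (1/4)) ^ 0 * (5/8 - t₁) ^ 3 * (t₂ - (1/4)) ^ 2 * (5/8 - t₂) ^ 1 + 40096/3375 * (t₁ - (1/4)) ^ 0 * (5/8 - t₁) ^ 3 * (t₂ - (1/4)) ^ 3 * (5/8 - t₂) ^ 0 + 1323776/30375 * (t₁ - (1/4)) ^ 1 * (5/8 - t₁) ^ 2 * (t₂ - (1/4)) ^ 0 * (5/8 - t₂) ^ 3 + 977504/30375 * (t₁ - (1/4)) ^ 1 * (5/8 - t₁) ^ 2 * (t₂ - (1/4)) ^ 1 * (5/8 - t₂) ^ 2 + 282016/30375 * (t₁ - (1/4)) ^ 1 * (5/8 - t₁) ^ 2 * (t₂ - (1/4)) ^ 2 * (5/8 - t₂) ^ 1 + 709144/30375 * (t₁ - (1/4)) ^ 1 * (5/8 - t₁) ^ 2 * (t₂ - (1/4))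 ^ 3 * (5/8 - t₂) ^ 0 + 734624/30375 * (t₁ - (1/4)) ^ 2 * (5/8 - t₁) ^ 1 * (t₂ - (1/4)) ^ 0 * (5/8 - t₂) ^ 3 + 282016/30375 * (t₁ - (1/4)) ^ 2 * (5/8 - t₁) ^ 1 * (t₂ - (1/4)) ^ 1 * (5/8 - t₂) ^ 2 + 129128/30375 * (t₁ - (1/4)) ^ 2 * (5/8 - t₁) ^ 1 * (t₂ - (1/4)) ^ 2 * (5/8 - t₂) ^ 1 + 235072/10125 * (t₁ - (1/4)) ^ 2 * (5/8 - t₁) ^ 1 * (t₂ - (1/4)) ^ 3 * (5/8 - t₂) ^ 0 + 40096/3375 * (t₁ - (1/4)) ^ 3 * (5/8 - t₁) ^ 0 * (t₂ - (1/4)) ^ 0 * (5/8 - t₂) ^ 3 + 709144/30375 * (t₁ - (1/4)) ^ 3 * (5/8 - t₁) ^ 0 * (t₂ - (1/4)) ^ 1 * (5/8 - t₂) ^ 2 + 235072/10125 * (t₁ - (1/4)) ^ 3 * (5/8 - t₁) ^ 0 * (t₂ - (1/4)) ^ 2 * (5/8 - t₂) ^ 1 + 394286/30375 * (t₁ - (1/4)) ^ 3 * (5/8 - t₁) ^ 0 * (t₂ - (1/4)) ^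 3 * (5/8 - t₂) ^ 0 := by
    unfold Pfun
    ring
  rw [e]
  exact this

theorem Pfun_box10 (t₁ t₂ : ℝ) (h1 : 1/4 ≤ t₁) (h2 : t₁ ≤ 5/8) (h3 : 5/8 ≤ t₂) (h4 : t₂ ≤ 1) :
    0 ≤ Pfun t₁ t₂ := by
  have key : ∀ u v w z : ℝ, 0 ≤ u → 0 ≤ v → 0 ≤ w → 0 ≤ z → 0 ≤ 40096/3375 * u ^ 0 * v ^ 3 * w ^ 0 * z ^ 3 + 286112/6075 * u ^ 0 * v ^ 3 * w ^ 1 * z ^ 2 + 905216/10125 * u ^ 0 * v ^ 3 * w ^ 2 * z ^ 1 + 1660928/30375 * u ^ 0 * v ^ 3 * w ^ 3 * z ^ 0 + 709144/30375 * u ^ 1 * v ^ 2 * w ^ 0 * z ^ 3 + 3972848/30375 * u ^ 1 * v ^ 2 * w ^ 1 * z ^ 2 + 8359168/30375 * u ^ 1 * v ^ 2 * w ^ 2 * z ^ 1 + 345088/2025 * u ^ 1 * v ^ 2 * w ^ 3 * z ^ 0 + 235072/10125 * u ^ 2 * v ^ 1 * w ^ 0 * z ^ 3 + 4102168/30375 *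 u ^ 2 * v ^ 1 * w ^ 1 * z ^ 2 + 8228096/30375 * u ^ 2 * v ^ 1 * w ^ 2 * z ^ 1 + 4954624/30375 * u ^ 2 * v ^ 1 * w ^ 3 * z ^ 0 + 394286/30375 * u ^ 3 * v ^ 0 * w ^ 0 * z ^ 3 + 164/3 * u ^ 3 * v ^ 0 * w ^ 1 * z ^ 2 + 2619712/30375 * u ^ 3 * v ^ 0 * w ^ 2 * z ^ 1 + 463616/10125 * u ^ 3 * v ^ 0 * w ^ 3 * z ^ 0 := by
    intro u v w z _ _ _ _
    positivity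
  have := key (t₁ - (1/4)) (5/8 - t₁) (t₂ - (5/8)) (1 - t₂) (by linarith) (by linarith) (by linarith) (by linarith)
  have e : Pfun t₁ t₂ = 40096/3375 * (t₁ - (1/4)) ^ 0 * (5/8 - t₁) ^ 3 * (t₂ - (5/8)) ^ 0 * (1 - t₂) ^ 3 + 286112/6075 * (t₁ - (1/4)) ^ 0 * (5/8 - t₁) ^ 3 * (t₂ - (5/8)) ^ 1 * (1 - t₂) ^ 2 + 905216/10125 * (t₁ - (1/4)) ^ 0 * (5/8 - t₁) ^ 3 * (t₂ - (5/8)) ^ 2 * (1 - t₂) ^ 1 + 1660928/30375 * (t₁ - (1/4)) ^ 0 * (5/8 - t₁) ^ 3 * (t₂ - (5/8)) ^ 3 * (1 - t₂) ^ 0 + 709144/30375 * (t₁ - (1/4)) ^ 1 * (5/8 - t₁) ^ 2 * (t₂ - (5/8)) ^ 0 * (1 - t₂) ^ 3 + 3972848/30375 * (t₁ - (1/4)) ^ 1 * (5/8 - t₁) ^ 2 * (t₂ - (5/8)) ^ 1 * (1 - t₂) ^ 2 + 8359168/30375 * (t₁ - (1/4)) ^ 1 * (5/8 - t₁)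 ^ 2 * (t₂ - (5/8)) ^ 2 * (1 - t₂) ^ 1 + 345088/2025 * (t₁ - (1/4)) ^ 1 * (5/8 - t₁) ^ 2 * (t₂ - (5/8)) ^ 3 * (1 - t₂) ^ 0 + 235072/10125 * (t₁ - (1/4)) ^ 2 * (5/8 - t₁) ^ 1 * (t₂ - (5/8)) ^ 0 * (1 - t₂) ^ 3 + 4102168/30375 * (t₁ - (1/4)) ^ 2 * (5/8 - t₁) ^ 1 * (t₂ - (5/8)) ^ 1 * (1 - t₂) ^ 2 + 8228096/30375 * (t₁ - (1/4)) ^ 2 * (5/8 - t₁) ^ 1 * (t₂ - (5/8)) ^ 2 * (1 - t₂) ^ 1 + 4954624/30375 * (t₁ - (1/4)) ^ 2 * (5/8 - t₁) ^ 1 * (t₂ - (5/8)) ^ 3 * (1 - t₂) ^ 0 + 394286/30375 * (t₁ - (1/4)) ^ 3 * (5/8 - t₁) ^ 0 * (t₂ - (5/8)) ^ 0 * (1 - t₂) ^ 3 + 164/3 * (t₁ - (1/4)) ^ 3 * (5/8 - t₁) ^ 0 * (t₂ - (5/8)) ^ 1 * (1 - t₂) ^ 2 + 2619712/30375 * (t₁ - (1/4)) ^ 3 * (5/8 - t₁) ^ 0 * (t₂ - (5/8))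 ^ 2 * (1 - t₂) ^ 1 + 463616/10125 * (t₁ - (1/4)) ^ 3 * (5/8 - t₁) ^ 0 * (t₂ - (5/8)) ^ 3 * (1 - t₂) ^ 0 := by
    unfold Pfun
    ring
  rw [e]
  exact this

theorem Pfun_box11 (t₁ t₂ : ℝ) (h1 : 5/8 ≤ t₁) (h2 : t₁ ≤ 1) (h3 : 1/4 ≤ t₂) (h4 : t₂ ≤ 5/8) :
    0 ≤ Pfun t₁ t₂ := by
  have key : ∀ u v w z : ℝ, 0 ≤ u → 0 ≤ v → 0 ≤ w → 0 ≤ z → 0 ≤ 40096/3375 * u ^ 0 * v ^ 3 * w ^ 0 * z ^ 3 + 709144/30375 * u ^ 0 * v ^ 3 * w ^ 1 * z ^ 2 + 235072/10125 * u ^ 0 * v ^ 3 * w ^ 2 * z ^ 1 + 394286/30375 * u ^ 0 * v ^ 3 * w ^ 3 * z ^ 0 + 286112/6075 * u ^ 1 * v ^ 2 * w ^ 0 * z ^ 3 + 3972848/30375 * u ^ 1 * v ^ 2 * w ^ 1 * z ^ 2 + 4102168/30375 * u ^ 1 * v ^ 2 * w ^ 2 * z ^ 1 + 164/3 * u ^ 1 * v ^ 2 * w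 ^ 3 * z ^ 0 + 905216/10125 * u ^ 2 * v ^ 1 * w ^ 0 * z ^ 3 + 8359168/30375 * u ^ 2 * v ^ 1 * w ^ 1 * z ^ 2 + 8228096/30375 * u ^ 2 * v ^ 1 * w ^ 2 * z ^ 1 + 2619712/30375 * u ^ 2 * v ^ 1 * w ^ 3 * z ^ 0 + 1660928/30375 * u ^ 3 * v ^ 0 * w ^ 0 * z ^ 3 + 345088/2025 * u ^ 3 * v ^ 0 * w ^ 1 * z ^ 2 + 4954624/30375 * u ^ 3 * v ^ 0 * w ^ 2 * z ^ 1 + 463616/10125 * u ^ 3 * v ^ 0 * w ^ 3 * z ^ 0 := by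
    intro u v w z _ _ _ _
    positivity
  have := key (t₁ - (5/8)) (1 - t₁) (t₂ - (1/4)) (5/8 - t₂) (by linarith) (by linarith) (by linarith) (by linarith)
  have e : Pfun t₁ t₂ = 40096/3375 * (t₁ - (5/8)) ^ 0 * (1 - t₁) ^ 3 * (t₂ - (1/4)) ^ 0 * (5/8 - t₂) ^ 3 + 709144/30375 * (t₁ - (5/8)) ^ 0 * (1 - t₁) ^ 3 * (t₂ - (1/4)) ^ 1 * (5/8 - t₂) ^ 2 + 235072/10125 * (t₁ - (5/8)) ^ 0 * (1 - t₁) ^ 3 * (t₂ - (1/4)) ^ 2 * (5/8 - t₂) ^ 1 + 394286/30375 * (t₁ - (5/8)) ^ 0 * (1 - t₁) ^ 3 * (t₂ - (1/4)) ^ 3 * (5/8 - t₂) ^ 0 + 286112/6075 * (t₁ - (5/8)) ^ 1 * (1 - t₁) ^ 2 * (t₂ - (1/4)) ^ 0 * (5/8 - t₂) ^ 3 + 3972848/30375 * (t₁ - (5/8)) ^ 1 * (1 - t₁) ^ 2 * (t₂ - (1/4)) ^ 1 * (5/8 - t₂) ^ 2 + 4102168/30375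 * (t₁ - (5/8)) ^ 1 * (1 - t₁) ^ 2 * (t₂ - (1/4)) ^ 2 * (5/8 - t₂) ^ 1 + 164/3 * (t₁ - (5/8)) ^ 1 * (1 - t₁) ^ 2 * (t₂ - (1/4)) ^ 3 * (5/8 - t₂) ^ 0 + 905216/10125 * (t₁ - (5/8)) ^ 2 * (1 - t₁) ^ 1 * (t₂ - (1/4)) ^ 0 * (5/8 - t₂) ^ 3 + 8359168/30375 * (t₁ - (5/8)) ^ 2 * (1 - t₁) ^ 1 * (t₂ - (1/4)) ^ 1 * (5/8 - t₂) ^ 2 + 8228096/30375 * (t₁ - (5/8)) ^ 2 * (1 - t₁) ^ 1 * (t₂ - (1/4)) ^ 2 * (5/8 - t₂) ^ 1 + 2619712/30375 * (t₁ - (5/8)) ^ 2 * (1 - t₁) ^ 1 * (t₂ - (1/4)) ^ 3 * (5/8 - t₂) ^ 0 + 1660928/30375 * (t₁ - (5/8)) ^ 3 * (1 - t₁) ^ 0 * (t₂ - (1/4)) ^ 0 * (5/8 - t₂) ^ 3 + 345088/2025 * (t₁ - (5/8)) ^ 3 * (1 - t₁) ^ 0 * (t₂ - (1/4)) ^ 1 * (5/8 - t₂) ^ 2 + 4954624/30375 * (t₁ - (5/8)) ^ 3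 * (1 - t₁) ^ 0 * (t₂ - (1/4)) ^ 2 * (5/8 - t₂) ^ 1 + 463616/10125 * (t₁ - (5/8)) ^ 3 * (1 - t₁) ^ 0 * (t₂ - (1/4)) ^ 3 * (5/8 - t₂) ^ 0 := by
    unfold Pfun
    ring
  rw [e]
  exact this

theorem Pfun_box12 (t₁ t₂ : ℝ) (h1 : 5/8 ≤ t₁) (h2 : t₁ ≤ 1) (h3 : 5/8 ≤ t₂) (h4 : t₂ ≤ 1) :
    0 ≤ Pfun t₁ t₂ := by
  have key : ∀ u v w z : ℝ, 0 ≤ u → 0 ≤ v → 0 ≤ w → 0 ≤ z → 0 ≤ 394286/30375 * u ^ 0 * v ^ 3 * w ^ 0 * z ^ 3 + 164/3 * u ^ 0 * v ^ 3 * w ^ 1 * z ^ 2 + 2619712/30375 * u ^ 0 * v ^ 3 * w ^ 2 * z ^ 1 + 463616/10125 * u ^ 0 * v ^ 3 * w ^ 3 * z ^ 0 + 164/3 * u ^ 1 * v ^ 2 * w ^ 0 * z ^ 3 + 5860832/30375 * u ^ 1 * v ^ 2 * w ^ 1 * z ^ 2 + 7490176/30375 * u ^ 1 * v ^ 2 * w ^ 2 * z ^ 1 + 3390464/30375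 * u ^ 1 * v ^ 2 * w ^ 3 * z ^ 0 + 2619712/30375 * u ^ 2 * v ^ 1 * w ^ 0 * z ^ 3 + 7490176/30375 * u ^ 2 * v ^ 1 * w ^ 1 * z ^ 2 + 6883328/30375 * u ^ 2 * v ^ 1 * w ^ 2 * z ^ 1 + 16384/243 * u ^ 2 * v ^ 1 * w ^ 3 * z ^ 0 + 463616/10125 * u ^ 3 * v ^ 0 * w ^ 0 * z ^ 3 + 3390464/30375 * u ^ 3 * v ^ 0 * w ^ 1 * z ^ 2 + 16384/243 * u ^ 3 * v ^ 0 * w ^ 2 * z ^ 1 := by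
    intro u v w z _ _ _ _
    positivity
  have := key (t₁ - (5/8)) (1 - t₁) (t₂ - (5/8)) (1 - t₂) (by linarith) (by linarith) (by linarith) (by linarith)
  have e : Pfun t₁ t₂ = 394286/30375 * (t₁ - (5/8)) ^ 0 * (1 - t₁) ^ 3 * (t₂ - (5/8)) ^ 0 * (1 - t₂) ^ 3 + 164/3 * (t₁ - (5/8)) ^ 0 * (1 - t₁) ^ 3 * (t₂ - (5/8)) ^ 1 * (1 - t₂) ^ 2 + 2619712/30375 * (t₁ - (5/8)) ^ 0 * (1 - t₁) ^ 3 * (t₂ - (5/8)) ^ 2 * (1 - t₂) ^ 1 + 463616/10125 * (t₁ - (5/8)) ^ 0 * (1 - t₁) ^ 3 * (t₂ - (5/8)) ^ 3 * (1 - t₂) ^ 0 + 164/3 * (t₁ - (5/8)) ^ 1 * (1 - t₁) ^ 2 * (t₂ - (5/8)) ^ 0 * (1 - t₂) ^ 3 + 5860832/30375 * (t₁ - (5/8)) ^ 1 * (1 - t₁) ^ 2 * (t₂ - (5/8)) ^ 1 * (1 - t₂) ^ 2 + 7490176/30375 * (t₁ - (5/8)) ^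 1 * (1 - t₁) ^ 2 * (t₂ - (5/8)) ^ 2 * (1 - t₂) ^ 1 + 3390464/30375 * (t₁ - (5/8)) ^ 1 * (1 - t₁) ^ 2 * (t₂ - (5/8)) ^ 3 * (1 - t₂) ^ 0 + 2619712/30375 * (t₁ - (5/8)) ^ 2 * (1 - t₁) ^ 1 * (t₂ - (5/8)) ^ 0 * (1 - t₂) ^ 3 + 7490176/30375 * (t₁ - (5/8)) ^ 2 * (1 - t₁) ^ 1 * (t₂ - (5/8)) ^ 1 * (1 - t₂) ^ 2 + 6883328/30375 * (t₁ - (5/8)) ^ 2 * (1 - t₁) ^ 1 * (t₂ - (5/8)) ^ 2 * (1 - t₂) ^ 1 + 16384/243 * (t₁ - (5/8)) ^ 2 * (1 - t₁) ^ 1 * (t₂ - (5/8)) ^ 3 * (1 - t₂) ^ 0 + 463616/10125 * (t₁ - (5/8)) ^ 3 * (1 - t₁) ^ 0 * (t₂ - (5/8)) ^ 0 * (1 - t₂) ^ 3 + 3390464/30375 * (t₁ - (5/8)) ^ 3 * (1 - t₁) ^ 0 * (t₂ - (5/8)) ^ 1 * (1 - t₂) ^ 2 + 16384/243 * (t₁ - (5/8)) ^ 3 * (1 - t₁) ^ 0 * (t₂ - (5/8))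 ^ 2 * (1 - t₂) ^ 1 := by
    unfold Pfun
    ring
  rw [e]
  exact this

theorem Pfun_nonneg (t₁ t₂ : ℝ) (h1 : -(1 / 2) ≤ t₁) (h2 : t₁ ≤ 1) (h3 : -(1 / 2) ≤ t₂) (h4 : t₂ ≤ 1) :
    0 ≤ Pfun t₁ t₂ := by
  rcases le_total t₁ (1/4) with c2 | c2 <;> rcases le_total t₂ (1/4) with d2 | d2
  · exact Pfun_box0 t₁ t₂ (by linarith) (by linarith) (by linarith) (by linarith)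
  · rcases le_total t₁ (-1/8) with c4 | c4 <;> rcases le_total t₂ (5/8) with d4 | d4
    · exact Pfun_box1 t₁ t₂ (by linarith) (by linarith) (by linarith) (by linarith)
    · exact Pfun_box2 t₁ t₂ (by linarith) (by linarith) (by linarith) (by linarith)
    · exact Pfun_box3 t₁ t₂ (by linarith) (by linarith) (by linarith) (by linarith)
    · exact Pfun_box4 t₁ t₂ (by linarith) (by linarith) (by linarith) (by linarith)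
  · rcases le_total t₁ (5/8) with c4 | c4 <;> rcases le_total t₂ (-1/8) with d4 | d4
    · exact Pfun_box5 t₁ t₂ (by linarith) (by linarith) (by linarith) (by linarith)
    · exact Pfun_box6 t₁ t₂ (by linarith) (by linarith) (by linarith) (by linarith)
    · exact Pfun_box7 t₁ t₂ (by linarith) (by linarith) (by linarith) (by linarith)
    · exact Pfun_box8 t₁ t₂ (by linarith) (by linarith) (by linarith) (by linarith)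
  · rcases le_total t₁ (5/8) with c4 | c4 <;> rcases le_total t₂ (5/8) with d4 | d4
    · exact Pfun_box9 t₁ t₂ (by linarith) (by linarith) (by linarith) (by linarith)
    · exact Pfun_box10 t₁ t₂ (by linarith) (by linarith) (by linarith) (by linarith)
    · exact Pfun_box11 t₁ t₂ (by linarith) (by linarith) (by linarith) (by linarith)
    · exact Pfun_box12 t₁ t₂ (by linarith) (by linarith) (by linarith) (by linarith)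

end Vale.Agent.Lib.P154
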