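import Vale.Agent.Lib.P154.PairA
import Vale.Agent.Lib.P154.Pfun

namespace Vale.Agent.Lib.P154

open BB

/-- mass of a vector -/
noncomputable def GM (x y z : ℝ) : ℝ := (x + y + z) / 3

/-- homogeneous version of the product -/
noncomputable def GE (x y z : ℝ) : ℝ := 9 * (x * y * z) / (x + y + z) ^ 2

/-- homogeneous version of the invariant -/
noncomputable def GPhi (x y z : ℝ) : ℝ :=
  21 / 10 * GS x y z - 33 / 5 * GM x y z + 3 * GE x y z + 18 / 5 * gv x y z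

theorem GPhi_norm {x y z : ℝ} (h : x + y + z = 3) : GPhi x y z = sphi x y z := by
  unfold GPhi sphi GM GE
  rw [GS_norm h, sT_eq h, h]
  ring

theorem gv_symm1 (x y z : ℝ) : gv y z x = gv x y z := by
  unfold gv
  rw [show y * z * x = x * y * z by ring]

theorem gv_symm2 (x y z : ℝ) : gv x z y = gv x y z := by
  unfold gv
  rw [show x * z * y = x * y * z by ring]

theorem GM_symm1 (x y z : ℝ) : GM y z x = GM x y z := by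
  unfold GM; ring
theorem GM_symm2 (x y z : ℝ) : GM x z y = GM x y z := by
  unfold GM; ring
theorem GE_symm1 (x y z : ℝ) : GE y z x = GE x y z := by
  unfold GE
  rw [show y * z * x = x * y * z by ring, show y + z + x = x + y + z by ring]
theorem GE_symm2 (x y z : ℝ) : GE x z y = GE x y z := by
  unfold GE
  rw [show x * z * y = x * y * z by ring, show x + z + y = x + y + z by ring]

theorem GPhi_symm1 (x y z : ℝ) : GPhi y z x = GPhi x y z := by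
  unfold GPhi
  rw [GS_symm1, GM_symm1, GE_symm1, gv_symm1]
theorem GPhi_symm2 (x y z : ℝ) : GPhi x z y = GPhi x y z := by
  unfold GPhi
  rw [GS_symm2, GM_symm2, GE_symm2, gv_symm2]

theorem avg6_GPhi (a₁ a₂ a₃ b₁ b₂ b₃ : ℝ) :
    avg6 GPhi a₁ a₂ a₃ b₁ b₂ b₃ = 21 / 10 * avg6 GS a₁ a₂ a₃ b₁ b₂ b₃
      - 33 / 5 * avg6 GM a₁ a₂ a₃ b₁ b₂ b₃ + 3 * avg6 GE a₁ a₂ a₃ b₁ b₂ b₃
      + 18 / 5 * avg6 gv a₁ a₂ a₃ b₁ b₂ b₃ := by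
  unfold avg6 GPhi
  ring

theorem avg6_GM {a₁ a₂ a₃ b₁ b₂ b₃ : ℝ} (ha : a₁ + a₂ + a₃ = 3) (hb : b₁ + b₂ + b₃ = 3) :
    avg6 GM a₁ a₂ a₃ b₁ b₂ b₃ = 1 := by
  unfold avg6 GM
  have h3 : a₃ = 3 - a₁ - a₂ := by linarith
  have h4 : b₃ = 3 - b₁ - b₂ := by linarith
  subst h3 h4
  ring

theorem avg6_gv {a₁ a₂ a₃ b₁ b₂ b₃ : ℝ} (ha : NP a₁ a₂ a₃) (hb : NP b₁ b₂ b₃) :
    avg6 gv a₁ a₂ a₃ b₁ b₂ b₃ = gv a₁ a₂ a₃ * gv b₁ b₂ b₃ := by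
  have h1 := ha.p₁.le
  have h2 := ha.p₂.le
  have h3 := ha.p₃.le
  have k1 := hb.p₁.le
  have k2 := hb.p₂.le
  have k3 := hb.p₃.le
  unfold avg6
  rw [gv_mul h1 h2 h3 k1 k2 k3, gv_mul h1 h2 h3 k2 k3 k1, gv_mul h1 h2 h3 k3 k1 k2,
    gv_mul h1 h2 h3 k1 k3 k2, gv_mul h1 h2 h3 k2 k1 k3, gv_mul h1 h2 h3 k3 k2 k1]
  have e2 : gv b₂ b₃ b₁ = gv b₁ b₂ b₃ := gv_symm1 _ _ _
  have e3 : gv b₃ b₁ b₂ = gv b₁ b₂ b₃ := (gv_symm1 b₂ b₃ b₁).trans (gv_symm1 b₁ b₂ b₃)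
  have e4 : gv b₁ b₃ b₂ = gv b₁ b₂ b₃ := gv_symm2 _ _ _
  have e5 : gv b₂ b₁ b₃ = gv b₁ b₂ b₃ := (gv_symm2 b₂ b₃ b₁).trans e2
  have e6 : gv b₃ b₂ b₁ = gv b₁ b₂ b₃ := (gv_symm2 b₃ b₁ b₂).trans e3
  rw [e2, e3, e4, e5, e6]
  ring

theorem tangent_inv_sq (D : ℝ) (hD : 0 < D) : 3 - 2 / 3 * D ≤ 9 / D ^ 2 := by
  rw [le_div_iff₀ (by positivity)]
  nlinarith [mul_nonneg (sq_nonneg (D - 3)) (by linarith : 0 ≤ 2 * D + 3)]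

theorem GE_term (x y z P : ℝ) (hP : 0 ≤ P) (hxyz : x * y * z = P) (hD : 0 < x + y + z) :
    P * (3 - 2 / 3 * (x + y + z)) ≤ GE x y z := by
  unfold GE
  rw [hxyz]
  have := mul_le_mul_of_nonneg_left (tangent_inv_sq _ hD) hP
  calc P * (3 - 2 / 3 * (x + y + z)) ≤ P * (9 / (x + y + z) ^ 2) := this
    _ = 9 * P / (x + y + z) ^ 2 := by ring

theorem avg6_GE {a₁ a₂ a₃ b₁ b₂ b₃ : ℝ} (ha : NP a₁ a₂ a₃) (hb : NP b₁ b₂ b₃) :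
    (a₁ * a₂ * a₃) * (b₁ * b₂ * b₃) ≤ avg6 GE a₁ a₂ a₃ b₁ b₂ b₃ := by
  have h1 := ha.p₁
  have h2 := ha.p₂
  have h3 := ha.p₃
  have k1 := hb.p₁
  have k2 := hb.p₂
  have k3 := hb.p₃
  have hP : 0 ≤ (a₁ * a₂ * a₃) * (b₁ * b₂ * b₃) := by positivity
  have t1 := GE_term (a₁ * b₁) (a₂ * b₂) (a₃ * b₃) _ hP (by ring) (by positivity)
  have t2 := GE_term (a₁ * b₂) (a₂ * b₃) (a₃ * b₁) _ hP (by ring) (by positivity)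
  have t3 := GE_term (a₁ * b₃) (a₂ * b₁) (a₃ * b₂) _ hP (by ring) (by positivity)
  have t4 := GE_term (a₁ * b₁) (a₂ * b₃) (a₃ * b₂) _ hP (by ring) (by positivity)
  have t5 := GE_term (a₁ * b₂) (a₂ * b₁) (a₃ * b₃) _ hP (by ring) (by positivity)
  have t6 := GE_term (a₁ * b₃) (a₂ * b₂) (a₃ * b₁) _ hP (by ring) (by positivity)
  unfold avg6
  have hsum : (a₁ * b₁ + a₂ * b₂ + a₃ * b₃) + (a₁ * b₂ + a₂ * b₃ + a₃ * b₁)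
      + (a₁ * b₃ + a₂ * b₁ + a₃ * b₂) + (a₁ * b₁ + a₂ * b₃ + a₃ * b₂)
      + (a₁ * b₂ + a₂ * b₁ + a₃ * b₃) + (a₁ * b₃ + a₂ * b₂ + a₃ * b₁) = 18 := by
    have h3' : a₃ = 3 - a₁ - a₂ := by linarith [ha.sum]
    have h4' : b₃ = 3 - b₁ - b₂ := by linarith [hb.sum]
    rw [h3', h4']; ring
  nlinarith

/-- the common denominator -/
noncomputable def Den (t₁ t₂ : ℝ) : ℝ := (1 - t₁ * t₂) * (1 + 2 * (t₁ * t₂))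

theorem Den_pos {t₁ t₂ : ℝ} (h1 : -(1 / 2) ≤ t₁) (h2 : t₁ < 1) (h3 : -(1 / 2) ≤ t₂) (h4 : t₂ < 1) :
    0 < Den t₁ t₂ := by
  have a1 : 0 < (1 - t₁) * (1 + t₂) := mul_pos (by linarith) (by linarith)
  have a2 : 0 < (1 + t₁) * (1 - t₂) := mul_pos (by linarith) (by linarith)
  have a3 : 0 ≤ (1 + 2 * t₁) * (1 + 2 * t₂) := mul_nonneg (by linarith) (by linarith)
  have a4 : 0 < (1 - t₁) * (1 - t₂) := mul_pos (by linarith) (by linarith)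
  unfold Den
  apply mul_pos <;> nlinarith

/-- the function `M` -/
noncomputable def Mf (t₁ t₂ : ℝ) : ℝ :=
  (1 + 2 * (t₁ + t₂) - 2 * (t₁ + t₂) ^ 2 + 3 * (t₁ * t₂)) / (6 * Den t₁ t₂)

theorem Sub_le_M {S₁ S₂ t₁ t₂ Ks : ℝ} (hS₁ : 0 ≤ S₁) (hS₂ : 0 ≤ S₂) (hd₁ : 6 * t₁ ^ 2 ≤ S₁)
    (hd₂ : 6 * t₂ ^ 2 ≤ S₂) (hDen : 0 < Den t₁ t₂)
    (hK : ∀ α₁ α₂ γ : ℝ, (2 * α₁ - α₁ ^ 2) * S₁ + (2 * α₂ - α₂ ^ 2) * S₂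
      + S₁ * S₂ * ((2 * γ - γ ^ 2) / 6 - α₁ * α₂ / 3)
      - γ / 3 * (α₁ * S₂ * (S₁ * t₁) + α₂ * S₁ * (S₂ * t₂)) ≤ Ks) :
    S₁ + S₂ - Ks ≤ S₁ * S₂ * Mf t₁ t₂ := by
  set D := Den t₁ t₂ with hD
  have hD' : D ≠ 0 := hDen.ne'
  have hDe : D = (1 - t₁ * t₂) * (1 + 2 * (t₁ * t₂)) := rfl
  set α₁ := (1 - t₂) * (1 + t₂ + t₁ * t₂) / D with hα₁
  set α₂ := (1 - t₁) * (1 + t₁ + t₁ * t₂) / D with hα₂
  set γ := 1 - α₁ * t₁ - α₂ * t₂ with hγ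
  set A₁ := α₂ + γ * t₁ with hA₁
  set A₂ := α₁ + γ * t₂ with hA₂
  have e1 : 1 - α₁ = t₂ ^ 2 * A₁ := by
    rw [hA₁, hγ, hα₁, hα₂, eq_comm]
    field_simp
    rw [hDe]
    ring
  have e2 : 1 - α₂ = t₁ ^ 2 * A₂ := by
    rw [hA₂, hγ, hα₁, hα₂, eq_comm]
    field_simp
    rw [hDe]
    ring
  have hM : t₂ ^ 2 * A₁ ^ 2 / 6 + t₁ ^ 2 * A₂ ^ 2 / 6 + α₁ * α₂ / 3 - (2 * γ - γ ^ 2) / 6
      + γ / 3 * (α₁ * t₁ + α₂ * t₂) = Mf t₁ t₂ := by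
    unfold Mf
    rw [← hD, hA₁, hA₂, hγ, hα₁, hα₂]
    field_simp
    rw [hDe]
    ring
  have hKi := hK α₁ α₂ γ
  have b1 : (1 - α₁) ^ 2 * S₁ ≤ S₁ * S₂ * (t₂ ^ 2 * A₁ ^ 2 / 6) := by
    rw [e1]
    have : (t₂ ^ 2 * A₁) ^ 2 * S₁ = S₁ * (6 * t₂ ^ 2) * (t₂ ^ 2 * A₁ ^ 2 / 6) := by ring
    rw [this]
    apply mul_le_mul_of_nonneg_right _ (by positivity)
    exact mul_le_mul_of_nonneg_left hd₂ hS₁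
  have b2 : (1 - α₂) ^ 2 * S₂ ≤ S₁ * S₂ * (t₁ ^ 2 * A₂ ^ 2 / 6) := by
    rw [e2]
    have : (t₁ ^ 2 * A₂) ^ 2 * S₂ = S₂ * (6 * t₁ ^ 2) * (t₁ ^ 2 * A₂ ^ 2 / 6) := by ring
    rw [this]
    rw [mul_comm S₁ S₂]
    apply mul_le_mul_of_nonneg_right _ (by positivity)
    exact mul_le_mul_of_nonneg_left hd₁ hS₂
  rw [← hM]
  nlinarith

/-- The lower bound for the product of the two deviations. -/
theorem dev_prod {d₁ d₂ p₁ p₂ q₁ q₂ : ℝ} (h1 : -p₁ ≤ d₁) (h2 : d₁ ≤ q₁) (h3 : -p₂ ≤ d₂) (h4 : d₂ ≤ q₂)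
    (hp₁ : 0 ≤ p₁) (hp₂ : 0 ≤ p₂) (hq₁ : 0 ≤ q₁) (hq₂ : 0 ≤ q₂) :
    -(q₁ * p₂ + q₂ * p₁) ≤ d₁ * d₂ := by
  have pq1 := mul_nonneg hq₁ hp₂
  have pq2 := mul_nonneg hq₂ hp₁
  rcases le_total 0 d₁ with a | a <;> rcases le_total 0 d₂ with b | b
  · nlinarith [mul_nonneg a b]
  · nlinarith [mul_nonneg a (neg_nonneg.2 b), mul_nonneg (sub_nonneg.2 h2) (neg_nonneg.2 b),
      mul_nonneg hq₁ (by linarith : 0 ≤ d₂ + p₂)]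
  · nlinarith [mul_nonneg (neg_nonneg.2 a) b, mul_nonneg (sub_nonneg.2 h4) (neg_nonneg.2 a),
      mul_nonneg hq₂ (by linarith : 0 ≤ d₁ + p₁)]
  · nlinarith [mul_nonneg (neg_nonneg.2 a) (neg_nonneg.2 b)]

theorem Pfun_identity {t₁ t₂ : ℝ} (hDen : 0 < Den t₁ t₂) :
    -(21 / 10) * Mf t₁ t₂ + 1 / 10 + 3 * (1 / 2 - t₁ / 3) * (1 / 2 - t₂ / 3) + (t₁ + t₂) / 6
      - 21 / 500 * (2 - (t₁ + t₂)) = Pfun t₁ t₂ / Den t₁ t₂ := by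
  unfold Mf
  have hD' : Den t₁ t₂ ≠ 0 := hDen.ne'
  field_simp
  unfold Pfun Den
  ring

theorem NP.tau_lt {a₁ a₂ a₃ : ℝ} (h : NP a₁ a₂ a₃) (hS : 0 < sS a₁ a₂ a₃) :
    sT a₁ a₂ a₃ / sS a₁ a₂ a₃ < 1 := by
  rw [div_lt_one hS]
  exact sT_lt_sS h.sum h.p₁ h.p₂ h.p₃ hS

/-- The inequality (B) for nonconstant vectors. -/
theorem pairB_main {a₁ a₂ a₃ b₁ b₂ b₃ : ℝ} (ha : NP a₁ a₂ a₃) (hb : NP b₁ b₂ b₃)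
    (hS₁ : 0 < sS a₁ a₂ a₃) (hS₂ : 0 < sS b₁ b₂ b₃) :
    (1 - sS b₁ b₂ b₃ / 6) * sphi a₁ a₂ a₃ + (1 - sS a₁ a₂ a₃ / 6) * sphi b₁ b₂ b₃
      ≤ avg6 GPhi a₁ a₂ a₃ b₁ b₂ b₃ := by
  have d1 := ha.dom hS₁
  have d2 := hb.dom hS₂
  have hGM := avg6_GM ha.sum hb.sum
  have hGG := avg6_gv ha hb
  have hGE := avg6_GE ha hb
  have hKs := fun α₁ α₂ γ => avg6_GS_ge a₁ a₂ a₃ b₁ b₂ b₃ α₁ α₂ γ ha.p₁ ha.p₂ ha.p₃ hb.p₁ hb.p₂ hb.p₃ ha.sum hb.sum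
  have hε₁ := eps_eq ha.sum
  have hε₂ := eps_eq hb.sum
  have hg₁ := eps_le_gv ha.sum ha.p₁.le ha.p₂.le ha.p₃.le
  have hg₂ := eps_le_gv hb.sum hb.p₁.le hb.p₂.le hb.p₃.le
  rw [avg6_GPhi, hGM, hGG]
  unfold sphi
  set S₁ := sS a₁ a₂ a₃ with hS₁def
  set S₂ := sS b₁ b₂ b₃ with hS₂def
  set T₁ := sT a₁ a₂ a₃ with hT₁def
  set T₂ := sT b₁ b₂ b₃ with hT₂def
  set g₁ := gv a₁ a₂ a₃ with hg₁def
  set g₂ := gv b₁ b₂ b₃ with hg₂def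
  set t₁ := T₁ / S₁ with ht₁
  set t₂ := T₂ / S₂ with ht₂
  have hT₁ : T₁ = S₁ * t₁ := by rw [ht₁]; field_simp
  have hT₂ : T₂ = S₂ * t₂ := by rw [ht₂]; field_simp
  have hDen := Den_pos d1.tlo (ha.tau_lt hS₁) d2.tlo (hb.tau_lt hS₂)
  have hSub := Sub_le_M (Ks := avg6 GS a₁ a₂ a₃ b₁ b₂ b₃) hS₁.le hS₂.le d1.disc d2.disc hDen (by
    intro α₁ α₂ γ
    rw [← hT₁, ← hT₂]
    exact hKs α₁ α₂ γ)
  set Ks := avg6 GS a₁ a₂ a₃ b₁ b₂ b₃ with hKsdef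
  set Ke := avg6 GE a₁ a₂ a₃ b₁ b₂ b₃ with hKedef
  rw [hε₁, hε₂] at hGE
  -- deviations
  set d₁ := g₁ - 1 + S₁ / 6 with hd₁
  set d₂ := g₂ - 1 + S₂ / 6 with hd₂
  have hdl₁ : -((1 - t₁) * S₁ / 3) ≤ d₁ := by
    rw [hε₁] at hg₁
    rw [hd₁]
    nlinarith
  have hdl₂ : -((1 - t₂) * S₂ / 3) ≤ d₂ := by
    rw [hε₂] at hg₂
    rw [hd₂]
    nlinarith
  have hdu₁ : d₁ ≤ 7 / 200 * S₁ := by
    have := d1.alpha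
    rw [hd₁]; linarith
  have hdu₂ : d₂ ≤ 7 / 200 * S₂ := by
    have := d2.alpha
    rw [hd₂]; linarith
  have h1t₁ : 0 ≤ 1 - t₁ := by linarith [d1.thi]
  have h1t₂ : 0 ≤ 1 - t₂ := by linarith [d2.thi]
  have hdd := dev_prod hdl₁ hdu₁ hdl₂ hdu₂ (by positivity) (by positivity) (by positivity) (by positivity)
  have hPf := Pfun_nonneg t₁ t₂ d1.tlo d1.thi d2.tlo d2.thi
  have hId := Pfun_identity hDen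
  have hfin : 0 ≤ S₁ * S₂ * (Pfun t₁ t₂ / Den t₁ t₂) := by positivity
  rw [← hId] at hfin
  have hgg : g₁ * g₂ = (1 - S₁ / 6 + d₁) * (1 - S₂ / 6 + d₂) := by
    rw [hd₁, hd₂]; ring
  rw [hgg]
  have hphi₁ : T₁ + 3 / 5 * (S₁ - 6 + 6 * g₁) = T₁ + 18 / 5 * d₁ := by rw [hd₁]; ring
  have hphi₂ : T₂ + 3 / 5 * (S₂ - 6 + 6 * g₂) = T₂ + 18 / 5 * d₂ := by rw [hd₂]; ring
  rw [hphi₁, hphi₂, hT₁, hT₂]
  rw [hT₁, hT₂] at hGE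
  linarith

/-- The inequality (B). -/
theorem pairB {a₁ a₂ a₃ b₁ b₂ b₃ : ℝ} (ha : NP a₁ a₂ a₃) (hb : NP b₁ b₂ b₃) :
    (1 - sS b₁ b₂ b₃ / 6) * sphi a₁ a₂ a₃ + (1 - sS a₁ a₂ a₃ / 6) * sphi b₁ b₂ b₃
      ≤ avg6 GPhi a₁ a₂ a₃ b₁ b₂ b₃ := by
  rcases (sS_nonneg ha.sum).eq_or_lt with h1 | h1
  · obtain ⟨e1, e2, e3⟩ := eq_one_of_sS_eq_zero ha.sum h1.symm
    subst e1 e2 e3
    rw [avg6_one_left GPhi GPhi_symm1 GPhi_symm2, sphi_one, ← h1, GPhi_norm hb.sum]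
    simp
  · rcases (sS_nonneg hb.sum).eq_or_lt with h2 | h2
    · obtain ⟨e1, e2, e3⟩ := eq_one_of_sS_eq_zero hb.sum h2.symm
      subst e1 e2 e3
      rw [avg6_one_right, sphi_one, ← h2, GPhi_norm ha.sum]
      simp
    · exact pairB_main ha hb h1 h2

end Vale.Agent.Lib.P154
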