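import Vale.Agent.Lib.P154.PairB

namespace Vale.Agent.Lib.P154

/-- the polynomial `Q` of the radial inequality -/
noncomputable def Qf (z n : ℝ) : ℝ :=
  3 + 3 * n + 3 * n ^ 2 + 6 * n ^ 3 + 3 * n ^ 4 + z * (-1 + 7 * n + 3 * n ^ 2 - 3 * n ^ 3)
    + z ^ 2 * (-3 * n + 6 * n ^ 2 - 3 * n ^ 4) + z ^ 3 * (-3 * n ^ 2 + 3 * n ^ 3) + z ^ 4 * (-n ^ 3 + n ^ 4)

theorem Qf_nonneg (z n : ℝ) (hz0 : 0 ≤ z) (hz1 : z ≤ 1) (hn0 : 0 ≤ n) : 0 ≤ Qf z n := by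
  have z2 : z ^ 2 ≤ 1 := pow_le_one₀ hz0 hz1
  have z3 : z ^ 3 ≤ 1 := pow_le_one₀ hz0 hz1
  have z4 : z ^ 4 ≤ 1 := pow_le_one₀ hz0 hz1
  have a1 : z * (1 + 3 * n ^ 3) ≤ 1 + 3 * n ^ 3 := by
    have : 0 ≤ 1 + 3 * n ^ 3 := by positivity
    nlinarith
  have a2 : z ^ 2 * (3 * n + 3 * n ^ 4) ≤ 3 * n + 3 * n ^ 4 := by
    have : 0 ≤ 3 * n + 3 * n ^ 4 := by positivity
    nlinarith
  have a3 : z ^ 3 * (3 * n ^ 2) ≤ 3 * n ^ 2 := by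
    have : 0 ≤ 3 * n ^ 2 := by positivity
    nlinarith
  have a4 : z ^ 4 * n ^ 3 ≤ n ^ 3 := by
    have : 0 ≤ n ^ 3 := by positivity
    nlinarith
  have b1 : 0 ≤ z * (7 * n + 3 * n ^ 2) := by positivity
  have b2 : 0 ≤ z ^ 2 * (6 * n ^ 2) := by positivity
  have b3 : 0 ≤ z ^ 3 * (3 * n ^ 3) := by positivity
  have b4 : 0 ≤ z ^ 4 * n ^ 4 := by positivity
  have b5 : 0 ≤ n ^ 3 := by positivity
  unfold Qf
  nlinarith

theorem mono_cubic (lam D y y' : ℝ) (hl : lam ^ 2 ≤ 1) (hy : 0 ≤ y) (hyy : y ≤ y') (hy' : y' ≤ D) :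
    3 * D * y ^ 2 - lam ^ 2 * y ^ 3 ≤ 3 * D * y' ^ 2 - lam ^ 2 * y' ^ 3 := by
  have hD : 0 ≤ D := by linarith
  have hy'0 : 0 ≤ y' := by linarith
  have e : (3 * D * y' ^ 2 - lam ^ 2 * y' ^ 3) - (3 * D * y ^ 2 - lam ^ 2 * y ^ 3)
      = (y' - y) * (3 * D * (y' + y) - lam ^ 2 * (y' ^ 2 + y' * y + y ^ 2)) := by ring
  have h1 : y' ^ 2 + y' * y + y ^ 2 ≤ 2 * D * (y' + y) := by nlinarith [mul_nonneg hy hy'0]
  have h2 : 0 ≤ y' ^ 2 + y' * y + y ^ 2 := by positivity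
  have h3 : lam ^ 2 * (y' ^ 2 + y' * y + y ^ 2) ≤ y' ^ 2 + y' * y + y ^ 2 := by nlinarith
  have h4 : 0 ≤ D * (y' + y) := by positivity
  have h5 : 0 ≤ 3 * D * (y' + y) - lam ^ 2 * (y' ^ 2 + y' * y + y ^ 2) := by nlinarith
  have := mul_nonneg (sub_nonneg.2 hyy) h5
  linarith

/-- The key inequality in the radial bound. -/
theorem radial_H (lam n w : ℝ) (hl0 : 0 ≤ lam) (hl1 : lam ≤ 1) (hn0 : 0 ≤ n) (hn1 : n ≤ 1) (hw0 : 0 ≤ w)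
    (hw1 : w ≤ 1) (hC1 : 2 * n ^ 2 ≤ (1 + n) * (1 - w)) :
    lam * ((lam * (1 - n) + (1 - lam) * w) ^ 2 * (3 - lam ^ 2 * (lam * (1 - n) + (1 - lam) * w)))
      ≤ (1 - n) ^ 2 * (3 - (1 - n)) := by
  have hll : lam ^ 2 ≤ 1 := pow_le_one₀ hl0 hl1
  set ν := 1 - n with hν
  have hν0 : 0 ≤ ν := by rw [hν]; linarith
  have hν1 : ν ≤ 1 := by rw [hν]; linarith
  set m := lam * ν + (1 - lam) * w with hm
  have hm0 : 0 ≤ m := by
    have : 0 ≤ 1 - lam := by linarith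
    positivity
  rcases le_total w ν with hc | hc
  · -- first case
    have hmν : m ≤ ν := by
      have : (1 - lam) * w ≤ (1 - lam) * ν := mul_le_mul_of_nonneg_left hc (by linarith)
      rw [hm]; linarith
    have h1 := mono_cubic lam 1 m ν hll hm0 hmν hν1
    have h2 : lam * (m ^ 2 * (3 - lam ^ 2 * m)) ≤ lam * (ν ^ 2 * (3 - lam ^ 2 * ν)) := by
      apply mul_le_mul_of_nonneg_left _ hl0
      nlinarith
    have h3 : lam * (3 - lam ^ 2 * ν) ≤ 3 - ν := by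
      have e : (3 - ν) - lam * (3 - lam ^ 2 * ν) = (1 - lam) * (3 - ν * (1 + lam + lam ^ 2)) := by ring
      have h4 : 0 ≤ 1 - lam := by linarith
      have h5 : ν * (1 + lam + lam ^ 2) ≤ 1 * (1 + lam + 1) := by
        apply mul_le_mul hν1 (by linarith) (by positivity) (by norm_num)
      have h6 : 0 ≤ (1 - lam) * (3 - ν * (1 + lam + lam ^ 2)) := mul_nonneg h4 (by linarith)
      linarith
    have h7 : ν ^ 2 * (lam * (3 - lam ^ 2 * ν)) ≤ ν ^ 2 * (3 - ν) :=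
      mul_le_mul_of_nonneg_left h3 (by positivity)
    nlinarith
  · -- second case
    set z := 1 - lam with hz
    have hz0 : 0 ≤ z := by rw [hz]; linarith
    have hz1 : z ≤ 1 := by rw [hz]; linarith
    have hlam : lam = 1 - z := by rw [hz]; ring
    set D := 1 + n with hD
    have hDpos : 0 < D := by rw [hD]; linarith
    set E := D + z * n with hE
    have hE0 : 0 ≤ E := by rw [hE]; positivity
    have hw' : D * w ≤ ν * (1 + 2 * n) := by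
      rw [hν, hD]
      nlinarith
    have hy : D * m ≤ ν * E := by
      rw [hm, hE, hD, hν]
      rw [hD, hν] at hw'
      have := mul_le_mul_of_nonneg_left hw' hz0
      have e : (1 + n) * (lam * (1 - n) + z * w) = lam * (1 + n) * (1 - n) + z * ((1 + n) * w) := by ring
      rw [e]
      rw [hlam]
      nlinarith
    have hEν : ν * E ≤ D := by
      rw [hE, hD, hν]
      have : (1 - n) * (z * n) ≤ (1 - n) * (1 * n) := by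
        apply mul_le_mul_of_nonneg_left _ (by linarith)
        exact mul_le_mul_of_nonneg_right hz1 hn0
      nlinarith
    have hyn : 0 ≤ D * m := by positivity
    have h1 := mono_cubic lam D (D * m) (ν * E) hll hyn hy hEν
    have h2 : D ^ 3 * (lam * (m ^ 2 * (3 - lam ^ 2 * m)))
        ≤ lam * (3 * D * (ν * E) ^ 2 - lam ^ 2 * (ν * E) ^ 3) := by
      have e : D ^ 3 * (lam * (m ^ 2 * (3 - lam ^ 2 * m)))
          = lam * (3 * D * (D * m) ^ 2 - lam ^ 2 * (D * m) ^ 3) := by ring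
      rw [e]
      exact mul_le_mul_of_nonneg_left h1 hl0
    have hQ := Qf_nonneg z n hz0 hz1 hn0
    have e2 : D ^ 3 * (ν ^ 2 * (3 - ν)) - lam * (3 * D * (ν * E) ^ 2 - lam ^ 2 * (ν * E) ^ 3)
        = ν ^ 2 * (z ^ 2 * Qf z n) := by
      rw [hlam, hE, hD, hν]
      unfold Qf
      ring
    have h3 : 0 ≤ ν ^ 2 * (z ^ 2 * Qf z n) := by positivity
    have h4 : D ^ 3 * (lam * (m ^ 2 * (3 - lam ^ 2 * m))) ≤ D ^ 3 * (ν ^ 2 * (3 - ν)) := by linarith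
    exact le_of_mul_le_mul_left h4 (by positivity)

theorem radial_core (lam n w gp : ℝ) (hl0 : 0 ≤ lam) (hl1 : lam ≤ 1) (hn0 : 0 ≤ n) (hn1 : n ≤ 1)
    (hw0 : 0 ≤ w) (hw1 : w ≤ 1) (hC1 : 2 * n ^ 2 ≤ (1 + n) * (1 - w)) (hgp0 : 0 ≤ gp)
    (hcube : gp ^ 3 = 1 - 3 * lam ^ 2 * w + lam ^ 3 * (n ^ 3 - 1 + 3 * w)) :
    1 - lam ^ 2 * (lam * (1 - n) + (1 - lam) * w) ≤ gp := by
  have hH := radial_H lam n w hl0 hl1 hn0 hn1 hw0 hw1 hC1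
  by_contra hc
  push Not at hc
  have h1 := pow_lt_pow_left₀ hc hgp0 (by norm_num : (3 : ℕ) ≠ 0)
  rw [hcube] at h1
  have e : (1 - lam ^ 2 * (lam * (1 - n) + (1 - lam) * w)) ^ 3
      - (1 - 3 * lam ^ 2 * w + lam ^ 3 * (n ^ 3 - 1 + 3 * w))
      = lam ^ 3 * (lam * ((lam * (1 - n) + (1 - lam) * w) ^ 2 * (3 - lam ^ 2 * (lam * (1 - n) + (1 - lam) * w)))
          - (1 - n) ^ 2 * (3 - (1 - n))) := by
    ring
  have h2 : 0 ≤ lam ^ 3 := by positivity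
  have h3 := mul_nonneg h2 (sub_nonneg.2 hH)
  have h4 : lam ^ 3 * ((1 - n) ^ 2 * (3 - (1 - n))
      - lam * ((lam * (1 - n) + (1 - lam) * w) ^ 2 * (3 - lam ^ 2 * (lam * (1 - n) + (1 - lam) * w))))
      = - (lam ^ 3 * (lam * ((lam * (1 - n) + (1 - lam) * w) ^ 2 * (3 - lam ^ 2 * (lam * (1 - n) + (1 - lam) * w)))
          - (1 - n) ^ 2 * (3 - (1 - n)))) := by ring
  rw [h4, ← e] at h3
  linarith

/-- The bound relating `g` and `S`. -/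
theorem gv_C1 {a₁ a₂ a₃ : ℝ} (hs : a₁ + a₂ + a₃ = 3) (h₁ : 0 ≤ a₁) (h₂ : 0 ≤ a₂) (h₃ : 0 ≤ a₃) :
    2 * gv a₁ a₂ a₃ ^ 2 ≤ (1 + gv a₁ a₂ a₃) * (1 - sS a₁ a₂ a₃ / 6) := by
  have hS0 := sS_nonneg hs
  have hS6 := sS_le_six hs h₁ h₂ h₃
  set S := sS a₁ a₂ a₃ with hS
  set T := sT a₁ a₂ a₃ with hT
  set g := gv a₁ a₂ a₃ with hg
  have hg0 : 0 ≤ g := gv_nonneg' h₁ h₂ h₃
  have hg1 : g ≤ 1 := gv_le_one hs h₁ h₂ h₃
  have hcube : g ^ 3 = 1 - S / 2 + T / 3 := by rw [hg, gv_cube h₁ h₂ h₃]; exact eps_eq hs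
  set r := Real.sqrt (S / 6) with hr
  have hr2 : r ^ 2 = S / 6 := Real.sq_sqrt (by linarith)
  have hr0 : 0 ≤ r := Real.sqrt_nonneg _
  have hr1 : r ≤ 1 := by
    have : r ^ 2 ≤ 1 := by rw [hr2]; linarith
    nlinarith
  have hSr : S = 6 * r ^ 2 := by linarith
  have hdisc := disc_ineq hs
  rw [← hS, ← hT, hSr] at hdisc
  have hTr : T ≤ 6 * r ^ 3 := by
    by_contra hc
    push Not at hc
    have h0 : 0 ≤ 6 * r ^ 3 := by positivity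
    have := pow_lt_pow_left₀ hc h0 (by norm_num : (2 : ℕ) ≠ 0)
    nlinarith
  have hg3 : g ^ 3 ≤ (1 - r) ^ 2 * (1 + 2 * r) := by
    rw [hcube, hSr]
    nlinarith
  set c := 1 - r ^ 2 with hc
  have hc0 : 0 ≤ c := by rw [hc]; nlinarith
  rw [show 1 - S / 6 = c by rw [hc, hr2]]
  by_contra hcon
  push Not at hcon
  have hgpos : 0 < g := by
    rcases hg0.eq_or_lt with h | h
    · rw [← h] at hcon
      norm_num at hcon
      linarith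
    · exact h
  have hC0 : 0 ≤ (1 + g) * c := by positivity
  have hX : ((1 + g) * c) ^ 2 < (2 * g ^ 2) ^ 2 := pow_lt_pow_left₀ hcon hC0 (by norm_num)
  have hY : (1 + g) * (3 + c) ≤ 3 + 3 * g + 2 * g ^ 2 := by nlinarith
  have hY0 : 0 < 3 + 3 * g + 2 * g ^ 2 := by positivity
  have hprod : ((1 + g) * c) ^ 2 * ((1 + g) * (3 + c)) < (2 * g ^ 2) ^ 2 * (3 + 3 * g + 2 * g ^ 2) := by
    calc ((1 + g) * c) ^ 2 * ((1 + g) * (3 + c)) ≤ ((1 + g) * c) ^ 2 * (3 + 3 * g + 2 * g ^ 2) :=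
          mul_le_mul_of_nonneg_left hY (by positivity)
      _ < (2 * g ^ 2) ^ 2 * (3 + 3 * g + 2 * g ^ 2) := mul_lt_mul_of_pos_right hX hY0
  have h5 : (2 * g ^ 2) ^ 2 * (3 + 3 * g + 2 * g ^ 2) ≤ 4 * g ^ 3 * (1 + g) ^ 3 := by
    have e : 4 * g ^ 3 * (1 + g) ^ 3 - (2 * g ^ 2) ^ 2 * (3 + 3 * g + 2 * g ^ 2) = 4 * g ^ 3 * (1 - g ^ 3) := by ring
    have : g ^ 3 ≤ 1 := pow_le_one₀ hg0 hg1
    have h6 : 0 ≤ 4 * g ^ 3 * (1 - g ^ 3) := mul_nonneg (by positivity) (by linarith)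
    linarith
  have h6 : (1 + g) ^ 3 * (c ^ 2 * (3 + c)) < (1 + g) ^ 3 * (4 * g ^ 3) := by
    have e1 : (1 + g) ^ 3 * (c ^ 2 * (3 + c)) = ((1 + g) * c) ^ 2 * ((1 + g) * (3 + c)) := by ring
    have e2 : (1 + g) ^ 3 * (4 * g ^ 3) = 4 * g ^ 3 * (1 + g) ^ 3 := by ring
    rw [e1, e2]
    linarith
  have h7 : c ^ 2 * (3 + c) < 4 * g ^ 3 := lt_of_mul_lt_mul_left h6 (by positivity)
  have h8 : 4 * ((1 - r) ^ 2 * (1 + 2 * r)) ≤ c ^ 2 * (3 + c) := by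
    have e : c ^ 2 * (3 + c) - 4 * ((1 - r) ^ 2 * (1 + 2 * r)) = (1 - r) ^ 3 * r ^ 2 * (3 + r) := by
      rw [hc]; ring
    have h9 : 0 ≤ (1 - r) ^ 3 * r ^ 2 * (3 + r) := by
      have : 0 ≤ 1 - r := by linarith
      positivity
    linarith
  linarith

/-- The inequality (C). -/
theorem radial {a₁ a₂ a₃ lam : ℝ} (hs : a₁ + a₂ + a₃ = 3) (h₁ : 0 ≤ a₁) (h₂ : 0 ≤ a₂) (h₃ : 0 ≤ a₃)
    (hl0 : 0 ≤ lam) (hl1 : lam ≤ 1) :
    lam ^ 3 * sphi a₁ a₂ a₃ ≤ sphi (1 + lam * (a₁ - 1)) (1 + lam * (a₂ - 1)) (1 + lam * (a₃ - 1)) := by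
  have hl' : 0 ≤ 1 - lam := by linarith
  have p₁ : 0 ≤ 1 + lam * (a₁ - 1) := by nlinarith [mul_nonneg hl0 h₁]
  have p₂ : 0 ≤ 1 + lam * (a₂ - 1) := by nlinarith [mul_nonneg hl0 h₂]
  have p₃ : 0 ≤ 1 + lam * (a₃ - 1) := by nlinarith [mul_nonneg hl0 h₃]
  have hsp : (1 + lam * (a₁ - 1)) + (1 + lam * (a₂ - 1)) + (1 + lam * (a₃ - 1)) = 3 := by
    have : (1 + lam * (a₁ - 1)) + (1 + lam * (a₂ - 1)) + (1 + lam * (a₃ - 1)) = 3 + lam * (a₁ + a₂ + a₃ - 3) := by ring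
    rw [this, hs]; ring
  have hSp : sS (1 + lam * (a₁ - 1)) (1 + lam * (a₂ - 1)) (1 + lam * (a₃ - 1)) = lam ^ 2 * sS a₁ a₂ a₃ := by
    rw [sS_eq_sq hsp, sS_eq_sq hs]; ring
  have hTp : sT (1 + lam * (a₁ - 1)) (1 + lam * (a₂ - 1)) (1 + lam * (a₃ - 1)) = lam ^ 3 * sT a₁ a₂ a₃ := by
    unfold sT; ring
  have hC1 := gv_C1 hs h₁ h₂ h₃
  have hcp := gv_cube p₁ p₂ p₃
  rw [eps_eq hsp, hSp, hTp] at hcp
  have hcn := gv_cube h₁ h₂ h₃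
  rw [eps_eq hs] at hcn
  have hS0 := sS_nonneg hs
  have hS6 := sS_le_six hs h₁ h₂ h₃
  have key := radial_core lam (gv a₁ a₂ a₃) (sS a₁ a₂ a₃ / 6)
    (gv (1 + lam * (a₁ - 1)) (1 + lam * (a₂ - 1)) (1 + lam * (a₃ - 1))) hl0 hl1
    (gv_nonneg' h₁ h₂ h₃) (gv_le_one hs h₁ h₂ h₃) (by positivity) (by linarith) hC1
    (gv_nonneg' p₁ p₂ p₃) (by rw [hcp, hcn]; ring)
  unfold sphi
  rw [hSp, hTp]
  nlinarith

end Vale.Agent.Lib.P154
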