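import Vale.Agent.Lib.P154.Radial

namespace Vale.Agent.Lib.P154

/-- homogeneity of degree one on nonnegative vectors -/
def Hom (G : ℝ → ℝ → ℝ → ℝ) : Prop :=
  ∀ c x y z : ℝ, 0 < c → 0 ≤ x → 0 ≤ y → 0 ≤ z → G (c * x) (c * y) (c * z) = c * G x y z

theorem Hom_GS : Hom GS := by
  intro c x y z hc _ _ _
  unfold GS
  rw [show c * x + c * y + c * z = c * (x + y + z) by ring,
    show (c * x) ^ 2 + (c * y) ^ 2 + (c * z) ^ 2 = c ^ 2 * (x ^ 2 + y ^ 2 + z ^ 2) by ring]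
  by_cases h : x + y + z = 0
  · simp [h]
  · field_simp

theorem Hom_GM : Hom GM := by
  intro c x y z _ _ _ _
  unfold GM
  ring

theorem Hom_GE : Hom GE := by
  intro c x y z hc _ _ _
  unfold GE
  rw [show c * x + c * y + c * z = c * (x + y + z) by ring,
    show c * x * (c * y) * (c * z) = c ^ 3 * (x * y * z) by ring]
  by_cases h : x + y + z = 0
  · simp [h]
  · field_simp

theorem gv_const {c : ℝ} (hc : 0 ≤ c) : gv c c c = c := by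
  unfold gv
  rw [show c * c * c = c ^ 3 by ring, show (1 : ℝ) / 3 = ((3 : ℕ) : ℝ)⁻¹ by norm_num]
  exact Real.pow_rpow_inv_natCast hc (by norm_num)

theorem Hom_gv : Hom gv := by
  intro c x y z hc hx hy hz
  rw [gv_mul hc.le hc.le hc.le hx hy hz, gv_const hc.le]

theorem Hom_GPhi : Hom GPhi := by
  intro c x y z hc hx hy hz
  unfold GPhi
  rw [Hom_GS c x y z hc hx hy hz, Hom_GM c x y z hc hx hy hz, Hom_GE c x y z hc hx hy hz,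
    Hom_gv c x y z hc hx hy hz]
  ring

/-- homogeneous version of the weight -/
noncomputable def Gxi (x y z : ℝ) : ℝ :=
  2 / 25 * (GS x y z - (3 / 2 * GS x y z - 3 * GM x y z + 3 * GE x y z)) + 1 / 20 * GS x y z

theorem Hom_Gxi : Hom Gxi := by
  intro c x y z hc hx hy hz
  unfold Gxi
  rw [Hom_GS c x y z hc hx hy hz, Hom_GM c x y z hc hx hy hz, Hom_GE c x y z hc hx hy hz]
  ring

theorem Gxi_norm {x y z : ℝ} (h : x + y + z = 3) : Gxi x y z = sxi x y z := by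
  unfold Gxi sxi GM GE
  rw [GS_norm h, sT_eq h, h]
  ring

theorem GM_norm {x y z : ℝ} (h : x + y + z = 3) : GM x y z = 1 := by
  unfold GM
  rw [h]
  norm_num

theorem avg6_hom {G : ℝ → ℝ → ℝ → ℝ} (hG : Hom G) {a₁ a₂ a₃ b₁ b₂ b₃ m m' : ℝ} (hm : 0 < m) (hm' : 0 < m')
    (h₁ : 0 ≤ a₁) (h₂ : 0 ≤ a₂) (h₃ : 0 ≤ a₃) (k₁ : 0 ≤ b₁) (k₂ : 0 ≤ b₂) (k₃ : 0 ≤ b₃) :
    avg6 G (m * a₁) (m * a₂) (m * a₃) (m' * b₁) (m' * b₂) (m' * b₃)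
      = m * m' * avg6 G a₁ a₂ a₃ b₁ b₂ b₃ := by
  unfold avg6
  have hmm : 0 < m * m' := mul_pos hm hm'
  have key : ∀ u₁ u₂ u₃ v₁ v₂ v₃ : ℝ, 0 ≤ u₁ → 0 ≤ u₂ → 0 ≤ u₃ → 0 ≤ v₁ → 0 ≤ v₂ → 0 ≤ v₃ →
      G (m * u₁ * (m' * v₁)) (m * u₂ * (m' * v₂)) (m * u₃ * (m' * v₃)) = m * m' * G (u₁ * v₁) (u₂ * v₂) (u₃ * v₃) := by
    intro u₁ u₂ u₃ v₁ v₂ v₃ h1 h2 h3 h4 h5 h6
    rw [← hG (m * m') (u₁ * v₁) (u₂ * v₂) (u₃ * v₃) hmm (by positivity) (by positivity) (by positivity)]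
    congr 1 <;> ring
  rw [key _ _ _ _ _ _ h₁ h₂ h₃ k₁ k₂ k₃, key _ _ _ _ _ _ h₁ h₂ h₃ k₂ k₃ k₁, key _ _ _ _ _ _ h₁ h₂ h₃ k₃ k₁ k₂,
    key _ _ _ _ _ _ h₁ h₂ h₃ k₁ k₃ k₂, key _ _ _ _ _ _ h₁ h₂ h₃ k₂ k₁ k₃, key _ _ _ _ _ _ h₁ h₂ h₃ k₃ k₂ k₁]
  ring

/-- Write a positive vector as its mass times a normalised positive vector. -/
theorem exists_norm {x y z : ℝ} (hx : 0 < x) (hy : 0 < y) (hz : 0 < z) :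
    ∃ m a₁ a₂ a₃ : ℝ, 0 < m ∧ NP a₁ a₂ a₃ ∧ x = m * a₁ ∧ y = m * a₂ ∧ z = m * a₃ := by
  have hm : 0 < GM x y z := by unfold GM; positivity
  refine ⟨GM x y z, x / GM x y z, y / GM x y z, z / GM x y z, hm, ⟨by positivity, by positivity, by positivity, ?_⟩,
    ?_, ?_, ?_⟩
  · unfold GM; field_simp
  · field_simp
  · field_simp
  · field_simp

theorem GM_mul (m a₁ a₂ a₃ : ℝ) (h : a₁ + a₂ + a₃ = 3) : GM (m * a₁) (m * a₂) (m * a₃) = m := by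
  unfold GM
  rw [show m * a₁ + m * a₂ + m * a₃ = m * (a₁ + a₂ + a₃) by ring, h]
  ring

/-- The raw form of (A). -/
theorem rawA {x₁ x₂ x₃ y₁ y₂ y₃ : ℝ} (h₁ : 0 < x₁) (h₂ : 0 < x₂) (h₃ : 0 < x₃) (k₁ : 0 < y₁) (k₂ : 0 < y₂)
    (k₃ : 0 < y₃) :
    avg6 GS x₁ x₂ x₃ y₁ y₂ y₃ ≤ GM y₁ y₂ y₃ * GS x₁ x₂ x₃ + GM x₁ x₂ x₃ * GS y₁ y₂ y₃
      - Gxi y₁ y₂ y₃ * GPhi x₁ x₂ x₃ - Gxi x₁ x₂ x₃ * GPhi y₁ y₂ y₃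
      - 1 / 1000 * (GS x₁ x₂ x₃ * GS y₁ y₂ y₃) := by
  obtain ⟨m, a₁, a₂, a₃, hm, ha, rfl, rfl, rfl⟩ := exists_norm h₁ h₂ h₃
  obtain ⟨m', b₁, b₂, b₃, hm', hb, rfl, rfl, rfl⟩ := exists_norm k₁ k₂ k₃
  have pa₁ := ha.p₁.le
  have pa₂ := ha.p₂.le
  have pa₃ := ha.p₃.le
  have pb₁ := hb.p₁.le
  have pb₂ := hb.p₂.le
  have pb₃ := hb.p₃.le
  rw [avg6_hom Hom_GS hm hm' pa₁ pa₂ pa₃ pb₁ pb₂ pb₃, GM_mul _ _ _ _ ha.sum, GM_mul _ _ _ _ hb.sum,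
    Hom_GS m _ _ _ hm pa₁ pa₂ pa₃, Hom_GS m' _ _ _ hm' pb₁ pb₂ pb₃, Hom_GPhi m _ _ _ hm pa₁ pa₂ pa₃,
    Hom_GPhi m' _ _ _ hm' pb₁ pb₂ pb₃, Hom_Gxi m _ _ _ hm pa₁ pa₂ pa₃, Hom_Gxi m' _ _ _ hm' pb₁ pb₂ pb₃,
    GS_norm ha.sum, GS_norm hb.sum, GPhi_norm ha.sum, GPhi_norm hb.sum, Gxi_norm ha.sum, Gxi_norm hb.sum]
  have := mul_le_mul_of_nonneg_left (pairA ha hb) (mul_pos hm hm').le
  linarith

/-- The raw form of (B). -/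
theorem rawB {x₁ x₂ x₃ y₁ y₂ y₃ : ℝ} (h₁ : 0 < x₁) (h₂ : 0 < x₂) (h₃ : 0 < x₃) (k₁ : 0 < y₁) (k₂ : 0 < y₂)
    (k₃ : 0 < y₃) :
    (GM y₁ y₂ y₃ - GS y₁ y₂ y₃ / 6) * GPhi x₁ x₂ x₃ + (GM x₁ x₂ x₃ - GS x₁ x₂ x₃ / 6) * GPhi y₁ y₂ y₃
      ≤ avg6 GPhi x₁ x₂ x₃ y₁ y₂ y₃ := by
  obtain ⟨m, a₁, a₂, a₃, hm, ha, rfl, rfl, rfl⟩ := exists_norm h₁ h₂ h₃
  obtain ⟨m', b₁, b₂, b₃, hm', hb, rfl, rfl, rfl⟩ := exists_norm k₁ k₂ k₃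
  have pa₁ := ha.p₁.le
  have pa₂ := ha.p₂.le
  have pa₃ := ha.p₃.le
  have pb₁ := hb.p₁.le
  have pb₂ := hb.p₂.le
  have pb₃ := hb.p₃.le
  rw [avg6_hom Hom_GPhi hm hm' pa₁ pa₂ pa₃ pb₁ pb₂ pb₃, GM_mul _ _ _ _ ha.sum, GM_mul _ _ _ _ hb.sum,
    Hom_GS m _ _ _ hm pa₁ pa₂ pa₃, Hom_GS m' _ _ _ hm' pb₁ pb₂ pb₃, Hom_GPhi m _ _ _ hm pa₁ pa₂ pa₃,
    Hom_GPhi m' _ _ _ hm' pb₁ pb₂ pb₃, GS_norm ha.sum, GS_norm hb.sum, GPhi_norm ha.sum, GPhi_norm hb.sum]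
  have := mul_le_mul_of_nonneg_left (pairB ha hb) (mul_pos hm hm').le
  nlinarith

theorem rawM (x₁ x₂ x₃ y₁ y₂ y₃ : ℝ) :
    avg6 GM x₁ x₂ x₃ y₁ y₂ y₃ = GM x₁ x₂ x₃ * GM y₁ y₂ y₃ := by
  unfold avg6 GM
  ring

theorem Gxi_nonneg {x y z : ℝ} (hx : 0 < x) (hy : 0 < y) (hz : 0 < z) : 0 ≤ Gxi x y z := by
  obtain ⟨m, a₁, a₂, a₃, hm, ha, rfl, rfl, rfl⟩ := exists_norm hx hy hz
  rw [Hom_Gxi m _ _ _ hm ha.p₁.le ha.p₂.le ha.p₃.le, Gxi_norm ha.sum]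
  have h1 := sT_le_sS ha.sum ha.p₁.le ha.p₂.le ha.p₃.le
  have h2 := sS_nonneg ha.sum
  have : 0 ≤ sxi a₁ a₂ a₃ := by unfold sxi; linarith
  positivity

theorem GS_nonneg {x y z : ℝ} (hx : 0 < x) (hy : 0 < y) (hz : 0 < z) : 0 ≤ GS x y z := by
  obtain ⟨m, a₁, a₂, a₃, hm, ha, rfl, rfl, rfl⟩ := exists_norm hx hy hz
  rw [Hom_GS m _ _ _ hm ha.p₁.le ha.p₂.le ha.p₃.le, GS_norm ha.sum]
  have h2 := sS_nonneg ha.sum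
  positivity

theorem GS_le_six {x y z : ℝ} (hx : 0 < x) (hy : 0 < y) (hz : 0 < z) : GS x y z ≤ 6 * GM x y z := by
  obtain ⟨m, a₁, a₂, a₃, hm, ha, rfl, rfl, rfl⟩ := exists_norm hx hy hz
  rw [Hom_GS m _ _ _ hm ha.p₁.le ha.p₂.le ha.p₃.le, GS_norm ha.sum, GM_mul _ _ _ _ ha.sum]
  have h2 := sS_le_six ha.sum ha.p₁.le ha.p₂.le ha.p₃.le
  nlinarith

/-- One step of the channel on a raw vector. -/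
noncomputable def eStep (lam x₁ x₂ x₃ x : ℝ) : ℝ := lam * x + (1 - lam) * GM x₁ x₂ x₃

theorem eStep_pos {lam x₁ x₂ x₃ x : ℝ} (h0 : 0 ≤ lam) (h1 : lam < 1) (hx : 0 ≤ x) (hm : 0 < GM x₁ x₂ x₃) :
    0 < eStep lam x₁ x₂ x₃ x := by
  unfold eStep
  have : 0 < 1 - lam := by linarith
  positivity

theorem GM_eStep (lam x₁ x₂ x₃ : ℝ) :
    GM (eStep lam x₁ x₂ x₃ x₁) (eStep lam x₁ x₂ x₃ x₂) (eStep lam x₁ x₂ x₃ x₃) = GM x₁ x₂ x₃ := by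
  unfold eStep
  generalize hm : GM x₁ x₂ x₃ = m
  have : x₁ + x₂ + x₃ = 3 * m := by
    rw [← hm]; unfold GM; ring
  unfold GM
  have h3 : x₃ = 3 * m - x₁ - x₂ := by linarith
  subst h3
  ring

/-- Decompose a nonnegative vector of positive mass. -/
theorem exists_norm' {x y z : ℝ} (hx : 0 ≤ x) (hy : 0 ≤ y) (hz : 0 ≤ z) (hm : 0 < GM x y z) :
    ∃ m a₁ a₂ a₃ : ℝ, 0 < m ∧ a₁ + a₂ + a₃ = 3 ∧ 0 ≤ a₁ ∧ 0 ≤ a₂ ∧ 0 ≤ a₃ ∧ x = m * a₁ ∧ y = m * a₂ ∧ z = m * a₃ := by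
  refine ⟨GM x y z, x / GM x y z, y / GM x y z, z / GM x y z, hm, ?_, by positivity, by positivity, by positivity,
    ?_, ?_, ?_⟩
  · have e : x / GM x y z + y / GM x y z + z / GM x y z = (x + y + z) / GM x y z := by ring
    have e2 : x + y + z = 3 * GM x y z := by unfold GM; ring
    rw [e, e2]
    field_simp
  · field_simp
  · field_simp
  · field_simp

theorem eStep_scale {lam m a₁ a₂ a₃ a : ℝ} (hs : a₁ + a₂ + a₃ = 3) :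
    eStep lam (m * a₁) (m * a₂) (m * a₃) (m * a) = m * (1 + lam * (a - 1)) := by
  unfold eStep
  rw [GM_mul _ _ _ _ hs]
  ring

theorem GS_eStep {lam x₁ x₂ x₃ : ℝ} (hl0 : 0 ≤ lam) (hl1 : lam ≤ 1) (h₁ : 0 ≤ x₁) (h₂ : 0 ≤ x₂) (h₃ : 0 ≤ x₃)
    (hm : 0 < GM x₁ x₂ x₃) :
    GS (eStep lam x₁ x₂ x₃ x₁) (eStep lam x₁ x₂ x₃ x₂) (eStep lam x₁ x₂ x₃ x₃) = lam ^ 2 * GS x₁ x₂ x₃ := by
  obtain ⟨m, a₁, a₂, a₃, hm', hs, p₁, p₂, p₃, rfl, rfl, rfl⟩ := exists_norm' h₁ h₂ h₃ hm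
  rw [eStep_scale hs, eStep_scale hs, eStep_scale hs]
  have q₁ : 0 ≤ 1 + lam * (a₁ - 1) := by nlinarith [mul_nonneg hl0 p₁]
  have q₂ : 0 ≤ 1 + lam * (a₂ - 1) := by nlinarith [mul_nonneg hl0 p₂]
  have q₃ : 0 ≤ 1 + lam * (a₃ - 1) := by nlinarith [mul_nonneg hl0 p₃]
  have hsp : (1 + lam * (a₁ - 1)) + (1 + lam * (a₂ - 1)) + (1 + lam * (a₃ - 1)) = 3 := by
    have : (1 + lam * (a₁ - 1)) + (1 + lam * (a₂ - 1)) + (1 + lam * (a₃ - 1)) = 3 + lam * (a₁ + a₂ + a₃ - 3) := by ring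
    rw [this, hs]; ring
  rw [Hom_GS m _ _ _ hm' q₁ q₂ q₃, Hom_GS m _ _ _ hm' p₁ p₂ p₃, GS_norm hsp, GS_norm hs, sS_eq_sq hsp, sS_eq_sq hs]
  ring

theorem GPhi_eStep {lam x₁ x₂ x₃ : ℝ} (hl0 : 0 ≤ lam) (hl1 : lam ≤ 1) (h₁ : 0 ≤ x₁) (h₂ : 0 ≤ x₂) (h₃ : 0 ≤ x₃)
    (hm : 0 < GM x₁ x₂ x₃) :
    lam ^ 3 * GPhi x₁ x₂ x₃ ≤ GPhi (eStep lam x₁ x₂ x₃ x₁) (eStep lam x₁ x₂ x₃ x₂) (eStep lam x₁ x₂ x₃ x₃) := by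
  obtain ⟨m, a₁, a₂, a₃, hm', hs, p₁, p₂, p₃, rfl, rfl, rfl⟩ := exists_norm' h₁ h₂ h₃ hm
  rw [eStep_scale hs, eStep_scale hs, eStep_scale hs]
  have q₁ : 0 ≤ 1 + lam * (a₁ - 1) := by nlinarith [mul_nonneg hl0 p₁]
  have q₂ : 0 ≤ 1 + lam * (a₂ - 1) := by nlinarith [mul_nonneg hl0 p₂]
  have q₃ : 0 ≤ 1 + lam * (a₃ - 1) := by nlinarith [mul_nonneg hl0 p₃]
  have hsp : (1 + lam * (a₁ - 1)) + (1 + lam * (a₂ - 1)) + (1 + lam * (a₃ - 1)) = 3 := by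
    have : (1 + lam * (a₁ - 1)) + (1 + lam * (a₂ - 1)) + (1 + lam * (a₃ - 1)) = 3 + lam * (a₁ + a₂ + a₃ - 3) := by ring
    rw [this, hs]; ring
  rw [Hom_GPhi m _ _ _ hm' q₁ q₂ q₃, Hom_GPhi m _ _ _ hm' p₁ p₂ p₃, GPhi_norm hsp, GPhi_norm hs]
  have := mul_le_mul_of_nonneg_left (radial hs p₁ p₂ p₃ hl0 hl1) hm'.le
  nlinarith

end Vale.Agent.Lib.P154
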